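import Mathlib

/-!
Definitions for P064 (second Kahn-Kalai conjecture): copy counts, the binomial random graph
as a finite weighted sum, expected copy counts and stars.
All graphs live on the common vertex set `Fin n`; a graph with fewer than `n` vertices is
represented by adding isolated vertices.
-/

namespace Vale.Agent.Lib.P064

/-- `copyCount G F` is the number of subgraphs of `G` (edge subsets, on the same vertex set)
that are isomorphic to `F`. -/
noncomputable def copyCount {n : ℕ} (G F : SimpleGraph (Fin n)) : ℕ :=
  Set.ncard {F' : SimpleGraph (Fin n) | F' ≤ G ∧ Nonempty (F' ≃g F)}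

/-- The number of edges of a graph. -/
noncomputable def numEdges {n : ℕ} (G : SimpleGraph (Fin n)) : ℕ := G.edgeSet.ncard

/-- The probability that the binomial random graph `G(n,p)` equals `G`. -/
noncomputable def gnpProb {n : ℕ} (p : ℝ) (G : SimpleGraph (Fin n)) : ℝ :=
  p ^ numEdges G * (1 - p) ^ (n.choose 2 - numEdges G)

/-- The expected number of copies of `F` in `G(n,p)`. -/
noncomputable def expCopies {n : ℕ} (p : ℝ) (F : SimpleGraph (Fin n)) : ℝ :=
  ∑ G : SimpleGraph (Fin n), gnpProb p G * (copyCount G F : ℝ)

/-- `F` is a star with `t` edges (plus isolated vertices): centre `c`, leaf set `A`. -/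
def IsStar {n : ℕ} (F : SimpleGraph (Fin n)) (t : ℕ) : Prop :=
  ∃ (c : Fin n) (A : Finset (Fin n)), c ∉ A ∧ A.card = t ∧
    ∀ u v, F.Adj u v ↔ (u = c ∧ v ∈ A) ∨ (v = c ∧ u ∈ A)

end Vale.Agent.Lib.P064
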