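import Mathlib
import Vale.Agent.Lib.P064.Defs

/-! Counting lemmas for copies of a graph in the complete graph (P064). -/

namespace Vale.Agent.Lib.P064

open Finset

open Classical in
/-- The edge set as a finset. -/
noncomputable def edgeF {n : ℕ} (G : SimpleGraph (Fin n)) : Finset (Sym2 (Fin n)) :=
  (univ : Finset (Sym2 (Fin n))).filter (fun e => e ∈ G.edgeSet)

lemma mem_edgeF {n : ℕ} {G : SimpleGraph (Fin n)} {e : Sym2 (Fin n)} :
    e ∈ edgeF G ↔ e ∈ G.edgeSet := by
  classical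
  simp [edgeF]

lemma coe_edgeF {n : ℕ} (G : SimpleGraph (Fin n)) : (↑(edgeF G) : Set (Sym2 (Fin n))) = G.edgeSet := by
  ext e; simp [mem_edgeF]

lemma edgeF_injective {n : ℕ} : Function.Injective (edgeF (n := n)) := by
  intro G G' h
  have : G.edgeSet = G'.edgeSet := by rw [← coe_edgeF, ← coe_edgeF, h]
  exact SimpleGraph.edgeSet_inj.mp this

lemma numEdges_eq {n : ℕ} (G : SimpleGraph (Fin n)) : numEdges G = (edgeF G).card := by
  rw [numEdges, ← coe_edgeF, Set.ncard_coe_finset]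

open Classical in
/-- The copies of `F` in `G` as a finset. -/
noncomputable def copiesF {n : ℕ} (G F : SimpleGraph (Fin n)) : Finset (SimpleGraph (Fin n)) :=
  (univ : Finset (SimpleGraph (Fin n))).filter (fun F' => F' ≤ G ∧ Nonempty (F' ≃g F))

lemma mem_copiesF {n : ℕ} {G F F' : SimpleGraph (Fin n)} :
    F' ∈ copiesF G F ↔ F' ≤ G ∧ Nonempty (F' ≃g F) := by
  classical
  simp [copiesF]

lemma copyCount_eq {n : ℕ} (G F : SimpleGraph (Fin n)) : copyCount G F = (copiesF G F).card := by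
  rw [copyCount, ← Set.ncard_coe_finset]
  congr 1
  ext F'
  simp [mem_copiesF]

lemma iso_mem_edgeF {n : ℕ} {F F' : SimpleGraph (Fin n)} (ψ : F' ≃g F) (e : Sym2 (Fin n)) :
    Sym2.map ψ e ∈ edgeF F ↔ e ∈ edgeF F' := by
  rw [mem_edgeF, mem_edgeF]
  exact ψ.map_mem_edgeSet_iff

lemma card_edgeF_iso {n : ℕ} {F F' : SimpleGraph (Fin n)} (ψ : F' ≃g F) :
    (edgeF F').card = (edgeF F).card := by
  apply Finset.card_nbij' (Sym2.map ψ) (Sym2.map ψ.symm)
  · intro e he
    exact (iso_mem_edgeF ψ e).mpr he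
  · intro e he
    exact (iso_mem_edgeF ψ.symm e).mpr he
  · intro e _
    rw [Sym2.map_map]
    have : (⇑ψ.symm ∘ ⇑ψ) = id := by ext v; simp
    rw [this, Sym2.map_id]; rfl
  · intro e _
    rw [Sym2.map_map]
    have : (⇑ψ ∘ ⇑ψ.symm) = id := by ext v; simp
    rw [this, Sym2.map_id]; rfl

lemma card_edgeF_top (n : ℕ) : (edgeF (⊤ : SimpleGraph (Fin n))).card = n.choose 2 := by
  classical
  have h := SimpleGraph.card_edgeFinset_top_eq_card_choose_two (V := Fin n)
  rw [Fintype.card_fin] at h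
  rw [← h]
  congr 1
  ext e
  simp [mem_edgeF]

lemma edgeF_subset_top {n : ℕ} (G : SimpleGraph (Fin n)) : edgeF G ⊆ edgeF (⊤ : SimpleGraph (Fin n)) := by
  intro e he
  rw [mem_edgeF] at he ⊢
  exact SimpleGraph.edgeSet_mono le_top he

/-- Trivial count: the copies of `F` in `K_n` are `e(F)`-subsets of the edge set of `K_n`. -/
lemma copyCount_top_le_choose {n : ℕ} (F : SimpleGraph (Fin n)) :
    copyCount ⊤ F ≤ (n.choose 2).choose (numEdges F) := by
  classical
  rw [copyCount_eq, numEdges_eq, ← card_edgeF_top n, ← Finset.card_powersetCard]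
  apply Finset.card_le_card_of_injOn edgeF
  · intro F' hF'
    have hF'' := mem_copiesF.mp (Finset.mem_coe.mp hF')
    obtain ⟨ψ⟩ := hF''.2
    exact Finset.mem_coe.mpr (Finset.mem_powersetCard.mpr ⟨edgeF_subset_top F', card_edgeF_iso ψ⟩)
  · exact edgeF_injective.injOn

end Vale.Agent.Lib.P064
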