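import Mathlib
import Vale.Agent.Lib.P064.Defs

/-!
The containment threshold of P064.
-/

namespace Vale.Agent.Lib.P064

open Classical in
/-- The probability that `G(n,p)` contains a copy of `H`. -/
noncomputable def probContains {n : ℕ} (p : ℝ) (H : SimpleGraph (Fin n)) : ℝ :=
  ∑ G : SimpleGraph (Fin n), gnpProb p G * (if 0 < copyCount G H then (1 : ℝ) else 0)

/-- `p_c(n,H)`: the least `p` in `[0,1]` at which `G(n,p)` contains a copy of `H` with
probability at least `1/2`. -/
noncomputable def pc {n : ℕ} (H : SimpleGraph (Fin n)) : ℝ :=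
  sInf {p : ℝ | 0 ≤ p ∧ p ≤ 1 ∧ 1 / 2 ≤ probContains p H}

end Vale.Agent.Lib.P064
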