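import Mathlib
import Vale.Agent.Lib.P064.Defs

/-!
The two expectation thresholds of P064.
-/

namespace Vale.Agent.Lib.P064

/-- `p_E(n,H)`: the least `p` in `[0,1]` at which every subgraph of `H` has expected count at
least `1/2` in `G(n,p)`. -/
noncomputable def pE {n : ℕ} (H : SimpleGraph (Fin n)) : ℝ :=
  sInf {p : ℝ | 0 ≤ p ∧ p ≤ 1 ∧ ∀ F : SimpleGraph (Fin n), F ≤ H → 1 / 2 ≤ expCopies p F}

/-- The modified threshold: the least `p` in `[0,1]` at which every subgraph `F` of `H` has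
expected count at least `N(H,F)/2` in `G(n,p)`. -/
noncomputable def pTilde {n : ℕ} (H : SimpleGraph (Fin n)) : ℝ :=
  sInf {p : ℝ | 0 ≤ p ∧ p ≤ 1 ∧
    ∀ F : SimpleGraph (Fin n), F ≤ H → (copyCount H F : ℝ) / 2 ≤ expCopies p F}

end Vale.Agent.Lib.P064
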