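import Mathlib
import Vale.Agent.Lib.P064.Defs
import Vale.Agent.Lib.P064.Count

/-! The expected number of copies of `F` in `G(n,p)` is `N(K_n,F) p^{e(F)}` (P064). -/

namespace Vale.Agent.Lib.P064

open Finset

lemma le_iff_edgeF_subset {n : ℕ} {G G' : SimpleGraph (Fin n)} : G ≤ G' ↔ edgeF G ⊆ edgeF G' := by
  rw [← SimpleGraph.edgeSet_subset_edgeSet, ← coe_edgeF, ← coe_edgeF, Finset.coe_subset]

lemma edgeF_fromEdgeSet {n : ℕ} (T : Finset (Sym2 (Fin n)))
    (hT : T ⊆ edgeF (⊤ : SimpleGraph (Fin n))) :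
    edgeF (SimpleGraph.fromEdgeSet (↑T : Set (Sym2 (Fin n)))) = T := by
  ext e
  rw [mem_edgeF, SimpleGraph.edgeSet_fromEdgeSet]
  constructor
  · intro h
    exact Finset.mem_coe.mp h.1
  · intro h
    refine ⟨Finset.mem_coe.mpr h, ?_⟩
    have h1 := hT h
    rw [mem_edgeF] at h1
    exact SimpleGraph.not_isDiag_of_mem_edgeSet _ h1

open Classical in
lemma sum_gnpProb_ge {n : ℕ} (p : ℝ) (F' : SimpleGraph (Fin n)) :
    (∑ G : SimpleGraph (Fin n), (if F' ≤ G then gnpProb p G else 0)) = p ^ numEdges F' := by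
  rw [← Finset.sum_filter]
  set E' := edgeF F' with hE'
  set R := edgeF (⊤ : SimpleGraph (Fin n)) \ E' with hR
  have hE'top : E' ⊆ edgeF (⊤ : SimpleGraph (Fin n)) := edgeF_subset_top F'
  have hRcard : R.card = n.choose 2 - E'.card := by
    rw [hR, Finset.card_sdiff_of_subset hE'top, card_edgeF_top]
  have hbij : (∑ G ∈ (univ : Finset (SimpleGraph (Fin n))).filter (fun G => F' ≤ G), gnpProb p G)
      = ∑ T ∈ R.powerset, p ^ E'.card * (p ^ T.card * (1 - p) ^ (R.card - T.card)) := by
    apply Finset.sum_nbij' (fun G => edgeF G \ E')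
      (fun T => SimpleGraph.fromEdgeSet (↑(E' ∪ T) : Set (Sym2 (Fin n))))
    · intro G _
      rw [Finset.mem_powerset, hR]
      exact Finset.sdiff_subset_sdiff (edgeF_subset_top G) (le_refl _)
    · intro T hT
      rw [Finset.mem_powerset] at hT
      rw [Finset.mem_filter]
      refine ⟨Finset.mem_univ _, ?_⟩
      rw [le_iff_edgeF_subset, edgeF_fromEdgeSet]
      · exact Finset.subset_union_left
      · exact Finset.union_subset hE'top (hT.trans Finset.sdiff_subset)
    · intro G hG
      rw [Finset.mem_filter] at hG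
      have hsub : E' ⊆ edgeF G := le_iff_edgeF_subset.mp hG.2
      rw [Finset.union_sdiff_of_subset hsub, coe_edgeF, SimpleGraph.fromEdgeSet_edgeSet]
    · intro T hT
      rw [Finset.mem_powerset] at hT
      rw [edgeF_fromEdgeSet]
      · rw [Finset.union_sdiff_cancel_left]
        exact Finset.disjoint_of_subset_right hT Finset.disjoint_sdiff
      · exact Finset.union_subset hE'top (hT.trans Finset.sdiff_subset)
    · intro G hG
      rw [Finset.mem_filter] at hG
      have hsub : E' ⊆ edgeF G := le_iff_edgeF_subset.mp hG.2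
      have hc : (edgeF G \ E').card = (edgeF G).card - E'.card :=
        Finset.card_sdiff_of_subset hsub
      have hle : E'.card ≤ (edgeF G).card := Finset.card_le_card hsub
      have hle2 : (edgeF G).card ≤ n.choose 2 := by
        rw [← card_edgeF_top]; exact Finset.card_le_card (edgeF_subset_top G)
      rw [gnpProb, numEdges_eq, hc, hRcard, ← mul_assoc, ← pow_add]
      congr 2
      · omega
      · omega
  rw [hbij, ← Finset.mul_sum, Finset.sum_pow_mul_eq_add_pow, numEdges_eq]
  simp [hE']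

lemma copiesF_eq_filter {n : ℕ} (G F : SimpleGraph (Fin n)) [DecidablePred (fun F' => F' ≤ G)] :
    copiesF G F = (copiesF ⊤ F).filter (fun F' => F' ≤ G) := by
  ext F'
  rw [Finset.mem_filter, mem_copiesF, mem_copiesF]
  constructor
  · intro h; exact ⟨⟨le_top, h.2⟩, h.1⟩
  · intro h; exact ⟨h.2, h.1.2⟩

lemma numEdges_iso {n : ℕ} {F F' : SimpleGraph (Fin n)} (ψ : F' ≃g F) :
    numEdges F' = numEdges F := by
  rw [numEdges_eq, numEdges_eq, card_edgeF_iso ψ]

/-- Linearity of expectation: `E N(G(n,p),F) = N(K_n,F) p^{e(F)}`. -/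
lemma expCopies_eq {n : ℕ} (p : ℝ) (F : SimpleGraph (Fin n)) :
    expCopies p F = (copyCount ⊤ F : ℝ) * p ^ numEdges F := by
  classical
  have h1 : ∀ G : SimpleGraph (Fin n), gnpProb p G * (copyCount G F : ℝ)
      = ∑ F' ∈ copiesF ⊤ F, (if F' ≤ G then gnpProb p G else 0) := by
    intro G
    rw [copyCount_eq, copiesF_eq_filter G F, ← Finset.sum_filter, Finset.sum_const, nsmul_eq_mul,
      mul_comm]
  rw [expCopies, Finset.sum_congr rfl (fun G _ => h1 G), Finset.sum_comm]
  rw [Finset.sum_congr rfl (g := fun _ => p ^ numEdges F)]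
  · rw [Finset.sum_const, nsmul_eq_mul, copyCount_eq]
  · intro F' hF'
    obtain ⟨-, ⟨ψ⟩⟩ := mem_copiesF.mp hF'
    rw [sum_gnpProb_ge, numEdges_iso ψ]

end Vale.Agent.Lib.P064
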