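import Mathlib
import Vale.Agent.Lib.P064.Defs
import Vale.Agent.Lib.P064.Count

/-!
Copies versus embeddings: the number of permutations mapping `F` into `G` is the number of
copies of `F` in `G` times the number of automorphisms.
-/

set_option linter.unusedSectionVars false

namespace Vale.Agent.Lib.P064

open Finset

variable {n : ℕ}

open Classical in
/-- Permutations of the vertex set mapping every edge of `F` to an edge of `G`. -/
noncomputable def embSet (F G : SimpleGraph (Fin n)) : Finset (Equiv.Perm (Fin n)) :=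
  univ.filter (fun σ => ∀ a b, F.Adj a b → G.Adj (σ a) (σ b))

lemma mem_embSet {F G : SimpleGraph (Fin n)} {σ : Equiv.Perm (Fin n)} :
    σ ∈ embSet F G ↔ ∀ a b, F.Adj a b → G.Adj (σ a) (σ b) := by
  classical
  simp [embSet]

/-- The image of a graph under a permutation. -/
def imG (σ : Equiv.Perm (Fin n)) (F : SimpleGraph (Fin n)) : SimpleGraph (Fin n) :=
  F.comap σ.symm

lemma imG_adj (σ : Equiv.Perm (Fin n)) (F : SimpleGraph (Fin n)) (u v : Fin n) :
    (imG σ F).Adj u v ↔ F.Adj (σ.symm u) (σ.symm v) := Iff.rfl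

lemma imG_mul (σ τ : Equiv.Perm (Fin n)) (F : SimpleGraph (Fin n)) :
    imG (σ * τ) F = imG σ (imG τ F) := by
  ext u v
  simp [imG_adj, Equiv.Perm.mul_def]

lemma imG_le_iff (σ : Equiv.Perm (Fin n)) (F G : SimpleGraph (Fin n)) :
    imG σ F ≤ G ↔ ∀ a b, F.Adj a b → G.Adj (σ a) (σ b) := by
  constructor
  · intro h a b hab
    apply h
    rw [imG_adj]
    simpa using hab
  · intro h u v huv
    rw [imG_adj] at huv
    have := h _ _ huv
    simpa using this

theorem card_embSet (F G : SimpleGraph (Fin n)) :
    (embSet F G).card = copyCount G F * (embSet F F).card := by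
  classical
  rw [copyCount_eq]
  have hmaps : ∀ σ ∈ embSet F G, imG σ F ∈ copiesF G F := by
    intro σ hσ
    rw [mem_copiesF]
    exact ⟨(imG_le_iff σ F G).mpr (mem_embSet.mp hσ), ⟨⟨σ.symm, Iff.rfl⟩⟩⟩
  rw [Finset.card_eq_sum_card_fiberwise hmaps]
  -- the stabiliser
  set S := (univ : Finset (Equiv.Perm (Fin n))).filter (fun τ => imG τ F = F) with hS
  have hSemb : embSet F F = S := by
    ext τ
    rw [mem_embSet, hS, Finset.mem_filter]
    constructor
    · intro h
      refine ⟨Finset.mem_univ _, ?_⟩
      have hle : imG τ F ≤ F := (imG_le_iff τ F F).mpr h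
      have hcard : (edgeF (imG τ F)).card = (edgeF F).card :=
        card_edgeF_iso (⟨τ.symm, Iff.rfl⟩ : imG τ F ≃g F)
      have hsub : edgeF (imG τ F) ⊆ edgeF F := by
        intro e he
        rw [mem_edgeF] at he ⊢
        exact SimpleGraph.edgeSet_mono hle he
      exact edgeF_injective (Finset.eq_of_subset_of_card_le hsub hcard.ge)
    · rintro ⟨_, h⟩
      exact (imG_le_iff τ F F).mp h.le
  have hfib : ∀ F' ∈ copiesF G F,
      ((embSet F G).filter (fun σ => imG σ F = F')).card = S.card := by
    intro F' hF'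
    rw [mem_copiesF] at hF'
    obtain ⟨hle, ⟨ψ⟩⟩ := hF'
    set σ₀ : Equiv.Perm (Fin n) := ψ.symm.toEquiv with hσ₀
    have h0 : imG σ₀ F = F' := by
      ext u v
      rw [imG_adj]
      exact ψ.map_rel_iff
    symm
    apply Finset.card_nbij' (fun τ => σ₀ * τ) (fun σ => σ₀⁻¹ * σ)
    · intro τ hτ
      have hτ' : imG τ F = F := (Finset.mem_filter.mp hτ).2
      have h1 : imG (σ₀ * τ) F = F' := by rw [imG_mul, hτ', h0]
      simp only [Finset.coe_filter, Set.mem_ofPred_eq]
      refine ⟨?_, h1⟩
      rw [mem_embSet, ← imG_le_iff, h1]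
      exact hle
    · intro σ hσ
      have hσ' : imG σ F = F' := (Finset.mem_filter.mp hσ).2
      simp only [hS, Finset.coe_filter, Set.mem_ofPred_eq, Finset.mem_univ, true_and]
      have h2 : imG σ₀⁻¹ F' = F := by
        rw [← h0, ← imG_mul, inv_mul_cancel]
        ext u v
        rw [imG_adj]
        rfl
      rw [imG_mul, hσ', h2]
    · intro τ _
      simp
    · intro σ _
      simp
  rw [Finset.sum_congr rfl hfib, Finset.sum_const, smul_eq_mul, hSemb]

lemma embSet_top (F : SimpleGraph (Fin n)) : embSet F ⊤ = univ := by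
  ext σ
  rw [mem_embSet]
  simp only [Finset.mem_univ, iff_true]
  intro a b hab
  rw [SimpleGraph.top_adj]
  exact fun h => hab.ne (σ.injective h)

/-- The ratio of copy counts equals the fraction of permutations embedding `F`. -/
theorem copyCount_mul_factorial (F H : SimpleGraph (Fin n)) :
    copyCount H F * n.factorial = copyCount ⊤ F * (embSet F H).card := by
  have h1 := card_embSet F H
  have h2 := card_embSet F ⊤
  rw [embSet_top, Finset.card_univ, Fintype.card_perm, Fintype.card_fin] at h2
  rw [h1, h2]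
  ring

end Vale.Agent.Lib.P064
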