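import Mathlib

/-!
Every acyclic graph can be rooted: there is a parent map and a depth function.
-/

namespace Vale.Agent.Lib.P064

open SimpleGraph

theorem exists_rooting {V : Type*} (H : SimpleGraph V) (hH : H.IsAcyclic) :
    ∃ (par : V → V) (depth : V → ℕ),
      (∀ v, par v ≠ v → H.Adj v (par v) ∧ depth v = depth (par v) + 1) ∧
      (∀ u v, H.Adj u v → par u = v ∨ par v = u) := by
  classical
  set r : V → V := fun v => (H.connectedComponentMk v).out with hr
  have hreach : ∀ v, H.Reachable (r v) v := by
    intro v
    apply ConnectedComponent.exact
    exact Quot.out_eq (H.connectedComponentMk v)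
  have hradj : ∀ u v, H.Adj u v → r u = r v := by
    intro u v h
    have : H.connectedComponentMk u = H.connectedComponentMk v :=
      ConnectedComponent.sound h.reachable
    simp only [hr, this]
  set depth : V → ℕ := fun v => H.dist (r v) v with hdepth
  have huniq : ∀ v w w', H.Adj v w → H.Adj v w' → depth w + 1 = depth v →
      depth w' + 1 = depth v → w = w' := by
    intro v w w' hw hw' hd hd'
    obtain ⟨p, hp, _⟩ := (hreach v).exists_path_of_dist
    have key : ∀ t, H.Adj v t → depth t + 1 = depth v → t = p.penultimate := by
      intro t ht hdt
      have hrt : r t = r v := (hradj v t ht).symm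
      have hreach' : H.Reachable (r v) t := hrt ▸ hreach t
      obtain ⟨q, hq, hql⟩ := hreach'.exists_path_of_dist
      have hv : v ∉ q.support := by
        intro hmem
        have h1 : H.dist (r v) v ≤ (q.takeUntil v hmem).length := dist_le _
        have h2 : (q.takeUntil v hmem).length ≤ q.length := q.length_takeUntil_le_length hmem
        simp only [hdepth, hrt] at hdt
        omega
      have hsupp : t ∈ p.support :=
        hH.mem_support_of_ne_mem_support_of_adj_of_isPath hp hq ht hv
      exact hH.eq_penultimate_of_adj_end hp ht hsupp
    rw [key w hw hd, key w' hw' hd']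
  set par : V → V := fun v =>
    if h : ∃ w, H.Adj v w ∧ depth w + 1 = depth v then h.choose else v with hpar
  refine ⟨par, depth, ?_, ?_⟩
  · intro v hv
    by_cases h : ∃ w, H.Adj v w ∧ depth w + 1 = depth v
    · have : par v = h.choose := by simp only [hpar, dif_pos h]
      rw [this]
      exact ⟨h.choose_spec.1, h.choose_spec.2.symm⟩
    · exfalso
      apply hv
      simp only [hpar, dif_neg h]
  · intro u v huv
    have hcase := hH.dist_eq_dist_add_one_of_adj_of_reachable (r u) huv (hreach u)
    have hruv := hradj u v huv
    rcases hcase with h1 | h1
    · left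
      have h : ∃ w, H.Adj u w ∧ depth w + 1 = depth u := by
        refine ⟨v, huv, ?_⟩
        simp only [hdepth, ← hruv]
        exact h1.symm
      have : par u = h.choose := by simp only [hpar, dif_pos h]
      rw [this]
      apply huniq u _ _ h.choose_spec.1 huv h.choose_spec.2
      simp only [hdepth, ← hruv]
      exact h1.symm
    · right
      have h : ∃ w, H.Adj v w ∧ depth w + 1 = depth v := by
        refine ⟨u, huv.symm, ?_⟩
        simp only [hdepth, ← hruv]
        exact h1.symm
      have : par v = h.choose := by simp only [hpar, dif_pos h]
      rw [this]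
      apply huniq v _ _ h.choose_spec.1 huv.symm h.choose_spec.2
      simp only [hdepth, ← hruv]
      exact h1.symm

end Vale.Agent.Lib.P064
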