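import Mathlib

/-! Real-number estimates used for P064 (star case of the domination inequality). -/

namespace Vale.Agent.Lib.P064

open Finset Real

/-- `C(M,k) q^k ≤ θ^k exp (B q / θ)` whenever `M ≤ B`. -/
lemma choose_mul_pow_le (M k : ℕ) (q B θ : ℝ) (hq : 0 ≤ q) (hB : (M : ℝ) ≤ B) (hθ : 0 < θ) :
    (M.choose k : ℝ) * q ^ k ≤ θ ^ k * Real.exp (B * q / θ) := by
  have hM : (0 : ℝ) ≤ M := Nat.cast_nonneg M
  have h1 : (M.choose k : ℝ) ≤ (M : ℝ) ^ k / (k.factorial : ℝ) := Nat.choose_le_pow_div k M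
  have hfac : (0 : ℝ) < (k.factorial : ℝ) := by exact_mod_cast Nat.factorial_pos k
  have h2 : (M : ℝ) ^ k / (k.factorial : ℝ) ≤ B ^ k / (k.factorial : ℝ) := by
    apply div_le_div_of_nonneg_right _ hfac.le
    exact pow_le_pow_left₀ hM hB k
  have h3 : (B * q / θ) ^ k / (k.factorial : ℝ) ≤ Real.exp (B * q / θ) := by
    apply Real.pow_div_factorial_le_exp
    have : 0 ≤ B := le_trans hM hB
    positivity
  calc (M.choose k : ℝ) * q ^ k ≤ (B ^ k / (k.factorial : ℝ)) * q ^ k := by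
        apply mul_le_mul_of_nonneg_right (le_trans h1 h2) (pow_nonneg hq k)
    _ = θ ^ k * ((B * q / θ) ^ k / (k.factorial : ℝ)) := by
        rw [div_pow, mul_pow]
        field_simp
    _ ≤ θ ^ k * Real.exp (B * q / θ) := by
        apply mul_le_mul_of_nonneg_left h3 (pow_nonneg hθ.le k)

/-- If the expected number of `m`-subsets of an `M`-set is at least one then `m ≤ e M q`. -/
lemma edge_bound (M m : ℕ) (q : ℝ) (hq : 0 ≤ q) (h : 1 ≤ (M.choose m : ℝ) * q ^ m) :
    (m : ℝ) ≤ Real.exp 1 * (M * q) := by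
  rcases Nat.eq_zero_or_pos m with hm | hm
  · subst hm
    have : (0 : ℝ) ≤ M := Nat.cast_nonneg M
    simp only [Nat.cast_zero]
    positivity
  have hm' : (0 : ℝ) < m := by exact_mod_cast hm
  have hMq : 0 < (M : ℝ) * q := by
    by_contra hcon
    have hM : (0 : ℝ) ≤ M := Nat.cast_nonneg M
    have h0 : (M : ℝ) * q = 0 := le_antisymm (not_lt.mp hcon) (mul_nonneg hM hq)
    rcases mul_eq_zero.mp h0 with h1 | h1
    · have : M = 0 := by exact_mod_cast h1
      subst this
      rw [Nat.choose_eq_zero_of_lt hm] at h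
      simp at h
      linarith
    · subst h1
      rw [zero_pow hm.ne'] at h
      simp at h
      linarith
  have key := choose_mul_pow_le M m q M (M * q / m) hq le_rfl (by positivity)
  have e1 : (M : ℝ) * q / (M * q / m) = m := by
    have hne : (M : ℝ) * q ≠ 0 := hMq.ne'
    rw [div_div_eq_mul_div, mul_comm, mul_div_assoc, div_self hne, mul_one]
  rw [e1] at key
  have e2 : (M * q / m : ℝ) ^ m * Real.exp m = (Real.exp 1 * (M * q) / m) ^ m := by
    have : Real.exp (m : ℝ) = (Real.exp 1) ^ m := by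
      rw [← Real.exp_nat_mul]; simp
    rw [this, ← mul_pow]
    congr 1
    ring
  rw [e2] at key
  have h1 : 1 ≤ (Real.exp 1 * (M * q) / m) ^ m := le_trans h key
  have h2 : 1 ≤ Real.exp 1 * (M * q) / m :=
    (one_le_pow_iff_of_nonneg (by positivity) hm.ne').mp h1
  rwa [le_div_iff₀ hm', one_mul] at h2

/-- `s^s ≤ e^s s!`. -/
lemma pow_self_le (s : ℕ) : (s : ℝ) ^ s ≤ Real.exp s * (s.factorial : ℝ) := by
  have hfac : (0 : ℝ) < (s.factorial : ℝ) := by exact_mod_cast Nat.factorial_pos s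
  have := Real.pow_div_factorial_le_exp (s : ℝ) (Nat.cast_nonneg s) s
  rwa [div_le_iff₀ hfac] at this

/-- The key estimate: a block count with expectation at least one forces few heavy vertices. -/
lemma key_estimate (n s d x y : ℕ) (q : ℝ) (hq : 0 < q) (hs : 1 ≤ s) (hsn : s ≤ n) (hd : 1 ≤ d)
    (h1 : 1 ≤ (n.choose s : ℝ) * (((s + 1).choose 2).choose x : ℝ) * ((s * n).choose y : ℝ)
      * q ^ (x + y))
    (h2 : (s : ℝ) * d ≤ 3 * ((n : ℝ) ^ 2 * q))
    (h3 : s * d ≤ 2 * x + y) :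
    (s : ℝ) ≤ Real.exp 1 * n * (Real.exp 4 * (n * q / d)) ^ d := by
  have hs' : (0 : ℝ) < s := by exact_mod_cast hs
  have hn' : (0 : ℝ) < n := by exact_mod_cast (lt_of_lt_of_le hs hsn)
  have hd' : (0 : ℝ) < d := by exact_mod_cast hd
  have hsn' : (s : ℝ) ≤ n := by exact_mod_cast hsn
  set A : ℝ := n * q / d with hA
  have hApos : 0 < A := by positivity
  have hexp1 : (1 : ℝ) ≤ Real.exp 1 := by
    have := Real.add_one_le_exp (1 : ℝ); linarith
  have hexp4 : (1 : ℝ) ≤ Real.exp 4 := by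
    have := Real.add_one_le_exp (4 : ℝ); linarith
  by_cases hA1 : 1 < A
  · have h5 : 1 ≤ Real.exp 4 * A := by nlinarith
    have h6 : 1 ≤ (Real.exp 4 * A) ^ d := one_le_pow₀ h5
    calc (s : ℝ) ≤ n := hsn'
      _ = 1 * n * 1 := by ring
      _ ≤ Real.exp 1 * n * (Real.exp 4 * A) ^ d := by
          apply mul_le_mul _ h6 zero_le_one (by positivity)
          exact mul_le_mul_of_nonneg_right hexp1 hn'.le
  rw [not_lt] at hA1
  -- the three factors
  have T1 : (n.choose s : ℝ) * (s : ℝ) ^ s ≤ (n : ℝ) ^ s * Real.exp s := by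
    have hfac : (0 : ℝ) < (s.factorial : ℝ) := by exact_mod_cast Nat.factorial_pos s
    have c1 : (n.choose s : ℝ) ≤ (n : ℝ) ^ s / (s.factorial : ℝ) := Nat.choose_le_pow_div s n
    calc (n.choose s : ℝ) * (s : ℝ) ^ s ≤ ((n : ℝ) ^ s / (s.factorial : ℝ)) *
          (Real.exp s * (s.factorial : ℝ)) :=
          mul_le_mul c1 (pow_self_le s) (by positivity) (by positivity)
      _ = (n : ℝ) ^ s * Real.exp s := by field_simp
  have hB2 : (((s + 1).choose 2 : ℕ) : ℝ) ≤ (s : ℝ) ^ 2 := by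
    have : (s + 1).choose 2 ≤ s ^ 2 := by
      rw [Nat.choose_two_right]
      have h7 : (s + 1) * (s + 1 - 1) ≤ 2 * s ^ 2 := by
        simp only [Nat.add_sub_cancel]
        nlinarith
      omega
    exact_mod_cast this
  have T2 := choose_mul_pow_le ((s + 1).choose 2) x q ((s : ℝ) ^ 2) (A ^ 2) hq.le hB2 (by positivity)
  have hB3 : ((s * n : ℕ) : ℝ) ≤ (s : ℝ) * n := by push_cast; exact le_rfl
  have T3 := choose_mul_pow_le (s * n) y q ((s : ℝ) * n) A hq.le hB3 hApos
  have e2 : (s : ℝ) ^ 2 * q / A ^ 2 ≤ 3 * ((s : ℝ) * d) := by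
    have : (s : ℝ) ^ 2 * q / A ^ 2 = ((s : ℝ) * d) * ((s : ℝ) * d) / ((n : ℝ) ^ 2 * q) := by
      rw [hA]; field_simp
    rw [this, div_le_iff₀ (by positivity)]
    have hsd : 0 ≤ (s : ℝ) * d := by positivity
    nlinarith
  have e3 : (s : ℝ) * n * q / A = (s : ℝ) * d := by
    rw [hA]; field_simp
  rw [e3] at T3
  have T2' : (((s + 1).choose 2).choose x : ℝ) * q ^ x ≤ (A ^ 2) ^ x * Real.exp (3 * ((s : ℝ) * d)) :=
    le_trans T2 (mul_le_mul_of_nonneg_left (Real.exp_le_exp.mpr e2) (by positivity))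
  have hprod : (((s + 1).choose 2).choose x : ℝ) * ((s * n).choose y : ℝ) * q ^ (x + y)
      ≤ A ^ (s * d) * Real.exp (4 * ((s : ℝ) * d)) := by
    calc (((s + 1).choose 2).choose x : ℝ) * ((s * n).choose y : ℝ) * q ^ (x + y)
        = ((((s + 1).choose 2).choose x : ℝ) * q ^ x) * (((s * n).choose y : ℝ) * q ^ y) := by
          rw [pow_add]; ring
      _ ≤ ((A ^ 2) ^ x * Real.exp (3 * ((s : ℝ) * d))) * (A ^ y * Real.exp ((s : ℝ) * d)) :=
          mul_le_mul T2' T3 (by positivity) (by positivity)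
      _ = A ^ (2 * x + y) * Real.exp (4 * ((s : ℝ) * d)) := by
          rw [← pow_mul, pow_add]
          have : Real.exp (4 * ((s : ℝ) * d)) = Real.exp (3 * ((s : ℝ) * d)) * Real.exp ((s : ℝ) * d) := by
            rw [← Real.exp_add]; congr 1; ring
          rw [this]; ring
      _ ≤ A ^ (s * d) * Real.exp (4 * ((s : ℝ) * d)) := by
          apply mul_le_mul_of_nonneg_right _ (Real.exp_pos _).le
          exact pow_le_pow_of_le_one hApos.le hA1 h3
  have hmain : (s : ℝ) ^ s ≤ (Real.exp 1 * n * (Real.exp 4 * A) ^ d) ^ s := by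
    have hc : (0 : ℝ) ≤ (n.choose s : ℝ) := Nat.cast_nonneg _
    calc (s : ℝ) ^ s = 1 * (s : ℝ) ^ s := by ring
      _ ≤ ((n.choose s : ℝ) * (((s + 1).choose 2).choose x : ℝ) * ((s * n).choose y : ℝ)
            * q ^ (x + y)) * (s : ℝ) ^ s := mul_le_mul_of_nonneg_right h1 (by positivity)
      _ = ((n.choose s : ℝ) * (s : ℝ) ^ s) * ((((s + 1).choose 2).choose x : ℝ)
            * ((s * n).choose y : ℝ) * q ^ (x + y)) := by ring
      _ ≤ ((n : ℝ) ^ s * Real.exp s) * (A ^ (s * d) * Real.exp (4 * ((s : ℝ) * d))) :=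
          mul_le_mul T1 hprod (by positivity) (by positivity)
      _ = (Real.exp 1 * n * (Real.exp 4 * A) ^ d) ^ s := by
          have x1 : Real.exp (s : ℝ) = (Real.exp 1) ^ s := by
            rw [← Real.exp_nat_mul]; simp
          have x2 : Real.exp (4 * ((s : ℝ) * d)) = ((Real.exp 4) ^ d) ^ s := by
            rw [← Real.exp_nat_mul, ← Real.exp_nat_mul]; congr 1; ring
          rw [x1, x2, mul_pow, mul_pow, mul_pow, mul_comm s d, pow_mul]
          ring
  exact (pow_le_pow_iff_left₀ hs'.le (by positivity) (by omega)).mp hmain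

end Vale.Agent.Lib.P064
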