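import Mathlib

/-!
The key real inequality behind the forest case of P064: a sum over subsets of children is
dominated by a constant times the largest term at a larger parameter.
-/

set_option linter.unusedSectionVars false

namespace Vale.Agent.Lib.P064

open Finset

section KeyIneq

variable {ι : Type*} [DecidableEq ι]

lemma sum_powerset_split (I : Finset ι) (p : ι → Prop) [DecidablePred p] (f g : Finset ι → ℝ) :
    ∑ M ∈ I.powerset, f (M.filter p) * g (M.filter (fun i => ¬ p i))
      = (∑ M ∈ (I.filter p).powerset, f M) *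
        (∑ M ∈ (I.filter (fun i => ¬ p i)).powerset, g M) := by
  rw [Finset.sum_mul_sum, ← Finset.sum_product']
  apply Finset.sum_nbij' (fun M => (M.filter p, M.filter (fun i => ¬ p i)))
    (fun x => x.1 ∪ x.2)
  · intro M hM
    rw [Finset.mem_powerset] at hM
    simp only [Finset.mem_product, Finset.mem_powerset]
    exact ⟨Finset.filter_subset_filter _ hM, Finset.filter_subset_filter _ hM⟩
  · intro x hx
    simp only [Finset.mem_product, Finset.mem_powerset] at hx
    rw [Finset.mem_powerset]
    exact Finset.union_subset (hx.1.trans (Finset.filter_subset _ _))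
      (hx.2.trans (Finset.filter_subset _ _))
  · intro M _
    exact Finset.filter_union_filter_not_eq p M
  · intro x hx
    simp only [Finset.mem_product, Finset.mem_powerset] at hx
    obtain ⟨h1, h2⟩ := hx
    have e1 : (x.1 ∪ x.2).filter p = x.1 := by
      ext i
      simp only [Finset.mem_filter, Finset.mem_union]
      constructor
      · rintro ⟨h | h, hp⟩
        · exact h
        · exact absurd hp (Finset.mem_filter.mp (h2 h)).2
      · intro h
        exact ⟨Or.inl h, (Finset.mem_filter.mp (h1 h)).2⟩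
    have e2 : (x.1 ∪ x.2).filter (fun i => ¬ p i) = x.2 := by
      ext i
      simp only [Finset.mem_filter, Finset.mem_union]
      constructor
      · rintro ⟨h | h, hp⟩
        · exact absurd (Finset.mem_filter.mp (h1 h)).2 hp
        · exact h
      · intro h
        exact ⟨Or.inr h, (Finset.mem_filter.mp (h2 h)).2⟩
    exact Prod.ext e1 e2
  · intro M _
    rfl

/-- Light sums: if `|J| c ≤ 1/2` then the factorial weighted subset sum is at most `2`. -/
lemma light_sum (J : Finset ι) (c : ℝ) (hc : 0 ≤ c) (h : (J.card : ℝ) * c ≤ 1 / 2) :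
    ∑ M ∈ J.powerset, (M.card.factorial : ℝ) * c ^ M.card ≤ 2 := by
  rw [Finset.sum_powerset_apply_card (fun m => (m.factorial : ℝ) * c ^ m)]
  calc ∑ m ∈ range (J.card + 1), (J.card.choose m) • ((m.factorial : ℝ) * c ^ m)
      ≤ ∑ m ∈ range (J.card + 1), (1 / 2 : ℝ) ^ m := by
        apply Finset.sum_le_sum
        intro m _
        rw [nsmul_eq_mul, ← mul_assoc]
        have h1 : ((J.card.choose m : ℝ) * (m.factorial : ℝ)) ≤ (J.card : ℝ) ^ m := by
          have := Nat.descFactorial_le_pow J.card m
          rw [Nat.descFactorial_eq_factorial_mul_choose] at this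
          have h2 : ((m.factorial * J.card.choose m : ℕ) : ℝ) ≤ ((J.card ^ m : ℕ) : ℝ) := by
            exact_mod_cast this
          push_cast at h2
          linarith
        calc (J.card.choose m : ℝ) * (m.factorial : ℝ) * c ^ m
            ≤ (J.card : ℝ) ^ m * c ^ m := by
              apply mul_le_mul_of_nonneg_right h1 (pow_nonneg hc m)
          _ = ((J.card : ℝ) * c) ^ m := by rw [mul_pow]
          _ ≤ (1 / 2 : ℝ) ^ m := by
              apply pow_le_pow_left₀ (mul_nonneg (Nat.cast_nonneg _) hc) h
    _ ≤ 2 := sum_geometric_two_le _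

/-- Heavy sums. -/
lemma heavy_sum (d : ℕ) (b : ℝ) (hb : 0 ≤ b) :
    ∑ m ∈ range (d + 1), (d.choose m) • ((m.factorial : ℝ) * b ^ (d - m))
      ≤ (d.factorial : ℝ) * Real.exp b := by
  have h1 : ∀ m ∈ range (d + 1), (d.choose m) • ((m.factorial : ℝ) * b ^ (d - m))
      = (d.factorial : ℝ) * (b ^ (d - m) / ((d - m).factorial : ℝ)) := by
    intro m hm
    have hm' : m ≤ d := Nat.lt_succ_iff.mp (Finset.mem_range.mp hm)
    have h2 := Nat.choose_mul_factorial_mul_factorial hm'
    have h3 : (d.choose m : ℝ) * (m.factorial : ℝ) * ((d - m).factorial : ℝ)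
        = (d.factorial : ℝ) := by exact_mod_cast h2
    have hpos : (0 : ℝ) < ((d - m).factorial : ℝ) := by exact_mod_cast Nat.factorial_pos _
    rw [nsmul_eq_mul, ← h3]
    field_simp
  rw [Finset.sum_congr rfl h1, ← Finset.mul_sum]
  apply mul_le_mul_of_nonneg_left _ (Nat.cast_nonneg _)
  rw [Finset.sum_flip (fun j => b ^ j / (j.factorial : ℝ))]
  exact Real.sum_le_exp_of_nonneg hb _

lemma four_eta_exp (d : ℕ) (a : ℝ) (ha : 0 < a) (h : 1 / 4 < (d : ℝ) * a) :
    1 ≤ 4 * min 1 (a ^ 2) * Real.exp (2 * d) := by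
  have hd0 : (0 : ℝ) < d := by
    by_contra hcon
    have : (d : ℝ) = 0 := le_antisymm (not_lt.mp hcon) (Nat.cast_nonneg d)
    rw [this] at h
    norm_num at h
  have hd1 : (1 : ℝ) ≤ d := by
    have : 0 < d := by exact_mod_cast hd0
    exact_mod_cast this
  have hexp : (2 * (d : ℝ)) ^ 2 ≤ Real.exp (2 * d) := by
    have h1 := Real.quadratic_le_exp_of_nonneg hd0.le
    have h2 : 2 * (d : ℝ) ≤ Real.exp d := by nlinarith [sq_nonneg ((d : ℝ) - 1)]
    have h3 : Real.exp (2 * d) = Real.exp d ^ 2 := by
      rw [← Real.exp_nat_mul]; norm_num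
    rw [h3]
    apply pow_le_pow_left₀ (by positivity) h2
  have hη : 1 / (16 * (d : ℝ) ^ 2) ≤ min 1 (a ^ 2) := by
    apply le_min
    · rw [div_le_one (by positivity)]
      nlinarith
    · have h4 : 1 / (4 * (d : ℝ)) < a := by
        rw [div_lt_iff₀ (by positivity)]
        nlinarith
      have h5 : (1 / (4 * (d : ℝ))) ^ 2 ≤ a ^ 2 :=
        pow_le_pow_left₀ (by positivity) h4.le 2
      calc 1 / (16 * (d : ℝ) ^ 2) = (1 / (4 * (d : ℝ))) ^ 2 := by
            field_simp; ring
        _ ≤ a ^ 2 := h5
  calc (1 : ℝ) = 4 * (1 / (16 * (d : ℝ) ^ 2)) * (2 * (d : ℝ)) ^ 2 := by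
        field_simp; ring
    _ ≤ 4 * min 1 (a ^ 2) * Real.exp (2 * d) := by
        apply mul_le_mul _ hexp (by positivity) (by positivity)
        linarith

/-- Case of a heavy root. -/
lemma key_ineq_heavy (I : Finset ι) (P : ι → ℝ) (hP : ∀ i ∈ I, 1 ≤ P i) (a : ℝ) (ha : 0 < a)
    (G' : ℝ)
    (hG : ∀ M ⊆ I, (M.card.factorial : ℝ) * ∏ i ∈ M, (Real.exp 6 * a * P i) ≤ G')
    (hcase : 1 / 4 < (I.card : ℝ) * a) :
    ∑ M ∈ I.powerset, (M.card.factorial : ℝ) * ∏ i ∈ M, (a * max 1 (min 1 (a ^ 2) * P i))
      ≤ 4 * max 1 (min 1 (a ^ 2) * G') := by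
  set η := min 1 (a ^ 2) with hη
  have hη0 : 0 < η := lt_min one_pos (by positivity)
  have hη1 : η ≤ 1 := min_le_left _ _
  set d := I.card with hd
  set c : ι → ℝ := fun i => max 1 (η * P i) with hc
  have hc1 : ∀ i, 1 ≤ c i := fun i => le_max_left _ _
  have hcP : ∀ i ∈ I, c i ≤ P i := by
    intro i hi
    apply max_le (hP i hi)
    have := hP i hi
    nlinarith
  set T := ∏ i ∈ I, (a * c i) with hT
  have hT0 : 0 ≤ T := Finset.prod_nonneg (fun i _ => by
    have := hc1 i
    positivity)
  have hterm : ∀ M ∈ I.powerset, (M.card.factorial : ℝ) * ∏ i ∈ M, (a * c i)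
      ≤ T * ((M.card.factorial : ℝ) * (1 / a) ^ (d - M.card)) := by
    intro M hM
    rw [Finset.mem_powerset] at hM
    have h1 : (∏ i ∈ I \ M, (a * c i)) * ∏ i ∈ M, (a * c i) = T := Finset.prod_sdiff hM
    have h2 : a ^ (d - M.card) ≤ ∏ i ∈ I \ M, (a * c i) := by
      rw [hd, ← Finset.card_sdiff_of_subset hM, ← Finset.prod_const]
      apply Finset.prod_le_prod
      · intro i _; exact ha.le
      · intro i _
        have := hc1 i
        nlinarith
    have h3 : 0 ≤ ∏ i ∈ M, (a * c i) := Finset.prod_nonneg (fun i _ => by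
      have := hc1 i
      positivity)
    have h4 : (∏ i ∈ M, (a * c i)) ≤ T * (1 / a) ^ (d - M.card) := by
      rw [one_div, inv_pow, ← div_eq_mul_inv, le_div_iff₀ (by positivity), ← h1]
      rw [mul_comm]
      exact mul_le_mul_of_nonneg_right h2 h3
    calc (M.card.factorial : ℝ) * ∏ i ∈ M, (a * c i)
        ≤ (M.card.factorial : ℝ) * (T * (1 / a) ^ (d - M.card)) :=
          mul_le_mul_of_nonneg_left h4 (Nat.cast_nonneg _)
      _ = T * ((M.card.factorial : ℝ) * (1 / a) ^ (d - M.card)) := by ring
  have hsum : ∑ M ∈ I.powerset, (M.card.factorial : ℝ) * ∏ i ∈ M, (a * c i)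
      ≤ T * ((d.factorial : ℝ) * Real.exp (1 / a)) := by
    calc ∑ M ∈ I.powerset, (M.card.factorial : ℝ) * ∏ i ∈ M, (a * c i)
        ≤ ∑ M ∈ I.powerset, T * ((M.card.factorial : ℝ) * (1 / a) ^ (d - M.card)) :=
          Finset.sum_le_sum hterm
      _ = T * ∑ M ∈ I.powerset, ((M.card.factorial : ℝ) * (1 / a) ^ (d - M.card)) := by
          rw [Finset.mul_sum]
      _ ≤ T * ((d.factorial : ℝ) * Real.exp (1 / a)) := by
          apply mul_le_mul_of_nonneg_left _ hT0
          rw [Finset.sum_powerset_apply_card (fun m => (m.factorial : ℝ) * (1 / a) ^ (d - m))]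
          exact heavy_sum d (1 / a) (by positivity)
  have hexp1 : Real.exp (1 / a) ≤ Real.exp (4 * d) := by
    apply Real.exp_le_exp.mpr
    rw [div_le_iff₀ ha]
    nlinarith
  have hTP : T ≤ ∏ i ∈ I, (a * P i) := by
    apply Finset.prod_le_prod
    · intro i _
      have := hc1 i
      positivity
    · intro i hi
      exact mul_le_mul_of_nonneg_left (hcP i hi) ha.le
  have hPP0 : 0 ≤ ∏ i ∈ I, (a * P i) := Finset.prod_nonneg (fun i hi => by
    have := hP i hi
    positivity)
  have hfull := hG I (Finset.Subset.refl I)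
  have hprod : ∏ i ∈ I, (Real.exp 6 * a * P i) = Real.exp (6 * d) * ∏ i ∈ I, (a * P i) := by
    have : ∀ i ∈ I, Real.exp 6 * a * P i = Real.exp 6 * (a * P i) := fun i _ => by ring
    rw [Finset.prod_congr rfl this, Finset.prod_mul_distrib, Finset.prod_const, ← hd,
      ← Real.exp_nat_mul]
    congr 2
    ring
  have h4 := four_eta_exp d a ha hcase
  rw [← hη] at h4
  have hfac0 : (0 : ℝ) ≤ (d.factorial : ℝ) := Nat.cast_nonneg _
  calc ∑ M ∈ I.powerset, (M.card.factorial : ℝ) * ∏ i ∈ M, (a * c i)
      ≤ T * ((d.factorial : ℝ) * Real.exp (1 / a)) := hsum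
    _ ≤ (∏ i ∈ I, (a * P i)) * ((d.factorial : ℝ) * Real.exp (4 * d)) := by
        apply mul_le_mul hTP _ (by positivity) hPP0
        exact mul_le_mul_of_nonneg_left hexp1 hfac0
    _ ≤ (∏ i ∈ I, (a * P i)) * ((d.factorial : ℝ) * Real.exp (4 * d))
          * (4 * η * Real.exp (2 * d)) := by
        apply le_mul_of_one_le_right _ h4
        positivity
    _ = 4 * (η * ((d.factorial : ℝ) * (Real.exp (6 * d) * ∏ i ∈ I, (a * P i)))) := by
        have : Real.exp (6 * d) = Real.exp (4 * d) * Real.exp (2 * d) := by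
          rw [← Real.exp_add]; congr 1; ring
        rw [this]; ring
    _ ≤ 4 * (η * G') := by
        rw [← hprod]
        apply mul_le_mul_of_nonneg_left _ (by norm_num)
        exact mul_le_mul_of_nonneg_left hfull hη0.le
    _ ≤ 4 * max 1 (η * G') := by
        apply mul_le_mul_of_nonneg_left (le_max_right _ _) (by norm_num)

lemma factorial_add_le (m₁ m₀ : ℕ) :
    ((m₁ + m₀).factorial : ℝ) ≤ 2 ^ (m₁ + m₀) * ((m₁.factorial : ℝ) * (m₀.factorial : ℝ)) := by
  have h1 := Nat.add_choose_mul_factorial_mul_factorial m₁ m₀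
  have h2 : (m₁ + m₀).choose m₀ ≤ 2 ^ (m₁ + m₀) := Nat.choose_le_two_pow _ _
  have h3 : (m₁ + m₀).factorial ≤ 2 ^ (m₁ + m₀) * (m₁.factorial * m₀.factorial) := by
    rw [← h1, mul_assoc]
    exact Nat.mul_le_mul_right _ h2
  exact_mod_cast h3

/-- The bound on a single subset of the children with excess. -/
lemma excess_term (I₁ : Finset ι) (P : ι → ℝ) (a η G' : ℝ) (ha : 0 < a) (hη0 : 0 < η)
    (hηa : η ≤ a ^ 2) (hh : 1 ≤ I₁.card) (hlight : (I₁.card : ℝ) * a ≤ 1 / 4)
    (hex : ∀ i ∈ I₁, 1 < η * P i)
    (hG : ∀ M ⊆ I₁, (M.card.factorial : ℝ) * ∏ i ∈ M, (Real.exp 6 * a * P i) ≤ G')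
    (M : Finset ι) (hM : M ⊆ I₁) :
    (M.card.factorial : ℝ) * ∏ i ∈ M, (2 * a * (η * P i))
      ≤ max 1 (η * G') * (1 / (2 * (I₁.card : ℝ))) ^ M.card := by
  set G := max 1 (η * G') with hGdef
  set h := I₁.card with hh'
  have hG1 : 1 ≤ G := le_max_left _ _
  have hGη : η * G' ≤ G := le_max_right _ _
  have hh0 : (0 : ℝ) < h := by
    have : 0 < h := hh
    exact_mod_cast this
  have hρ : (4 : ℝ) ≤ Real.exp 6 := by
    have := Real.add_one_le_exp (6 : ℝ)
    linarith
  have hρ0 : 0 < Real.exp 6 := Real.exp_pos 6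
  have hat : a ≤ 1 / (4 * (h : ℝ)) := by
    rw [le_div_iff₀ (by positivity)]
    nlinarith
  -- general bound
  have hgen : (M.card.factorial : ℝ) * ∏ i ∈ M, (2 * a * (η * P i))
      = (2 * η / Real.exp 6) ^ M.card *
        ((M.card.factorial : ℝ) * ∏ i ∈ M, (Real.exp 6 * a * P i)) := by
    have : ∀ i ∈ M, 2 * a * (η * P i) = (2 * η / Real.exp 6) * (Real.exp 6 * a * P i) := by
      intro i _
      field_simp
    rw [Finset.prod_congr rfl this, Finset.prod_mul_distrib, Finset.prod_const]
    ring
  rcases Nat.lt_or_ge M.card 2 with hm | hm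
  · interval_cases hcard : M.card
    · -- empty
      rw [Finset.card_eq_zero] at hcard
      subst hcard
      simpa using hG1
    · -- singleton
      obtain ⟨i, rfl⟩ := Finset.card_eq_one.mp hcard
      have hi : i ∈ I₁ := hM (Finset.mem_singleton_self i)
      simp only [Nat.factorial_one, Nat.cast_one, Finset.prod_singleton, one_mul, pow_one]
      rcases Nat.lt_or_ge h 2 with hh2 | hh2
      · have hh1 : h = 1 := by omega
        have h1 := hG {i} hM
        simp only [Finset.card_singleton, Nat.factorial_one, Nat.cast_one,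
          Finset.prod_singleton, one_mul] at h1
        rw [hh1]
        have h2 : a * (η * P i) ≤ G / Real.exp 6 := by
          rw [le_div_iff₀ hρ0]
          calc a * (η * P i) * Real.exp 6 = η * (Real.exp 6 * a * P i) := by ring
            _ ≤ η * G' := mul_le_mul_of_nonneg_left h1 hη0.le
            _ ≤ G := hGη
        have h3 : G / Real.exp 6 ≤ G / 4 := by
          apply div_le_div_of_nonneg_left (by linarith) (by norm_num) hρ
        push_cast
        nlinarith
      · -- pick another element
        have : ∃ j ∈ I₁, j ≠ i := by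
          by_contra hcon
          have hsub : I₁ ⊆ {i} := by
            intro j hj
            rw [Finset.mem_singleton]
            by_contra hne
            exact hcon ⟨j, hj, hne⟩
          have := Finset.card_le_card hsub
          rw [Finset.card_singleton] at this
          omega
        obtain ⟨j, hj, hji⟩ := this
        have hsub : ({i, j} : Finset ι) ⊆ I₁ := by
          intro t ht
          rw [Finset.mem_insert, Finset.mem_singleton] at ht
          rcases ht with rfl | rfl
          · exact hi
          · exact hj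
        have h1 := hG {i, j} hsub
        rw [Finset.card_pair (Ne.symm hji), Finset.prod_pair (Ne.symm hji)] at h1
        have hPi := hex i hi
        have hPj := hex j hj
        have hPi0 : 0 < η * P i := by linarith
        have e1 : 2 * a * (η * P i) ≤ 2 * a * ((η * P i) * (η * P j)) := by
          apply mul_le_mul_of_nonneg_left _ (by positivity)
          nlinarith
        have e2 : 2 * a * ((η * P i) * (η * P j)) * (Real.exp 6 ^ 2 * a) ≤ η * G := by
          calc 2 * a * ((η * P i) * (η * P j)) * (Real.exp 6 ^ 2 * a)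
              = η * (η * (((2 : ℕ).factorial : ℝ) *
                  (Real.exp 6 * a * P i * (Real.exp 6 * a * P j)))) := by
                norm_num [Nat.factorial]
                ring
            _ ≤ η * (η * G') := by
                apply mul_le_mul_of_nonneg_left _ hη0.le
                exact mul_le_mul_of_nonneg_left h1 hη0.le
            _ ≤ η * G := mul_le_mul_of_nonneg_left hGη hη0.le
        have e3 : η * G ≤ a ^ 2 * G := mul_le_mul_of_nonneg_right hηa (by linarith)
        have e4 : 2 * a * ((η * P i) * (η * P j)) ≤ a * G := by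
          have hX0 : 0 ≤ 2 * a * ((η * P i) * (η * P j)) := by
            have : 0 < η * P j := by linarith
            positivity
          have hρ2 : a ≤ Real.exp 6 ^ 2 * a := by
            have : (1 : ℝ) ≤ Real.exp 6 ^ 2 := by nlinarith
            nlinarith
          have : 2 * a * ((η * P i) * (η * P j)) * a ≤ a * G * a := by
            calc 2 * a * ((η * P i) * (η * P j)) * a
                ≤ 2 * a * ((η * P i) * (η * P j)) * (Real.exp 6 ^ 2 * a) :=
                  mul_le_mul_of_nonneg_left hρ2 hX0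
              _ ≤ a ^ 2 * G := e2.trans e3
              _ = a * G * a := by ring
          exact le_of_mul_le_mul_right this ha
        calc 2 * a * (η * P i) ≤ a * G := e1.trans e4
          _ ≤ 1 / (4 * (h : ℝ)) * G := mul_le_mul_of_nonneg_right hat (by linarith)
          _ ≤ G * (1 / (2 * (h : ℝ))) := by
              rw [mul_comm]
              apply mul_le_mul_of_nonneg_left _ (by linarith)
              apply one_div_le_one_div_of_le (by positivity)
              nlinarith
  · -- at least two elements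
    set m := M.card with hmdef
    rw [hgen]
    have hGM := hG M hM
    have hG'0 : 0 ≤ G' := by
      have := hG ∅ (Finset.empty_subset _)
      simp at this
      linarith
    set t := 1 / (4 * (h : ℝ)) with ht
    have ht0 : 0 < t := by positivity
    have ht1 : t ≤ 1 := by
      rw [ht, div_le_one (by positivity)]
      have : (1 : ℝ) ≤ h := by exact_mod_cast hh
      linarith
    have hηt : η ≤ t ^ 2 := hηa.trans (pow_le_pow_left₀ ha.le hat 2)
    have h1 : η ^ (m - 1) ≤ t ^ m := by
      calc η ^ (m - 1) ≤ (t ^ 2) ^ (m - 1) := pow_le_pow_left₀ hη0.le hηt _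
        _ = t ^ (2 * (m - 1)) := by rw [← pow_mul]
        _ ≤ t ^ m := pow_le_pow_of_le_one ht0.le ht1 (by omega)
    have h2 : (2 * η / Real.exp 6) ^ m ≤ η ^ m := by
      apply pow_le_pow_left₀ (by positivity)
      rw [div_le_iff₀ hρ0]
      nlinarith
    have h3 : η ^ m = η ^ (m - 1) * η := by
      rw [← pow_succ]; congr 1; omega
    calc (2 * η / Real.exp 6) ^ m * ((m.factorial : ℝ) * ∏ i ∈ M, (Real.exp 6 * a * P i))
        ≤ η ^ m * G' := by
          apply mul_le_mul h2 hGM _ (by positivity)
          apply mul_nonneg (Nat.cast_nonneg _)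
          apply Finset.prod_nonneg
          intro i hi
          have := hex i (hM hi)
          have hPi : 0 < P i := by
            by_contra hcon
            have : η * P i ≤ 0 := mul_nonpos_of_nonneg_of_nonpos hη0.le (not_lt.mp hcon)
            linarith
          positivity
      _ = η ^ (m - 1) * (η * G') := by rw [h3]; ring
      _ ≤ t ^ m * G := by
          apply mul_le_mul h1 hGη (by positivity) (by positivity)
      _ ≤ G * (1 / (2 * (h : ℝ))) ^ m := by
          rw [mul_comm]
          apply mul_le_mul_of_nonneg_left _ (by linarith)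
          apply pow_le_pow_left₀ ht0.le
          rw [ht]
          apply one_div_le_one_div_of_le (by positivity)
          nlinarith

/-- Case of a light root. -/
lemma key_ineq_light (I : Finset ι) (P : ι → ℝ) (a : ℝ) (ha : 0 < a)
    (G' : ℝ)
    (hG : ∀ M ⊆ I, (M.card.factorial : ℝ) * ∏ i ∈ M, (Real.exp 6 * a * P i) ≤ G')
    (hcase : (I.card : ℝ) * a ≤ 1 / 4) :
    ∑ M ∈ I.powerset, (M.card.factorial : ℝ) * ∏ i ∈ M, (a * max 1 (min 1 (a ^ 2) * P i))
      ≤ 4 * max 1 (min 1 (a ^ 2) * G') := by
  classical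
  set η := min 1 (a ^ 2) with hη
  have hη0 : 0 < η := lt_min one_pos (by positivity)
  have hηa : η ≤ a ^ 2 := min_le_right _ _
  set G := max 1 (η * G') with hGdef
  have hG1 : 1 ≤ G := le_max_left _ _
  set p : ι → Prop := fun i => 1 < η * P i with hp
  set f : Finset ι → ℝ := fun M => (M.card.factorial : ℝ) * ∏ i ∈ M, (2 * a * (η * P i)) with hf
  set g : Finset ι → ℝ := fun M => (M.card.factorial : ℝ) * (2 * a) ^ M.card with hg
  have hterm : ∀ M ∈ I.powerset,
      (M.card.factorial : ℝ) * ∏ i ∈ M, (a * max 1 (η * P i))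
        ≤ f (M.filter p) * g (M.filter (fun i => ¬ p i)) := by
    intro M _
    set M₁ := M.filter p with hM₁
    set M₀ := M.filter (fun i => ¬ p i) with hM₀
    have hcard : M.card = M₁.card + M₀.card := by
      rw [hM₁, hM₀, Finset.card_filter_add_card_filter_not]
    have hprod : ∏ i ∈ M, (a * max 1 (η * P i))
        = (∏ i ∈ M₁, (a * (η * P i))) * a ^ M₀.card := by
      rw [← Finset.prod_filter_mul_prod_filter_not M p]
      congr 1
      · apply Finset.prod_congr rfl
        intro i hi
        have : 1 < η * P i := (Finset.mem_filter.mp hi).2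
        rw [max_eq_right this.le]
      · rw [← Finset.prod_const]
        apply Finset.prod_congr rfl
        intro i hi
        have : ¬ (1 < η * P i) := (Finset.mem_filter.mp hi).2
        rw [max_eq_left (not_lt.mp this), mul_one]
    have hnn : 0 ≤ ∏ i ∈ M₁, (a * (η * P i)) := by
      apply Finset.prod_nonneg
      intro i hi
      have : 1 < η * P i := (Finset.mem_filter.mp hi).2
      have h0 : 0 < η * P i := by linarith
      positivity
    have h2 : ∏ i ∈ M₁, (2 * a * (η * P i)) = 2 ^ M₁.card * ∏ i ∈ M₁, (a * (η * P i)) := by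
      have : ∀ i ∈ M₁, 2 * a * (η * P i) = 2 * (a * (η * P i)) := fun i _ => by ring
      rw [Finset.prod_congr rfl this, Finset.prod_mul_distrib, Finset.prod_const]
    rw [hprod, hcard]
    simp only [hf, hg]
    rw [h2, mul_pow]
    calc ((M₁.card + M₀.card).factorial : ℝ) * ((∏ i ∈ M₁, (a * (η * P i))) * a ^ M₀.card)
        ≤ (2 ^ (M₁.card + M₀.card) * ((M₁.card.factorial : ℝ) * (M₀.card.factorial : ℝ)))
            * ((∏ i ∈ M₁, (a * (η * P i))) * a ^ M₀.card) := by
          apply mul_le_mul_of_nonneg_right (factorial_add_le _ _)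
          positivity
      _ = (M₁.card.factorial : ℝ) * (2 ^ M₁.card * ∏ i ∈ M₁, (a * (η * P i))) *
            ((M₀.card.factorial : ℝ) * (2 ^ M₀.card * a ^ M₀.card)) := by
          rw [pow_add]; ring
  have hI₀ : ∑ M ∈ (I.filter (fun i => ¬ p i)).powerset, g M ≤ 2 := by
    apply light_sum _ (2 * a) (by positivity)
    have : ((I.filter (fun i => ¬ p i)).card : ℝ) ≤ I.card := by
      exact_mod_cast Finset.card_filter_le _ _
    nlinarith
  have hI₀nn : 0 ≤ ∑ M ∈ (I.filter (fun i => ¬ p i)).powerset, g M := by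
    apply Finset.sum_nonneg
    intro M _
    simp only [hg]
    positivity
  have hI₁ : ∑ M ∈ (I.filter p).powerset, f M ≤ 2 * G := by
    set I₁ := I.filter p with hI₁def
    rcases Nat.eq_zero_or_pos I₁.card with h0 | hpos
    · rw [Finset.card_eq_zero] at h0
      rw [h0]
      simp only [Finset.powerset_empty, Finset.sum_singleton, hf]
      simp
      linarith
    · have hle : (I₁.card : ℝ) ≤ I.card := by
        exact_mod_cast Finset.card_filter_le _ _
      have hlight : (I₁.card : ℝ) * a ≤ 1 / 4 := by nlinarith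
      have hh0 : (0 : ℝ) < I₁.card := by exact_mod_cast hpos
      have hb : ∀ M ∈ I₁.powerset, f M
          ≤ G * ((M.card.factorial : ℝ) * (1 / (2 * (I₁.card : ℝ))) ^ M.card) := by
        intro M hM
        rw [Finset.mem_powerset] at hM
        have h1 := excess_term I₁ P a η G' ha hη0 hηa hpos hlight
          (fun i hi => (Finset.mem_filter.mp hi).2)
          (fun M hM => hG M (hM.trans (Finset.filter_subset _ _))) M hM
        calc f M ≤ G * (1 / (2 * (I₁.card : ℝ))) ^ M.card := h1
          _ ≤ G * ((M.card.factorial : ℝ) * (1 / (2 * (I₁.card : ℝ))) ^ M.card) := by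
              apply mul_le_mul_of_nonneg_left _ (by linarith)
              apply le_mul_of_one_le_left (by positivity)
              exact_mod_cast Nat.one_le_iff_ne_zero.mpr (Nat.factorial_ne_zero _)
      calc ∑ M ∈ I₁.powerset, f M
          ≤ ∑ M ∈ I₁.powerset,
              G * ((M.card.factorial : ℝ) * (1 / (2 * (I₁.card : ℝ))) ^ M.card) :=
            Finset.sum_le_sum hb
        _ = G * ∑ M ∈ I₁.powerset,
              ((M.card.factorial : ℝ) * (1 / (2 * (I₁.card : ℝ))) ^ M.card) := by
            rw [Finset.mul_sum]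
        _ ≤ G * 2 := by
            apply mul_le_mul_of_nonneg_left _ (by linarith)
            apply light_sum _ _ (by positivity)
            field_simp
            exact le_refl _
        _ = 2 * G := by ring
  calc ∑ M ∈ I.powerset, (M.card.factorial : ℝ) * ∏ i ∈ M, (a * max 1 (η * P i))
      ≤ ∑ M ∈ I.powerset, f (M.filter p) * g (M.filter (fun i => ¬ p i)) :=
        Finset.sum_le_sum hterm
    _ = (∑ M ∈ (I.filter p).powerset, f M) *
          (∑ M ∈ (I.filter (fun i => ¬ p i)).powerset, g M) := sum_powerset_split I p f g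
    _ ≤ (2 * G) * 2 := by
        apply mul_le_mul hI₁ hI₀ hI₀nn (by linarith)
    _ = 4 * G := by ring

/-- The key inequality. -/
theorem key_ineq (I : Finset ι) (P : ι → ℝ) (hP : ∀ i ∈ I, 1 ≤ P i) (a : ℝ) (ha : 0 < a)
    (G' : ℝ)
    (hG : ∀ M ⊆ I, (M.card.factorial : ℝ) * ∏ i ∈ M, (Real.exp 6 * a * P i) ≤ G') :
    ∑ M ∈ I.powerset, (M.card.factorial : ℝ) * ∏ i ∈ M, (a * max 1 (min 1 (a ^ 2) * P i))
      ≤ 4 * max 1 (min 1 (a ^ 2) * G') := by
  rcases le_or_gt ((I.card : ℝ) * a) (1 / 4) with h | h
  · exact key_ineq_light I P a ha G' hG h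
  · exact key_ineq_heavy I P hP a ha G' hG h

end KeyIneq

end Vale.Agent.Lib.P064
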