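import Mathlib
import Vale.Agent.Lib.P064.FIneq

/-!
Partition functions on a rooted forest given by its children map, and the comparison
of the sum over rooted subtrees with the largest term.
-/

set_option linter.unusedSectionVars false

namespace Vale.Agent.Lib.P064

open Finset

section ZP

variable {V : Type*} [DecidableEq V] (ch : V → Finset V)

/-- Weighted count of the rooted subtrees of depth at most `k` hanging at a vertex. -/
noncomputable def Zk (z : ℝ) : ℕ → V → ℝ
  | 0, _ => 1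
  | (k + 1), w => ∑ M ∈ (ch w).powerset, (M.card.factorial : ℝ) * ∏ u ∈ M, (z * Zk z k u)

/-- Largest weight of a rooted subtree of depth at most `k` hanging at a vertex. -/
noncomputable def Pk (y : ℝ) : ℕ → V → ℝ
  | 0, _ => 1
  | (k + 1), w => (ch w).powerset.sup' ⟨∅, Finset.empty_mem_powerset _⟩
      (fun M => (M.card.factorial : ℝ) * ∏ u ∈ M, (y * Pk y k u))

lemma Zk_succ (z : ℝ) (k : ℕ) (w : V) : Zk ch z (k + 1) w
    = ∑ M ∈ (ch w).powerset, (M.card.factorial : ℝ) * ∏ u ∈ M, (z * Zk ch z k u) := rfl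

lemma Pk_succ (y : ℝ) (k : ℕ) (w : V) : Pk ch y (k + 1) w
    = (ch w).powerset.sup' ⟨∅, Finset.empty_mem_powerset _⟩
      (fun M => (M.card.factorial : ℝ) * ∏ u ∈ M, (y * Pk ch y k u)) := rfl

lemma le_Pk_succ (y : ℝ) (k : ℕ) (w : V) (M : Finset V) (hM : M ⊆ ch w) :
    (M.card.factorial : ℝ) * ∏ u ∈ M, (y * Pk ch y k u) ≤ Pk ch y (k + 1) w := by
  rw [Pk_succ]
  exact Finset.le_sup' (fun M => (M.card.factorial : ℝ) * ∏ u ∈ M, (y * Pk ch y k u))
    (Finset.mem_powerset.mpr hM)

lemma one_le_Pk (y : ℝ) (k : ℕ) (w : V) : 1 ≤ Pk ch y k w := by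
  cases k with
  | zero => exact le_refl _
  | succ k =>
    have := le_Pk_succ ch y k w ∅ (Finset.empty_subset _)
    simpa using this

lemma Zk_nonneg (z : ℝ) (hz : 0 ≤ z) (k : ℕ) (w : V) : 0 ≤ Zk ch z k w := by
  induction k generalizing w with
  | zero => exact zero_le_one
  | succ k ih =>
    rw [Zk_succ]
    apply Finset.sum_nonneg
    intro M _
    apply mul_nonneg (Nat.cast_nonneg _)
    apply Finset.prod_nonneg
    intro u _
    exact mul_nonneg hz (ih u)

/-- The sum over rooted subtrees is dominated by the largest term at a larger parameter. -/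
theorem Zk_le (z : ℝ) (hz : 0 < z) (k : ℕ) (w : V) :
    Zk ch z k w ≤ 4 * max 1 (min 1 ((4 * z) ^ 2) * Pk ch (Real.exp 6 * (4 * z)) k w) := by
  induction k generalizing w with
  | zero =>
    have : (1 : ℝ) ≤ max 1 (min 1 ((4 * z) ^ 2) * Pk ch (Real.exp 6 * (4 * z)) 0 w) :=
      le_max_left _ _
    show (1 : ℝ) ≤ _
    linarith
  | succ k ih =>
    rw [Zk_succ]
    have h1 : ∀ M ∈ (ch w).powerset, (M.card.factorial : ℝ) * ∏ u ∈ M, (z * Zk ch z k u)
        ≤ (M.card.factorial : ℝ) * ∏ u ∈ M, ((4 * z) *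
            max 1 (min 1 ((4 * z) ^ 2) * Pk ch (Real.exp 6 * (4 * z)) k u)) := by
      intro M _
      apply mul_le_mul_of_nonneg_left _ (Nat.cast_nonneg _)
      apply Finset.prod_le_prod
      · intro u _
        exact mul_nonneg hz.le (Zk_nonneg ch z hz.le k u)
      · intro u _
        have := ih u
        calc z * Zk ch z k u
            ≤ z * (4 * max 1 (min 1 ((4 * z) ^ 2) * Pk ch (Real.exp 6 * (4 * z)) k u)) :=
              mul_le_mul_of_nonneg_left this hz.le
          _ = _ := by ring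
    refine (Finset.sum_le_sum h1).trans ?_
    apply key_ineq (ch w) (fun u => Pk ch (Real.exp 6 * (4 * z)) k u)
      (fun u _ => one_le_Pk ch _ k u) (4 * z) (by positivity)
    intro M hM
    exact le_Pk_succ ch _ k w M hM

theorem Zk_le_Pk (z : ℝ) (hz : 0 < z) (k : ℕ) (w : V) :
    Zk ch z k w ≤ 4 * Pk ch (Real.exp 6 * (4 * z)) k w := by
  refine (Zk_le ch z hz k w).trans ?_
  apply mul_le_mul_of_nonneg_left _ (by norm_num)
  have h1 := one_le_Pk ch (Real.exp 6 * (4 * z)) k w
  apply max_le h1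
  have h2 : min 1 ((4 * z) ^ 2) ≤ 1 := min_le_left _ _
  nlinarith

/-- A set of children attaining the maximum. -/
noncomputable def argM (y : ℝ) (k : ℕ) (w : V) : Finset V :=
  Classical.choose (Finset.exists_mem_eq_sup' (s := (ch w).powerset)
    ⟨∅, Finset.empty_mem_powerset _⟩
    (fun M => (M.card.factorial : ℝ) * ∏ u ∈ M, (y * Pk ch y k u)))

lemma argM_subset (y : ℝ) (k : ℕ) (w : V) : argM ch y k w ⊆ ch w :=
  Finset.mem_powerset.mp (Classical.choose_spec (Finset.exists_mem_eq_sup' (s := (ch w).powerset)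
    ⟨∅, Finset.empty_mem_powerset _⟩
    (fun M => (M.card.factorial : ℝ) * ∏ u ∈ M, (y * Pk ch y k u)))).1

lemma Pk_succ_eq (y : ℝ) (k : ℕ) (w : V) : Pk ch y (k + 1) w
    = ((argM ch y k w).card.factorial : ℝ) * ∏ u ∈ argM ch y k w, (y * Pk ch y k u) :=
  (Classical.choose_spec (Finset.exists_mem_eq_sup' (s := (ch w).powerset)
    ⟨∅, Finset.empty_mem_powerset _⟩
    (fun M => (M.card.factorial : ℝ) * ∏ u ∈ M, (y * Pk ch y k u)))).2

/-- The set of non-root vertices of an optimal rooted subtree. -/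
noncomputable def Bk (y : ℝ) : ℕ → V → Finset V
  | 0, _ => ∅
  | (k + 1), w => (argM ch y k w).biUnion (fun u => insert u (Bk y k u))

lemma Bk_succ (y : ℝ) (k : ℕ) (w : V) : Bk ch y (k + 1) w
    = (argM ch y k w).biUnion (fun u => insert u (Bk ch y k u)) := rfl

end ZP

end Vale.Agent.Lib.P064
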