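import Mathlib
import Vale.Agent.Lib.P064.FTree

/-!
Rooted forests given by a parent map and a depth function; structure of the optimal
rooted subtrees.
-/

set_option linter.unusedSectionVars false

namespace Vale.Agent.Lib.P064

open Finset

section Wit

variable {V : Type*} [Fintype V] [DecidableEq V] (par : V → V) (depth : V → ℕ)

/-- The children of a vertex. -/
def chOf (w : V) : Finset V := univ.filter (fun u => par u = w ∧ u ≠ w)

lemma mem_chOf {w u : V} : u ∈ chOf par w ↔ par u = w ∧ u ≠ w := by
  simp [chOf]

/-- Number of elements of `B` whose parent is `v`. -/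
def cc (B : Finset V) (v : V) : ℕ := (B.filter (fun t => par t = v)).card

/-- Product of the factorials of the numbers of children inside `B`. -/
def PiW (B : Finset V) : ℕ := ∏ v, (cc par B v).factorial

lemma PiW_pos (B : Finset V) : 0 < PiW par B :=
  Finset.prod_pos (fun _ _ => Nat.factorial_pos _)

lemma cc_union (A B : Finset V) (h : Disjoint A B) (v : V) :
    cc par (A ∪ B) v = cc par A v + cc par B v := by
  unfold cc
  rw [Finset.filter_union, Finset.card_union_of_disjoint]
  exact Finset.disjoint_filter_filter h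

lemma PiW_union (A B : Finset V) (h : Disjoint A B) :
    PiW par A * PiW par B ≤ PiW par (A ∪ B) := by
  unfold PiW
  rw [← Finset.prod_mul_distrib]
  apply Finset.prod_le_prod'
  intro v _
  rw [cc_union par A B h v]
  exact Nat.le_of_dvd (Nat.factorial_pos _) (Nat.factorial_mul_factorial_dvd_factorial_add _ _)

lemma PiW_empty : PiW par (∅ : Finset V) = 1 := by
  unfold PiW cc
  simp

lemma PiW_biUnion {J : Type*} [DecidableEq J] (s : Finset J) (B : J → Finset V)
    (h : (s : Set J).PairwiseDisjoint B) :
    ∏ j ∈ s, PiW par (B j) ≤ PiW par (s.biUnion B) := by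
  induction s using Finset.induction_on with
  | empty => simp [PiW_empty]
  | insert j s hj ih =>
    rw [Finset.prod_insert hj, Finset.biUnion_insert]
    have h1 : (s : Set J).PairwiseDisjoint B :=
      h.subset (by intro x hx; exact Finset.mem_insert_of_mem hx)
    have h2 : Disjoint (B j) (s.biUnion B) := by
      rw [Finset.disjoint_biUnion_right]
      intro i hi
      apply h (Finset.mem_insert_self j s) (Finset.mem_insert_of_mem hi)
      rintro rfl
      exact hj hi
    calc PiW par (B j) * ∏ i ∈ s, PiW par (B i)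
        ≤ PiW par (B j) * PiW par (s.biUnion B) := Nat.mul_le_mul_left _ (ih h1)
      _ ≤ _ := PiW_union par _ _ h2

lemma factorial_card_le_PiW (M : Finset V) (w : V) (h : ∀ u ∈ M, par u = w) :
    M.card.factorial ≤ PiW par M := by
  have h1 : cc par M w = M.card := by
    unfold cc
    rw [Finset.filter_true_of_mem h]
  rw [← h1]
  unfold PiW
  exact Nat.le_of_dvd (Finset.prod_pos (fun _ _ => Nat.factorial_pos _))
    (Finset.dvd_prod_of_mem (fun v => (cc par M v).factorial) (Finset.mem_univ w))

variable (hdp : ∀ v, par v ≠ v → depth v = depth (par v) + 1)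

include hdp

lemma Bk_anc (y : ℝ) (k : ℕ) (w v : V) (hv : v ∈ Bk (chOf par) y k w) :
    ∃ i, 1 ≤ i ∧ i ≤ (Bk (chOf par) y k w).card ∧ par^[i] v = w ∧ depth v = depth w + i := by
  induction k generalizing w v with
  | zero => exact absurd hv (Finset.notMem_empty v)
  | succ k ih =>
    have hv' := hv
    rw [Bk_succ, Finset.mem_biUnion] at hv'
    obtain ⟨u, hu, hvu⟩ := hv'
    have huw := (mem_chOf par).mp (argM_subset (chOf par) y k w hu)
    have hdu : depth u = depth w + 1 := by
      have := hdp u (by rw [huw.1]; exact huw.2.symm)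
      rw [huw.1] at this
      exact this
    have hsub : insert u (Bk (chOf par) y k u) ⊆ Bk (chOf par) y (k + 1) w := by
      rw [Bk_succ]
      exact Finset.subset_biUnion_of_mem (fun u => insert u (Bk (chOf par) y k u)) hu
    have hunot : u ∉ Bk (chOf par) y k u := by
      intro hmem
      obtain ⟨i, hi1, _, _, hd⟩ := ih u u hmem
      omega
    have hcard : (Bk (chOf par) y k u).card + 1 ≤ (Bk (chOf par) y (k + 1) w).card := by
      rw [← Finset.card_insert_of_notMem hunot]
      exact Finset.card_le_card hsub
    rw [Finset.mem_insert] at hvu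
    rcases hvu with rfl | hvu
    · exact ⟨1, le_refl _, by omega, huw.1, hdu⟩
    · obtain ⟨i, hi1, hi2, hi3, hi4⟩ := ih u v hvu
      refine ⟨i + 1, by omega, by omega, ?_, by omega⟩
      rw [Function.iterate_succ_apply', hi3, huw.1]

lemma Bk_anc0 (y : ℝ) (k : ℕ) (w v : V) (hv : v ∈ insert w (Bk (chOf par) y k w)) :
    ∃ i, i ≤ (Bk (chOf par) y k w).card ∧ par^[i] v = w ∧ depth v = depth w + i := by
  rw [Finset.mem_insert] at hv
  rcases hv with rfl | hv
  · exact ⟨0, Nat.zero_le _, rfl, rfl⟩
  · obtain ⟨i, _, h2, h3, h4⟩ := Bk_anc par depth hdp y k w v hv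
    exact ⟨i, h2, h3, h4⟩

lemma Bk_clo (y : ℝ) (k : ℕ) (w v : V) (hv : v ∈ Bk (chOf par) y k w) :
    par v ≠ v ∧ (par v ∈ Bk (chOf par) y k w ∨ par v = w) := by
  induction k generalizing w v with
  | zero => exact absurd hv (Finset.notMem_empty v)
  | succ k ih =>
    have hv' := hv
    rw [Bk_succ, Finset.mem_biUnion] at hv'
    obtain ⟨u, hu, hvu⟩ := hv'
    have huw := (mem_chOf par).mp (argM_subset (chOf par) y k w hu)
    have hsub : insert u (Bk (chOf par) y k u) ⊆ Bk (chOf par) y (k + 1) w := by
      rw [Bk_succ]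
      exact Finset.subset_biUnion_of_mem (fun u => insert u (Bk (chOf par) y k u)) hu
    rw [Finset.mem_insert] at hvu
    rcases hvu with rfl | hvu
    · exact ⟨by rw [huw.1]; exact huw.2.symm, Or.inr huw.1⟩
    · obtain ⟨h1, h2⟩ := ih u v hvu
      refine ⟨h1, Or.inl (hsub ?_)⟩
      rcases h2 with h2 | h2
      · exact Finset.mem_insert_of_mem h2
      · rw [h2]; exact Finset.mem_insert_self _ _

/-- Optimal subtrees rooted at distinct vertices of the same depth are disjoint. -/
lemma Bk_disj_same_depth (y : ℝ) (k k' : ℕ) (w w' v : V)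
    (hv : v ∈ insert w (Bk (chOf par) y k w)) (hv' : v ∈ insert w' (Bk (chOf par) y k' w'))
    (hd : depth w = depth w') : w = w' := by
  obtain ⟨i, _, h3, h4⟩ := Bk_anc0 par depth hdp y k w v hv
  obtain ⟨i', _, h3', h4'⟩ := Bk_anc0 par depth hdp y k' w' v hv'
  have : i = i' := by omega
  subst this
  rw [← h3, ← h3']

lemma Pk_le_wit (y : ℝ) (hy : 0 ≤ y) (k : ℕ) (w : V) :
    Pk (chOf par) y k w
      ≤ (PiW par (Bk (chOf par) y k w) : ℝ) * y ^ (Bk (chOf par) y k w).card := by
  induction k generalizing w with
  | zero =>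
    show (1 : ℝ) ≤ (PiW par (∅ : Finset V) : ℝ) * y ^ (∅ : Finset V).card
    rw [PiW_empty]
    simp
  | succ k ih =>
    set M := argM (chOf par) y k w with hM
    have hMw : ∀ u ∈ M, par u = w ∧ u ≠ w := fun u hu =>
      (mem_chOf par).mp (argM_subset (chOf par) y k w hu)
    have hMd : ∀ u ∈ M, depth u = depth w + 1 := by
      intro u hu
      have huw := hMw u hu
      have := hdp u (by rw [huw.1]; exact huw.2.symm)
      rw [huw.1] at this
      exact this
    set B'' := M.biUnion (fun u => Bk (chOf par) y k u) with hB''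
    have hBeq : Bk (chOf par) y (k + 1) w = M ∪ B'' := by
      rw [Bk_succ]
      ext t
      simp only [Finset.mem_biUnion, Finset.mem_insert, Finset.mem_union, hB'']
      constructor
      · rintro ⟨u, hu, rfl | ht⟩
        · exact Or.inl hu
        · exact Or.inr ⟨u, hu, ht⟩
      · rintro (ht | ⟨u, hu, ht⟩)
        · exact ⟨t, ht, Or.inl rfl⟩
        · exact ⟨u, hu, Or.inr ht⟩
    have hpd : (M : Set V).PairwiseDisjoint (fun u => Bk (chOf par) y k u) := by
      intro u hu u' hu' hne
      rw [Function.onFun, Finset.disjoint_left]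
      intro t ht ht'
      apply hne
      apply Bk_disj_same_depth par depth hdp y k k u u' t (Finset.mem_insert_of_mem ht)
        (Finset.mem_insert_of_mem ht')
      rw [hMd u hu, hMd u' hu']
    have hdisj : Disjoint M B'' := by
      rw [Finset.disjoint_left]
      intro t ht ht'
      rw [hB'', Finset.mem_biUnion] at ht'
      obtain ⟨u, hu, htu⟩ := ht'
      obtain ⟨i, hi1, _, _, hd⟩ := Bk_anc par depth hdp y k u t htu
      have h1 := hMd t ht
      have h2 := hMd u hu
      omega
    have hcard : (Bk (chOf par) y (k + 1) w).card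
        = M.card + ∑ u ∈ M, (Bk (chOf par) y k u).card := by
      rw [hBeq, Finset.card_union_of_disjoint hdisj, hB'', Finset.card_biUnion]
      intro u hu u' hu' hne
      exact hpd hu hu' hne
    have hPi : M.card.factorial * ∏ u ∈ M, PiW par (Bk (chOf par) y k u)
        ≤ PiW par (Bk (chOf par) y (k + 1) w) := by
      rw [hBeq]
      calc M.card.factorial * ∏ u ∈ M, PiW par (Bk (chOf par) y k u)
          ≤ PiW par M * PiW par B'' :=
            Nat.mul_le_mul (factorial_card_le_PiW par M w (fun u hu => (hMw u hu).1))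
              (PiW_biUnion par M _ hpd)
        _ ≤ _ := PiW_union par _ _ hdisj
    rw [Pk_succ_eq, ← hM]
    calc (M.card.factorial : ℝ) * ∏ u ∈ M, (y * Pk (chOf par) y k u)
        ≤ (M.card.factorial : ℝ) * ∏ u ∈ M, (y * ((PiW par (Bk (chOf par) y k u) : ℝ)
            * y ^ (Bk (chOf par) y k u).card)) := by
          apply mul_le_mul_of_nonneg_left _ (Nat.cast_nonneg _)
          apply Finset.prod_le_prod
          · intro u _
            exact mul_nonneg hy (zero_le_one.trans (one_le_Pk _ y k u))
          · intro u _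
            exact mul_le_mul_of_nonneg_left (ih u) hy
      _ = ((M.card.factorial * ∏ u ∈ M, PiW par (Bk (chOf par) y k u) : ℕ) : ℝ)
            * y ^ (Bk (chOf par) y (k + 1) w).card := by
          rw [hcard, pow_add, Finset.prod_mul_distrib, Finset.prod_mul_distrib,
            Finset.prod_const, Finset.prod_pow_eq_pow_sum]
          push_cast
          ring
      _ ≤ _ := by
          apply mul_le_mul_of_nonneg_right _ (pow_nonneg hy _)
          exact_mod_cast hPi

end Wit

end Vale.Agent.Lib.P064
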