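import Mathlib
import Vale.Agent.Lib.P064.Defs
import Vale.Agent.Lib.P064.Count
import Vale.Agent.Lib.P064.FWit

/-!
Counting the copies in the complete graph of the graph of a function.
-/

set_option linter.unusedSectionVars false

namespace Vale.Agent.Lib.P064

open Finset

section Weighted

variable {V : Type*} [Fintype V] [DecidableEq V]

/-- Functions mapping `B` into `Y` and fixing every other point. -/
def famP (B Y : Finset V) : Finset (V → V) :=
  Fintype.piFinset (fun v => if v ∈ B then Y else {v})

lemma mem_famP {B Y : Finset V} {g : V → V} :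
    g ∈ famP B Y ↔ (∀ v ∈ B, g v ∈ Y) ∧ ∀ v, v ∉ B → g v = v := by
  unfold famP
  rw [Fintype.mem_piFinset]
  constructor
  · intro h
    constructor
    · intro v hv
      have := h v
      rwa [if_pos hv] at this
    · intro v hv
      have := h v
      rw [if_neg hv] at this
      exact Finset.mem_singleton.mp this
  · rintro ⟨h1, h2⟩ v
    by_cases hv : v ∈ B
    · rw [if_pos hv]; exact h1 v hv
    · rw [if_neg hv]; exact Finset.mem_singleton.mpr (h2 v hv)

lemma cc_update (B : Finset V) (g : V → V) (v₀ y₀ v : V) (hv₀ : v₀ ∉ B) :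
    cc (Function.update g v₀ y₀) (insert v₀ B) v = cc g B v + (if v = y₀ then 1 else 0) := by
  unfold cc
  rw [Finset.filter_insert]
  have h1 : B.filter (fun t => Function.update g v₀ y₀ t = v) = B.filter (fun t => g t = v) := by
    apply Finset.filter_congr
    intro t ht
    have : t ≠ v₀ := by rintro rfl; exact hv₀ ht
    rw [Function.update_of_ne this]
  rw [h1, Function.update_self]
  by_cases h : v = y₀
  · rw [if_pos h.symm, if_pos h, Finset.card_insert_of_notMem]
    intro hmem
    exact hv₀ (Finset.mem_filter.mp hmem).1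
  · rw [if_neg (Ne.symm h), if_neg h, add_zero]

lemma PiW_update (B : Finset V) (g : V → V) (v₀ y₀ : V) (hv₀ : v₀ ∉ B) :
    PiW (Function.update g v₀ y₀) (insert v₀ B) = PiW g B * (cc g B y₀ + 1) := by
  unfold PiW
  rw [← Finset.mul_prod_erase univ _ (Finset.mem_univ y₀),
    ← Finset.mul_prod_erase univ (fun v => (cc g B v).factorial) (Finset.mem_univ y₀)]
  rw [cc_update B g v₀ y₀ y₀ hv₀, if_pos rfl, Nat.factorial_succ]
  have : ∏ v ∈ univ.erase y₀, (cc (Function.update g v₀ y₀) (insert v₀ B) v).factorial
      = ∏ v ∈ univ.erase y₀, (cc g B v).factorial := by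
    apply Finset.prod_congr rfl
    intro v hv
    rw [cc_update B g v₀ y₀ v hv₀, if_neg (Finset.ne_of_mem_erase hv), add_zero]
  rw [this]
  ring

lemma sum_cc (B Y : Finset V) (g : V → V) (hg : ∀ v ∈ B, g v ∈ Y) :
    ∑ y ∈ Y, cc g B y = B.card := by
  unfold cc
  exact (Finset.card_eq_sum_card_fiberwise hg).symm

lemma sum_PiW (B Y : Finset V) :
    ∑ g ∈ famP B Y, PiW g B = ∏ j ∈ range B.card, (Y.card + j) := by
  induction B using Finset.induction_on with
  | empty =>
    have : famP (∅ : Finset V) Y = {fun v => v} := by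
      ext g
      rw [mem_famP, Finset.mem_singleton]
      constructor
      · rintro ⟨_, h⟩
        funext v
        exact h v (Finset.notMem_empty v)
      · rintro rfl
        exact ⟨fun v hv => absurd hv (Finset.notMem_empty v), fun _ _ => rfl⟩
    rw [this]
    simp [PiW_empty]
  | insert v₀ B hv₀ ih =>
    have hbij : ∑ g' ∈ famP (insert v₀ B) Y, PiW g' (insert v₀ B)
        = ∑ x ∈ Y ×ˢ famP B Y, PiW (Function.update x.2 v₀ x.1) (insert v₀ B) := by
      symm
      apply Finset.sum_nbij' (fun x => Function.update x.2 v₀ x.1)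
        (fun g' => (g' v₀, Function.update g' v₀ v₀))
      · intro x hx
        rw [Finset.mem_product, mem_famP] at hx
        obtain ⟨hx1, hx2, hx3⟩ := hx
        rw [mem_famP]
        constructor
        · intro v hv
          by_cases h : v = v₀
          · subst h; rw [Function.update_self]; exact hx1
          · rw [Function.update_of_ne h]
            exact hx2 v (Finset.mem_of_mem_insert_of_ne hv h)
        · intro v hv
          have h : v ≠ v₀ := by rintro rfl; exact hv (Finset.mem_insert_self _ _)
          rw [Function.update_of_ne h]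
          exact hx3 v (fun hm => hv (Finset.mem_insert_of_mem hm))
      · intro g' hg'
        rw [mem_famP] at hg'
        obtain ⟨h1, h2⟩ := hg'
        rw [Finset.mem_product, mem_famP]
        refine ⟨h1 v₀ (Finset.mem_insert_self _ _), ?_, ?_⟩
        · intro v hv
          have h : v ≠ v₀ := by rintro rfl; exact hv₀ hv
          show Function.update g' v₀ v₀ v ∈ Y
          rw [Function.update_of_ne h]
          exact h1 v (Finset.mem_insert_of_mem hv)
        · intro v hv
          show Function.update g' v₀ v₀ v = v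
          by_cases h : v = v₀
          · subst h; rw [Function.update_self]
          · rw [Function.update_of_ne h]
            apply h2 v
            intro hm
            exact hv (Finset.mem_of_mem_insert_of_ne hm h)
      · intro x hx
        rw [Finset.mem_product, mem_famP] at hx
        obtain ⟨_, _, hx3⟩ := hx
        apply Prod.ext
        · simp
        · simp only [Function.update_idem]
          funext v
          by_cases h : v = v₀
          · subst h; rw [Function.update_self]; exact (hx3 v hv₀).symm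
          · rw [Function.update_of_ne h]
      · intro g' _
        simp
      · intro x _
        rfl
    rw [hbij, Finset.sum_product_right]
    have hstep : ∀ g ∈ famP B Y, ∑ y₀ ∈ Y, PiW (Function.update g v₀ y₀) (insert v₀ B)
        = PiW g B * (Y.card + B.card) := by
      intro g hg
      rw [mem_famP] at hg
      have : ∀ y₀ ∈ Y, PiW (Function.update g v₀ y₀) (insert v₀ B)
          = PiW g B * (cc g B y₀ + 1) := fun y₀ _ => PiW_update B g v₀ y₀ hv₀
      rw [Finset.sum_congr rfl this, ← Finset.mul_sum, Finset.sum_add_distrib,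
        sum_cc B Y g hg.1, Finset.sum_const, smul_eq_mul, mul_one, add_comm]
    rw [Finset.sum_congr rfl hstep, ← Finset.sum_mul, ih, Finset.card_insert_of_notMem hv₀,
      Finset.prod_range_succ]

lemma sum_PiW_le (B Y : Finset V) :
    ∑ g ∈ famP B Y, PiW g B ≤ (Y.card + B.card) ^ B.card := by
  rw [sum_PiW]
  calc ∏ j ∈ range B.card, (Y.card + j) ≤ ∏ _j ∈ range B.card, (Y.card + B.card) := by
        apply Finset.prod_le_prod'
        intro j hj
        have := Finset.mem_range.mp hj
        omega
    _ = _ := by rw [Finset.prod_const, Finset.card_range]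

end Weighted

section Graph

variable {n : ℕ}

/-- The graph with edges `{v, g v}` for `v ∈ B`. -/
def fgraph (B : Finset (Fin n)) (g : Fin n → Fin n) : SimpleGraph (Fin n) where
  Adj a b := a ≠ b ∧ ((a ∈ B ∧ g a = b) ∨ (b ∈ B ∧ g b = a))
  symm := ⟨fun _ _ h => ⟨h.1.symm, h.2.symm⟩⟩
  loopless := ⟨fun _ h => h.1 rfl⟩

lemma fgraph_adj (B : Finset (Fin n)) (g : Fin n → Fin n) (a b : Fin n) :
    (fgraph B g).Adj a b ↔ a ≠ b ∧ ((a ∈ B ∧ g a = b) ∨ (b ∈ B ∧ g b = a)) := Iff.rfl

/-- Transport of a function along a permutation. -/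
def transp (σ : Equiv.Perm (Fin n)) (B : Finset (Fin n)) (g : Fin n → Fin n) :
    Fin n → Fin n :=
  fun v => if v ∈ B.image σ then σ (g (σ.symm v)) else v

lemma mem_image_perm (σ : Equiv.Perm (Fin n)) (B : Finset (Fin n)) (v : Fin n) :
    v ∈ B.image σ ↔ σ.symm v ∈ B := by
  rw [Finset.mem_image]
  constructor
  · rintro ⟨t, ht, rfl⟩
    simpa using ht
  · intro h
    exact ⟨σ.symm v, h, by simp⟩

lemma transp_apply (σ : Equiv.Perm (Fin n)) (B : Finset (Fin n)) (g : Fin n → Fin n)
    (t : Fin n) (ht : t ∈ B) : transp σ B g (σ t) = σ (g t) := by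
  unfold transp
  rw [if_pos (Finset.mem_image_of_mem σ ht)]
  simp

lemma cc_transp (σ : Equiv.Perm (Fin n)) (B : Finset (Fin n)) (g : Fin n → Fin n) (u : Fin n) :
    cc (transp σ B g) (B.image σ) (σ u) = cc g B u := by
  unfold cc
  have : (B.image σ).filter (fun t => transp σ B g t = σ u)
      = (B.filter (fun t => g t = u)).image σ := by
    ext v
    simp only [Finset.mem_filter, Finset.mem_image]
    constructor
    · rintro ⟨⟨t, ht, rfl⟩, h⟩
      rw [transp_apply σ B g t ht] at h
      exact ⟨t, ⟨ht, σ.injective h⟩, rfl⟩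
    · rintro ⟨t, ⟨ht, h⟩, rfl⟩
      refine ⟨⟨t, ht, rfl⟩, ?_⟩
      rw [transp_apply σ B g t ht, h]
  rw [this, Finset.card_image_of_injective _ σ.injective]

lemma PiW_transp (σ : Equiv.Perm (Fin n)) (B : Finset (Fin n)) (g : Fin n → Fin n) :
    PiW (transp σ B g) (B.image σ) = PiW g B := by
  unfold PiW
  rw [← Equiv.prod_comp σ]
  apply Finset.prod_congr rfl
  intro u _
  rw [cc_transp]

lemma fgraph_transp (σ : Equiv.Perm (Fin n)) (B : Finset (Fin n)) (g : Fin n → Fin n)
    (a b : Fin n) :
    (fgraph (B.image σ) (transp σ B g)).Adj (σ a) (σ b) ↔ (fgraph B g).Adj a b := by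
  rw [fgraph_adj, fgraph_adj]
  have hm : ∀ t, σ t ∈ B.image σ ↔ t ∈ B := by
    intro t
    rw [mem_image_perm]; simp
  constructor
  · rintro ⟨h1, h2⟩
    refine ⟨fun h => h1 (by rw [h]), ?_⟩
    rcases h2 with ⟨h3, h4⟩ | ⟨h3, h4⟩
    · have ha := (hm a).mp h3
      rw [transp_apply σ B g a ha] at h4
      exact Or.inl ⟨ha, σ.injective h4⟩
    · have hb := (hm b).mp h3
      rw [transp_apply σ B g b hb] at h4
      exact Or.inr ⟨hb, σ.injective h4⟩
  · rintro ⟨h1, h2⟩
    refine ⟨fun h => h1 (σ.injective h), ?_⟩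
    rcases h2 with ⟨h3, h4⟩ | ⟨h3, h4⟩
    · exact Or.inl ⟨(hm a).mpr h3, by rw [transp_apply σ B g a h3, h4]⟩
    · exact Or.inr ⟨(hm b).mpr h3, by rw [transp_apply σ B g b h3, h4]⟩

/-- Counting copies of the graph of a function in the complete graph. -/
theorem copyCount_fgraph_le (B Y₀ : Finset (Fin n)) (g : Fin n → Fin n)
    (hg : ∀ v ∈ B, g v ∈ B ∪ Y₀) :
    copyCount ⊤ (fgraph B g) * PiW g B
      ≤ n.choose B.card * n.choose Y₀.card * (Y₀.card + 2 * B.card) ^ B.card := by
  classical
  set b := B.card with hb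
  set r := Y₀.card with hr
  set idx := (powersetCard b (univ : Finset (Fin n))) ×ˢ (powersetCard r (univ : Finset (Fin n)))
    with hidx
  set fam : Finset (Fin n) × Finset (Fin n) → Finset (Fin n → Fin n) :=
    fun x => (famP x.1 (x.1 ∪ x.2)).filter (fun g' => PiW g' x.1 = PiW g B) with hfam
  have hsub : copiesF ⊤ (fgraph B g) ⊆ idx.biUnion (fun x => (fam x).image (fgraph x.1)) := by
    intro F' hF'
    rw [mem_copiesF] at hF'
    obtain ⟨_, ⟨ψ⟩⟩ := hF'
    set σ : Equiv.Perm (Fin n) := ψ.symm.toEquiv with hσ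
    rw [Finset.mem_biUnion]
    refine ⟨(B.image σ, Y₀.image σ), ?_, ?_⟩
    · rw [hidx, Finset.mem_product, Finset.mem_powersetCard, Finset.mem_powersetCard]
      exact ⟨⟨Finset.subset_univ _, Finset.card_image_of_injective _ σ.injective⟩,
        ⟨Finset.subset_univ _, Finset.card_image_of_injective _ σ.injective⟩⟩
    · rw [Finset.mem_image]
      refine ⟨transp σ B g, ?_, ?_⟩
      · simp only [hfam, Finset.mem_filter, mem_famP]
        refine ⟨⟨?_, ?_⟩, PiW_transp σ B g⟩
        · intro v hv
          obtain ⟨t, ht, rfl⟩ := Finset.mem_image.mp hv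
          rw [transp_apply σ B g t ht, ← Finset.image_union]
          exact Finset.mem_image_of_mem σ (hg t ht)
        · intro v hv
          unfold transp
          rw [if_neg hv]
      · ext a b
        have h1 := fgraph_transp σ B g (σ.symm a) (σ.symm b)
        simp only [Equiv.apply_symm_apply] at h1
        rw [h1]
        have h2 : (fgraph B g).Adj (ψ a) (ψ b) ↔ F'.Adj a b := ψ.map_rel_iff
        rw [← h2]
        rfl
  have hcardfam : ∀ x ∈ idx, (fam x).card * PiW g B ≤ (r + 2 * b) ^ b := by
    intro x hx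
    rw [hidx, Finset.mem_product, Finset.mem_powersetCard, Finset.mem_powersetCard] at hx
    obtain ⟨⟨_, hx1⟩, ⟨_, hx2⟩⟩ := hx
    calc (fam x).card * PiW g B = ∑ g' ∈ fam x, PiW g' x.1 := by
          rw [Finset.sum_congr rfl (fun g' hg' => (Finset.mem_filter.mp hg').2),
            Finset.sum_const, smul_eq_mul]
      _ ≤ ∑ g' ∈ famP x.1 (x.1 ∪ x.2), PiW g' x.1 :=
          Finset.sum_le_sum_of_subset (Finset.filter_subset _ _)
      _ ≤ ((x.1 ∪ x.2).card + x.1.card) ^ x.1.card := sum_PiW_le _ _
      _ ≤ (r + 2 * b) ^ b := by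
          rw [hx1]
          apply Nat.pow_le_pow_left
          have := Finset.card_union_le x.1 x.2
          omega
  rw [copyCount_eq]
  calc (copiesF ⊤ (fgraph B g)).card * PiW g B
      ≤ (∑ x ∈ idx, (fam x).card) * PiW g B := by
        apply Nat.mul_le_mul_right
        calc (copiesF ⊤ (fgraph B g)).card
            ≤ (idx.biUnion (fun x => (fam x).image (fgraph x.1))).card :=
              Finset.card_le_card hsub
          _ ≤ ∑ x ∈ idx, ((fam x).image (fgraph x.1)).card := Finset.card_biUnion_le
          _ ≤ ∑ x ∈ idx, (fam x).card := Finset.sum_le_sum (fun x _ => Finset.card_image_le)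
    _ = ∑ x ∈ idx, (fam x).card * PiW g B := by rw [Finset.sum_mul]
    _ ≤ ∑ _x ∈ idx, (r + 2 * b) ^ b := Finset.sum_le_sum hcardfam
    _ = n.choose b * n.choose r * (r + 2 * b) ^ b := by
        rw [Finset.sum_const, smul_eq_mul, hidx, Finset.card_product, Finset.card_powersetCard,
          Finset.card_powersetCard, Finset.card_univ, Fintype.card_fin]

end Graph

end Vale.Agent.Lib.P064
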