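import Mathlib
import Vale.Agent.Lib.P064.Defs
import Vale.Agent.Lib.P064.Count
import Vale.Agent.Lib.P064.Expect
import Vale.Agent.Lib.P064.Analysis
import Vale.Agent.Lib.P064.FCount

/-!
Sparsity bounds the number of vertices carrying a heavy optimal subtree.
-/

set_option linter.unusedSectionVars false

namespace Vale.Agent.Lib.P064

open Finset

lemma choose_le_exp_div (n s : ℕ) (hs : 1 ≤ s) :
    (n.choose s : ℝ) ≤ (Real.exp 1 * n / s) ^ s := by
  have hs0 : (0 : ℝ) < s := by exact_mod_cast hs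
  have h1 : (n.choose s : ℝ) ≤ (n : ℝ) ^ s / (s.factorial : ℝ) := Nat.choose_le_pow_div s n
  have h2 := pow_self_le s
  have hfac : (0 : ℝ) < (s.factorial : ℝ) := by exact_mod_cast Nat.factorial_pos s
  have h3 : Real.exp s = Real.exp 1 ^ s := by
    rw [← Real.exp_nat_mul]; simp
  calc (n.choose s : ℝ) ≤ (n : ℝ) ^ s / (s.factorial : ℝ) := h1
    _ ≤ (Real.exp 1 * n / s) ^ s := by
        rw [div_pow, mul_pow, div_le_div_iff₀ hfac (by positivity), ← h3]
        calc (n : ℝ) ^ s * (s : ℝ) ^ s ≤ (n : ℝ) ^ s * (Real.exp s * (s.factorial : ℝ)) :=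
              mul_le_mul_of_nonneg_left h2 (by positivity)
          _ = _ := by ring

/-- The numerical consequence of sparsity for a family of disjoint subtrees. -/
lemma class_analysis (n s e j : ℕ) (q : ℝ) (hq : 0 ≤ q) (hs : 1 ≤ s) (he : 1 ≤ e)
    (h : ((2 : ℝ) ^ j) ^ s ≤ (n.choose (s * e) : ℝ) * (n.choose s : ℝ)
      * ((s + 2 * (s * e) : ℕ) : ℝ) ^ (s * e) * q ^ (s * e)) :
    (s : ℝ) * 2 ^ j ≤ Real.exp 1 * n * (3 * Real.exp 1 * (n * q)) ^ e := by
  have hs0 : (0 : ℝ) < s := by exact_mod_cast hs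
  have hb : 1 ≤ s * e := Nat.mul_pos hs he
  have hb0 : (0 : ℝ) < ((s * e : ℕ) : ℝ) := by exact_mod_cast hb
  have h1 := choose_le_exp_div n s hs
  have h2 := choose_le_exp_div n (s * e) hb
  have h3 : ((s + 2 * (s * e) : ℕ) : ℝ) ≤ 3 * ((s * e : ℕ) : ℝ) := by
    have : s + 2 * (s * e) ≤ 3 * (s * e) := by nlinarith
    exact_mod_cast this
  have hn0 : (0 : ℝ) ≤ n := Nat.cast_nonneg n
  have he0 : 0 < Real.exp 1 := Real.exp_pos 1
  have h4 : (n.choose (s * e) : ℝ) * ((s + 2 * (s * e) : ℕ) : ℝ) ^ (s * e) * q ^ (s * e)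
      ≤ ((3 * Real.exp 1 * (n * q)) ^ e) ^ s := by
    calc (n.choose (s * e) : ℝ) * ((s + 2 * (s * e) : ℕ) : ℝ) ^ (s * e) * q ^ (s * e)
        ≤ (Real.exp 1 * n / ((s * e : ℕ) : ℝ)) ^ (s * e) * (3 * ((s * e : ℕ) : ℝ)) ^ (s * e)
            * q ^ (s * e) := by
          apply mul_le_mul_of_nonneg_right _ (pow_nonneg hq _)
          apply mul_le_mul h2 (pow_le_pow_left₀ (Nat.cast_nonneg _) h3 _) (by positivity)
            (by positivity)
      _ = (3 * Real.exp 1 * (n * q)) ^ (s * e) := by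
          rw [← mul_pow, ← mul_pow]
          congr 1
          field_simp
      _ = ((3 * Real.exp 1 * (n * q)) ^ e) ^ s := by
          rw [← pow_mul, mul_comm e s]
  have h5 : ((2 : ℝ) ^ j) ^ s ≤ (Real.exp 1 * n / s * (3 * Real.exp 1 * (n * q)) ^ e) ^ s := by
    calc ((2 : ℝ) ^ j) ^ s ≤ (n.choose (s * e) : ℝ) * (n.choose s : ℝ)
          * ((s + 2 * (s * e) : ℕ) : ℝ) ^ (s * e) * q ^ (s * e) := h
      _ = (n.choose s : ℝ) * ((n.choose (s * e) : ℝ) * ((s + 2 * (s * e) : ℕ) : ℝ) ^ (s * e)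
            * q ^ (s * e)) := by ring
      _ ≤ (Real.exp 1 * n / s) ^ s * ((3 * Real.exp 1 * (n * q)) ^ e) ^ s := by
          apply mul_le_mul h1 h4 _ (by positivity)
          positivity
      _ = _ := (mul_pow _ _ _).symm
  have h6 : (2 : ℝ) ^ j ≤ Real.exp 1 * n / s * (3 * Real.exp 1 * (n * q)) ^ e := by
    have hnn : 0 ≤ Real.exp 1 * n / s * (3 * Real.exp 1 * (n * q)) ^ e := by positivity
    exact (pow_le_pow_iff_left₀ (by positivity) hnn (by omega)).mp h5
  calc (s : ℝ) * 2 ^ j ≤ s * (Real.exp 1 * n / s * (3 * Real.exp 1 * (n * q)) ^ e) :=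
        mul_le_mul_of_nonneg_left h6 hs0.le
    _ = _ := by field_simp

section Class

variable {n : ℕ} (H : SimpleGraph (Fin n)) (par : Fin n → Fin n) (depth : Fin n → ℕ)
  (hP1 : ∀ v, par v ≠ v → H.Adj v (par v) ∧ depth v = depth (par v) + 1)

include hP1

lemma fgraph_le (B : Finset (Fin n)) (hB : ∀ v ∈ B, par v ≠ v) : fgraph B par ≤ H := by
  intro a b hab
  rw [fgraph_adj] at hab
  rcases hab.2 with ⟨h1, h2⟩ | ⟨h1, h2⟩
  · rw [← h2]; exact (hP1 a (hB a h1)).1
  · rw [← h2]; exact (hP1 b (hB b h1)).1.symm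

lemma card_le_numEdges_fgraph (B : Finset (Fin n)) (hB : ∀ v ∈ B, par v ≠ v) :
    B.card ≤ numEdges (fgraph B par) := by
  classical
  rw [numEdges_eq]
  have hinj : Set.InjOn (fun v => s(v, par v)) (B : Set (Fin n)) := by
    intro v hv v' hv' h
    simp only [Sym2.eq_iff] at h
    rcases h with ⟨h1, _⟩ | ⟨h1, h2⟩
    · exact h1
    · exfalso
      have d1 := (hP1 v (hB v hv)).2
      have d2 := (hP1 v' (hB v' hv')).2
      rw [h2] at d1
      rw [← h1] at d2
      omega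
  rw [← Finset.card_image_of_injOn hinj]
  apply Finset.card_le_card
  intro x hx
  obtain ⟨v, hv, rfl⟩ := Finset.mem_image.mp hx
  rw [mem_edgeF, SimpleGraph.mem_edgeSet, fgraph_adj]
  exact ⟨(hB v hv).symm, Or.inl ⟨hv, rfl⟩⟩

theorem class_bound (q : ℝ) (hq0 : 0 < q) (hq1 : q ≤ 1)
    (hs : ∀ F : SimpleGraph (Fin n), F ≤ H → 1 ≤ expCopies q F)
    (y : ℝ) (k e j c : ℕ) (he : 1 ≤ e) (W : Finset (Fin n))
    (hW : ∀ w ∈ W, (Bk (chOf par) y k w).card = e ∧ 2 ^ j ≤ PiW par (Bk (chOf par) y k w)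
      ∧ depth w % (e + 1) = c) :
    (W.card : ℝ) * 2 ^ j ≤ Real.exp 1 * n * (3 * Real.exp 1 * (n * q)) ^ e := by
  classical
  have hdp : ∀ v, par v ≠ v → depth v = depth (par v) + 1 := fun v hv => (hP1 v hv).2
  rcases Nat.eq_zero_or_pos W.card with h0 | hpos
  · rw [h0]
    simp only [Nat.cast_zero, zero_mul]
    positivity
  set BU := W.biUnion (fun w => Bk (chOf par) y k w) with hBU
  have hpd : (W : Set (Fin n)).PairwiseDisjoint (fun w => Bk (chOf par) y k w) := by
    intro w hw w' hw' hne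
    rw [Function.onFun, Finset.disjoint_left]
    intro v hv hv'
    apply hne
    obtain ⟨i, hi1, hi2, hi3⟩ := Bk_anc0 par depth hdp y k w v (Finset.mem_insert_of_mem hv)
    obtain ⟨i', hi1', hi2', hi3'⟩ :=
      Bk_anc0 par depth hdp y k w' v (Finset.mem_insert_of_mem hv')
    rw [(hW w hw).1] at hi1
    rw [(hW w' hw').1] at hi1'
    have hmod : depth w ≡ depth w' [MOD (e + 1)] := by
      unfold Nat.ModEq
      rw [(hW w hw).2.2, (hW w' hw').2.2]
    have hsum : depth w + i ≡ depth w' + i' [MOD (e + 1)] := by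
      rw [← hi3, ← hi3']
    have hii : i ≡ i' [MOD (e + 1)] := Nat.ModEq.add_left_cancel hmod hsum
    have : i = i' := Nat.ModEq.eq_of_lt_of_lt hii (by omega) (by omega)
    subst this
    rw [← hi2, ← hi2']
  have hcard : BU.card = W.card * e := by
    rw [hBU, Finset.card_biUnion (fun w hw w' hw' hne => hpd hw hw' hne),
      Finset.sum_congr rfl (fun w hw => (hW w hw).1), Finset.sum_const, smul_eq_mul]
  have hPi : (2 ^ j) ^ W.card ≤ PiW par BU := by
    calc (2 ^ j) ^ W.card = ∏ _w ∈ W, 2 ^ j := by rw [Finset.prod_const]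
      _ ≤ ∏ w ∈ W, PiW par (Bk (chOf par) y k w) :=
          Finset.prod_le_prod' (fun w hw => (hW w hw).2.1)
      _ ≤ PiW par BU := PiW_biUnion par W _ hpd
  have hBne : ∀ v ∈ BU, par v ≠ v := by
    intro v hv
    obtain ⟨w, _, hvw⟩ := Finset.mem_biUnion.mp hv
    exact (Bk_clo par depth hdp y k w v hvw).1
  have hg : ∀ v ∈ BU, par v ∈ BU ∪ W := by
    intro v hv
    obtain ⟨w, hw, hvw⟩ := Finset.mem_biUnion.mp hv
    rcases (Bk_clo par depth hdp y k w v hvw).2 with h | h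
    · exact Finset.mem_union_left _ (Finset.mem_biUnion.mpr ⟨w, hw, h⟩)
    · rw [h]; exact Finset.mem_union_right _ hw
  have hcount := copyCount_fgraph_le BU W par hg
  have hsp := hs (fgraph BU par) (fgraph_le H par depth hP1 BU hBne)
  rw [expCopies_eq] at hsp
  have hedges := card_le_numEdges_fgraph H par depth hP1 BU hBne
  have hqpow : q ^ numEdges (fgraph BU par) ≤ q ^ BU.card :=
    pow_le_pow_of_le_one hq0.le hq1 hedges
  have hN0 : (0 : ℝ) ≤ (copyCount ⊤ (fgraph BU par) : ℝ) := Nat.cast_nonneg _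
  have hsp' : 1 ≤ (copyCount ⊤ (fgraph BU par) : ℝ) * q ^ BU.card :=
    hsp.trans (mul_le_mul_of_nonneg_left hqpow hN0)
  have hcountR : (copyCount ⊤ (fgraph BU par) : ℝ) * (PiW par BU : ℝ)
      ≤ (n.choose BU.card : ℝ) * (n.choose W.card : ℝ)
        * ((W.card + 2 * BU.card : ℕ) : ℝ) ^ BU.card := by
    exact_mod_cast hcount
  have hPiR : ((2 : ℝ) ^ j) ^ W.card ≤ (PiW par BU : ℝ) := by exact_mod_cast hPi
  have hPi0 : (0 : ℝ) ≤ (PiW par BU : ℝ) := Nat.cast_nonneg _
  apply class_analysis n W.card e j q hq0.le hpos he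
  rw [← hcard]
  calc ((2 : ℝ) ^ j) ^ W.card ≤ (PiW par BU : ℝ) := hPiR
    _ ≤ (PiW par BU : ℝ) * ((copyCount ⊤ (fgraph BU par) : ℝ) * q ^ BU.card) :=
        le_mul_of_one_le_right hPi0 hsp'
    _ = ((copyCount ⊤ (fgraph BU par) : ℝ) * (PiW par BU : ℝ)) * q ^ BU.card := by ring
    _ ≤ _ := mul_le_mul_of_nonneg_right hcountR (pow_nonneg hq0.le _)

omit hP1 in
lemma PiW_le_two_pow (B : Finset (Fin n)) : PiW par B ≤ 2 ^ (B.card ^ 2) := by
  have h1 : PiW par B ≤ B.card.factorial := by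
    have h2 := Nat.prod_factorial_dvd_factorial_sum (univ : Finset (Fin n)) (fun v => cc par B v)
    rw [sum_cc B univ par (fun v _ => Finset.mem_univ _)] at h2
    exact Nat.le_of_dvd (Nat.factorial_pos _) h2
  calc PiW par B ≤ B.card.factorial := h1
    _ ≤ B.card ^ B.card := Nat.factorial_le_pow _
    _ ≤ (2 ^ B.card) ^ B.card := Nat.pow_le_pow_left (Nat.lt_two_pow_self).le _
    _ = 2 ^ (B.card ^ 2) := by rw [← pow_mul, sq]

lemma level_sum (q : ℝ) (hq0 : 0 < q) (hq1 : q ≤ 1)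
    (hs : ∀ F : SimpleGraph (Fin n), F ≤ H → 1 ≤ expCopies q F)
    (y : ℝ) (k e : ℕ) (he : 1 ≤ e) :
    ∑ w ∈ univ.filter (fun w => (Bk (chOf par) y k w).card = e),
        (PiW par (Bk (chOf par) y k w) : ℝ)
      ≤ ((e ^ 2 + 1) * (e + 1) : ℕ) * (2 * (Real.exp 1 * n * (3 * Real.exp 1 * (n * q)) ^ e)) := by
  classical
  set We := univ.filter (fun w => (Bk (chOf par) y k w).card = e) with hWe
  set idx := range (e ^ 2 + 1) ×ˢ range (e + 1) with hidx
  set key : Fin n → ℕ × ℕ :=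
    fun w => (Nat.log 2 (PiW par (Bk (chOf par) y k w)), depth w % (e + 1)) with hkey
  have hmaps : ∀ w ∈ We, key w ∈ idx := by
    intro w hw
    have hcard : (Bk (chOf par) y k w).card = e := (Finset.mem_filter.mp hw).2
    rw [hidx, Finset.mem_product, Finset.mem_range, Finset.mem_range]
    constructor
    · show Nat.log 2 (PiW par (Bk (chOf par) y k w)) < e ^ 2 + 1
      apply Nat.log_lt_of_lt_pow (PiW_pos par _).ne'
      have := PiW_le_two_pow par (Bk (chOf par) y k w)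
      rw [hcard] at this
      calc _ ≤ 2 ^ (e ^ 2) := this
        _ < 2 ^ (e ^ 2 + 1) := Nat.pow_lt_pow_right (by norm_num) (by omega)
    · exact Nat.mod_lt _ (by omega)
  rw [← Finset.sum_fiberwise_of_maps_to hmaps]
  have hcls : ∀ x ∈ idx, ∑ w ∈ We with key w = x, (PiW par (Bk (chOf par) y k w) : ℝ)
      ≤ 2 * (Real.exp 1 * n * (3 * Real.exp 1 * (n * q)) ^ e) := by
    intro x _
    set W := We.filter (fun w => key w = x) with hW
    have hprop : ∀ w ∈ W, (Bk (chOf par) y k w).card = e ∧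
        2 ^ x.1 ≤ PiW par (Bk (chOf par) y k w) ∧ depth w % (e + 1) = x.2 := by
      intro w hw
      obtain ⟨hw1, hw2⟩ := Finset.mem_filter.mp hw
      refine ⟨(Finset.mem_filter.mp hw1).2, ?_, ?_⟩
      · rw [← hw2]
        exact Nat.pow_log_le_self 2 (PiW_pos par _).ne'
      · rw [← hw2]
    have hb := class_bound H par depth hP1 q hq0 hq1 hs y k e x.1 x.2 he W hprop
    calc ∑ w ∈ W, (PiW par (Bk (chOf par) y k w) : ℝ)
        ≤ ∑ _w ∈ W, (2 : ℝ) ^ (x.1 + 1) := by
          apply Finset.sum_le_sum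
          intro w hw
          obtain ⟨_, hw2⟩ := Finset.mem_filter.mp hw
          have := Nat.lt_pow_succ_log_self (by norm_num : 1 < 2) (PiW par (Bk (chOf par) y k w))
          have h3 : Nat.log 2 (PiW par (Bk (chOf par) y k w)) = x.1 := by rw [← hw2]
          rw [h3] at this
          exact_mod_cast this.le
      _ = 2 * ((W.card : ℝ) * 2 ^ x.1) := by
          rw [Finset.sum_const, nsmul_eq_mul, pow_succ]; ring
      _ ≤ _ := by linarith
  calc ∑ x ∈ idx, ∑ w ∈ We with key w = x, (PiW par (Bk (chOf par) y k w) : ℝ)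
      ≤ ∑ _x ∈ idx, 2 * (Real.exp 1 * n * (3 * Real.exp 1 * (n * q)) ^ e) :=
        Finset.sum_le_sum hcls
    _ = _ := by
        rw [Finset.sum_const, nsmul_eq_mul, hidx, Finset.card_product, Finset.card_range,
          Finset.card_range]

omit hP1 in
lemma poly_le_eight_pow (e : ℕ) : (e ^ 2 + 1) * (e + 1) ≤ 8 ^ e := by
  have h1 : e + 1 ≤ 2 ^ e := Nat.lt_two_pow_self
  have h2 : e ^ 2 + 1 ≤ 4 ^ e := by
    calc e ^ 2 + 1 ≤ (e + 1) ^ 2 := by nlinarith
      _ ≤ (2 ^ e) ^ 2 := Nat.pow_le_pow_left h1 2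
      _ = 4 ^ e := by rw [← pow_mul, mul_comm, pow_mul]; norm_num
  calc (e ^ 2 + 1) * (e + 1) ≤ 4 ^ e * 2 ^ e := Nat.mul_le_mul h2 h1
    _ = 8 ^ e := by rw [← mul_pow]; norm_num

theorem sum_Pk_le (q : ℝ) (hq0 : 0 < q) (hq1 : q ≤ 1)
    (hs : ∀ F : SimpleGraph (Fin n), F ≤ H → 1 ≤ expCopies q F)
    (y : ℝ) (hy : 0 ≤ y) (hy2 : 96 * Real.exp 1 * (n * q) * y ≤ 1) (k : ℕ) :
    ∑ w, Pk (chOf par) y k w ≤ 4 * n := by
  classical
  have hdp : ∀ v, par v ≠ v → depth v = depth (par v) + 1 := fun v hv => (hP1 v hv).2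
  set t : Fin n → ℝ := fun w =>
    (PiW par (Bk (chOf par) y k w) : ℝ) * y ^ (Bk (chOf par) y k w).card with ht
  have h1 : ∑ w, Pk (chOf par) y k w ≤ ∑ w, t w :=
    Finset.sum_le_sum (fun w _ => Pk_le_wit par depth hdp y hy k w)
  have hmaps : ∀ w ∈ (univ : Finset (Fin n)), (Bk (chOf par) y k w).card ∈ range (n + 1) := by
    intro w _
    rw [Finset.mem_range]
    have := Finset.card_le_univ (Bk (chOf par) y k w)
    rw [Fintype.card_fin] at this
    omega
  have hn0 : (0 : ℝ) ≤ n := Nat.cast_nonneg n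
  have he0 : 0 < Real.exp 1 := Real.exp_pos 1
  set A := Real.exp 1 * n with hA
  have hA0 : 0 ≤ A := by positivity
  set X := 3 * Real.exp 1 * (n * q) with hX
  have hX0 : 0 ≤ X := by positivity
  have hγ : 8 * (X * y) ≤ 1 / 4 := by
    rw [hX]; nlinarith
  have hlev : ∀ e, ∑ w ∈ univ.filter (fun w => (Bk (chOf par) y k w).card = e + 1), t w
      ≤ 2 * A * (1 / 4) ^ (e + 1) := by
    intro e
    have h2 := level_sum H par depth hP1 q hq0 hq1 hs y k (e + 1) (by omega)
    calc ∑ w ∈ univ.filter (fun w => (Bk (chOf par) y k w).card = e + 1), t w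
        = (∑ w ∈ univ.filter (fun w => (Bk (chOf par) y k w).card = e + 1),
            (PiW par (Bk (chOf par) y k w) : ℝ)) * y ^ (e + 1) := by
          rw [Finset.sum_mul]
          apply Finset.sum_congr rfl
          intro w hw
          simp only [ht]
          rw [(Finset.mem_filter.mp hw).2]
      _ ≤ ((((e + 1) ^ 2 + 1) * ((e + 1) + 1) : ℕ) * (2 * (A * X ^ (e + 1)))) * y ^ (e + 1) :=
          mul_le_mul_of_nonneg_right h2 (pow_nonneg hy _)
      _ ≤ (((8 : ℕ) ^ (e + 1) : ℕ) * (2 * (A * X ^ (e + 1)))) * y ^ (e + 1) := by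
          apply mul_le_mul_of_nonneg_right _ (pow_nonneg hy _)
          apply mul_le_mul_of_nonneg_right _ (by positivity)
          exact_mod_cast poly_le_eight_pow (e + 1)
      _ = 2 * A * (8 * (X * y)) ^ (e + 1) := by
          push_cast
          rw [mul_pow 8 (X * y), mul_pow X y]; ring
      _ ≤ 2 * A * (1 / 4) ^ (e + 1) := by
          apply mul_le_mul_of_nonneg_left _ (by positivity)
          apply pow_le_pow_left₀ (by positivity) hγ
  have hzero : ∑ w ∈ univ.filter (fun w => (Bk (chOf par) y k w).card = 0), t w ≤ n := by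
    calc ∑ w ∈ univ.filter (fun w => (Bk (chOf par) y k w).card = 0), t w
        = ∑ _w ∈ univ.filter (fun w => (Bk (chOf par) y k w).card = 0), (1 : ℝ) := by
          apply Finset.sum_congr rfl
          intro w hw
          have h0 : (Bk (chOf par) y k w).card = 0 := (Finset.mem_filter.mp hw).2
          have h0' : Bk (chOf par) y k w = ∅ := Finset.card_eq_zero.mp h0
          simp only [ht]
          rw [h0', PiW_empty]
          simp
      _ = ((univ.filter (fun w => (Bk (chOf par) y k w).card = 0)).card : ℝ) := by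
          rw [Finset.sum_const, nsmul_eq_mul, mul_one]
      _ ≤ n := by
          have := Finset.card_le_univ (univ.filter (fun w => (Bk (chOf par) y k w).card = 0))
          rw [Fintype.card_fin] at this
          exact_mod_cast this
  have hgeo : ∑ e ∈ range n, 2 * A * (1 / 4 : ℝ) ^ (e + 1) ≤ A := by
    have h3 : ∀ e ∈ range n, 2 * A * (1 / 4 : ℝ) ^ (e + 1) ≤ A / 2 * (1 / 2) ^ e := by
      intro e _
      have : (1 / 4 : ℝ) ^ e ≤ (1 / 2) ^ e := pow_le_pow_left₀ (by norm_num) (by norm_num) e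
      rw [pow_succ]
      nlinarith
    calc ∑ e ∈ range n, 2 * A * (1 / 4 : ℝ) ^ (e + 1)
        ≤ ∑ e ∈ range n, A / 2 * (1 / 2) ^ e := Finset.sum_le_sum h3
      _ = A / 2 * ∑ e ∈ range n, (1 / 2 : ℝ) ^ e := by rw [Finset.mul_sum]
      _ ≤ A / 2 * 2 := mul_le_mul_of_nonneg_left (sum_geometric_two_le n) (by positivity)
      _ = A := by ring
  have hA3 : A ≤ 3 * n := by
    have := Real.exp_one_lt_d9
    rw [hA]
    nlinarith
  calc ∑ w, Pk (chOf par) y k w ≤ ∑ w, t w := h1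
    _ = ∑ e ∈ range (n + 1), ∑ w ∈ univ.filter (fun w => (Bk (chOf par) y k w).card = e), t w :=
        (Finset.sum_fiberwise_of_maps_to hmaps t).symm
    _ = (∑ e ∈ range n, ∑ w ∈ univ.filter (fun w => (Bk (chOf par) y k w).card = e + 1), t w)
          + ∑ w ∈ univ.filter (fun w => (Bk (chOf par) y k w).card = 0), t w :=
        Finset.sum_range_succ' _ n
    _ ≤ (∑ e ∈ range n, 2 * A * (1 / 4 : ℝ) ^ (e + 1)) + n :=
        add_le_add (Finset.sum_le_sum (fun e _ => hlev e)) hzero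
    _ ≤ 4 * n := by linarith

end Class

end Vale.Agent.Lib.P064
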