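import Mathlib

/-!
Sums over injective sequences, restrictions of permutations.
-/

set_option linter.unusedSectionVars false

namespace Vale.Agent.Lib.P064

open Finset

section Seq

variable {V : Type*} [DecidableEq V]

/-- Sum over injective sequences of length `l` in `A` of the product of the weights. -/
noncomputable def seqSum (c : V → ℝ) : ℕ → Finset V → ℝ
  | 0, _ => 1
  | (l + 1), A => ∑ u ∈ A, c u * seqSum c l (A.erase u)

lemma seqSum_zero (c : V → ℝ) (A : Finset V) : seqSum c 0 A = 1 := rfl

lemma seqSum_succ (c : V → ℝ) (l : ℕ) (A : Finset V) :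
    seqSum c (l + 1) A = ∑ u ∈ A, c u * seqSum c l (A.erase u) := rfl

lemma seqSum_nonneg (c : V → ℝ) (hc : ∀ u, 0 ≤ c u) (l : ℕ) (A : Finset V) :
    0 ≤ seqSum c l A := by
  induction l generalizing A with
  | zero => exact zero_le_one
  | succ l ih =>
    rw [seqSum_succ]
    exact Finset.sum_nonneg (fun u _ => mul_nonneg (hc u) (ih _))

lemma seqSum_eq (c : V → ℝ) (l : ℕ) (A : Finset V) :
    seqSum c l A = (l.factorial : ℝ) * ∑ M ∈ powersetCard l A, ∏ u ∈ M, c u := by
  induction l generalizing A with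
  | zero => simp [seqSum_zero]
  | succ l ih =>
    rw [seqSum_succ]
    have h1 : ∑ u ∈ A, c u * seqSum c l (A.erase u)
        = (l.factorial : ℝ) * ∑ u ∈ A, ∑ M ∈ powersetCard l (A.erase u), c u * ∏ t ∈ M, c t := by
      rw [Finset.mul_sum]
      apply Finset.sum_congr rfl
      intro u _
      rw [ih, Finset.mul_sum, Finset.mul_sum, Finset.mul_sum]
      apply Finset.sum_congr rfl
      intro M _
      ring
    have h2 : ∑ u ∈ A, ∑ M ∈ powersetCard l (A.erase u), c u * ∏ t ∈ M, c t
        = ∑ M' ∈ powersetCard (l + 1) A, ∑ _u ∈ M', ∏ t ∈ M', c t := by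
      rw [Finset.sum_sigma', Finset.sum_sigma']
      apply Finset.sum_nbij' (fun x => ⟨insert x.1 x.2, x.1⟩) (fun x => ⟨x.2, x.1.erase x.2⟩)
      · rintro ⟨u, M⟩ hx
        simp only [Finset.mem_sigma, Finset.mem_powersetCard] at hx ⊢
        obtain ⟨hu, hM, hcard⟩ := hx
        have hnot : u ∉ M := fun h => (Finset.mem_erase.mp (hM h)).1 rfl
        refine ⟨⟨?_, ?_⟩, Finset.mem_insert_self _ _⟩
        · intro t ht
          rcases Finset.mem_insert.mp ht with rfl | ht
          · exact hu
          · exact (Finset.mem_erase.mp (hM ht)).2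
        · rw [Finset.card_insert_of_notMem hnot, hcard]
      · rintro ⟨M', u⟩ hx
        simp only [Finset.mem_sigma, Finset.mem_powersetCard] at hx ⊢
        obtain ⟨⟨hM, hcard⟩, hu⟩ := hx
        refine ⟨hM hu, Finset.erase_subset_erase _ hM, ?_⟩
        rw [Finset.card_erase_of_mem hu, hcard]
        rfl
      · rintro ⟨u, M⟩ hx
        simp only [Finset.mem_sigma, Finset.mem_powersetCard] at hx
        obtain ⟨_, hM, _⟩ := hx
        have hnot : u ∉ M := fun h => (Finset.mem_erase.mp (hM h)).1 rfl
        simp [Finset.erase_insert hnot]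
      · rintro ⟨M', u⟩ hx
        simp only [Finset.mem_sigma, Finset.mem_powersetCard] at hx
        simp [Finset.insert_erase hx.2]
      · rintro ⟨u, M⟩ hx
        simp only [Finset.mem_sigma, Finset.mem_powersetCard] at hx
        obtain ⟨_, hM, _⟩ := hx
        have hnot : u ∉ M := fun h => (Finset.mem_erase.mp (hM h)).1 rfl
        simp [Finset.prod_insert hnot]
    have h3 : ∑ M' ∈ powersetCard (l + 1) A, ∑ _u ∈ M', ∏ t ∈ M', c t
        = ((l + 1 : ℕ) : ℝ) * ∑ M' ∈ powersetCard (l + 1) A, ∏ t ∈ M', c t := by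
      rw [Finset.mul_sum]
      apply Finset.sum_congr rfl
      intro M' hM'
      rw [Finset.sum_const, (Finset.mem_powersetCard.mp hM').2, nsmul_eq_mul]
    rw [h1, h2, h3, Nat.factorial_succ]
    push_cast
    ring

lemma seqSum_le_powerset (c : V → ℝ) (hc : ∀ u, 0 ≤ c u) (l : ℕ) (A : Finset V) :
    seqSum c l A ≤ ∑ M ∈ A.powerset, (M.card.factorial : ℝ) * ∏ u ∈ M, c u := by
  rw [seqSum_eq, Finset.mul_sum]
  calc ∑ M ∈ powersetCard l A, (l.factorial : ℝ) * ∏ u ∈ M, c u
      = ∑ M ∈ powersetCard l A, (M.card.factorial : ℝ) * ∏ u ∈ M, c u := by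
        apply Finset.sum_congr rfl
        intro M hM
        rw [(Finset.mem_powersetCard.mp hM).2]
    _ ≤ _ := by
        apply Finset.sum_le_sum_of_subset_of_nonneg
        · intro M hM
          exact Finset.mem_powerset.mpr (Finset.mem_powersetCard.mp hM).1
        · intro M _ _
          exact mul_nonneg (Nat.cast_nonneg _) (Finset.prod_nonneg (fun u _ => hc u))

lemma seqSum_le_pow (c : V → ℝ) (hc : ∀ u, 0 ≤ c u) (l : ℕ) (A : Finset V) :
    seqSum c l A ≤ (∑ u ∈ A, c u) ^ l := by
  induction l generalizing A with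
  | zero => simp [seqSum_zero]
  | succ l ih =>
    rw [seqSum_succ, pow_succ, mul_comm, Finset.sum_mul]
    apply Finset.sum_le_sum
    intro u _
    apply mul_le_mul_of_nonneg_left _ (hc u)
    refine (ih _).trans ?_
    apply pow_le_pow_left₀ (Finset.sum_nonneg (fun u _ => hc u))
    exact Finset.sum_le_sum_of_subset_of_nonneg (Finset.erase_subset _ _) (fun u _ _ => hc u)

end Seq

section Restr

variable {V : Type*} [Fintype V] [DecidableEq V]

/-- The restriction of a permutation to a set, extended by the identity. -/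
def prestr (D : Finset V) (σ : Equiv.Perm V) : V → V := fun a => if a ∈ D then σ a else a

lemma restr_of_mem {D : Finset V} {σ : Equiv.Perm V} {a : V} (h : a ∈ D) :
    prestr D σ a = σ a := if_pos h

lemma restr_of_notMem {D : Finset V} {σ : Equiv.Perm V} {a : V} (h : a ∉ D) :
    prestr D σ a = a := if_neg h

lemma card_image_restr_union (D₁ D₂ : Finset V) (T : Finset (Equiv.Perm V)) :
    (T.image (prestr (D₁ ∪ D₂))).card
      ≤ (T.image (prestr D₁)).card * (T.image (prestr D₂)).card := by
  rw [← Finset.card_product]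
  apply Finset.card_le_card_of_injOn
    (fun φ => ((fun a => if a ∈ D₁ then φ a else a), (fun a => if a ∈ D₂ then φ a else a)))
  · intro φ hφ
    obtain ⟨σ, hσ, rfl⟩ := Finset.mem_image.mp (Finset.mem_coe.mp hφ)
    simp only [Finset.coe_product, Set.mem_prod, Finset.mem_coe, Finset.mem_image]
    refine ⟨⟨σ, hσ, ?_⟩, ⟨σ, hσ, ?_⟩⟩
    · funext a
      by_cases h : a ∈ D₁
      · rw [restr_of_mem h, if_pos h, restr_of_mem (Finset.mem_union_left _ h)]
      · rw [restr_of_notMem h, if_neg h]
    · funext a
      by_cases h : a ∈ D₂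
      · rw [restr_of_mem h, if_pos h, restr_of_mem (Finset.mem_union_right _ h)]
      · rw [restr_of_notMem h, if_neg h]
  · intro φ hφ φ' hφ' heq
    obtain ⟨σ, _, rfl⟩ := Finset.mem_image.mp (Finset.mem_coe.mp hφ)
    obtain ⟨σ', _, rfl⟩ := Finset.mem_image.mp (Finset.mem_coe.mp hφ')
    simp only [Prod.mk.injEq] at heq
    obtain ⟨h1, h2⟩ := heq
    funext a
    by_cases ha1 : a ∈ D₁
    · have := congrFun h1 a
      simpa [ha1] using this
    · by_cases ha2 : a ∈ D₂
      · have := congrFun h2 a
        simpa [ha2] using this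
      · have : a ∉ D₁ ∪ D₂ := by
          rw [Finset.mem_union]; tauto
        rw [restr_of_notMem this, restr_of_notMem this]

lemma card_image_restr_empty (T : Finset (Equiv.Perm V)) :
    (T.image (prestr ∅)).card ≤ 1 := by
  rw [Finset.card_le_one]
  intro φ hφ φ' hφ'
  obtain ⟨σ, _, rfl⟩ := Finset.mem_image.mp hφ
  obtain ⟨σ', _, rfl⟩ := Finset.mem_image.mp hφ'
  funext a
  rw [restr_of_notMem (Finset.notMem_empty a), restr_of_notMem (Finset.notMem_empty a)]

lemma card_image_restr_singleton (a u : V) (T : Finset (Equiv.Perm V))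
    (h : ∀ σ ∈ T, σ a = u) : (T.image (prestr {a})).card ≤ 1 := by
  rw [Finset.card_le_one]
  intro φ hφ φ' hφ'
  obtain ⟨σ, hσ, rfl⟩ := Finset.mem_image.mp hφ
  obtain ⟨σ', hσ', rfl⟩ := Finset.mem_image.mp hφ'
  funext t
  by_cases ht : t ∈ ({a} : Finset V)
  · rw [restr_of_mem ht, restr_of_mem ht]
    rw [Finset.mem_singleton] at ht
    subst ht
    rw [h σ hσ, h σ' hσ']
  · rw [restr_of_notMem ht, restr_of_notMem ht]

lemma card_image_restr_insert (a u : V) (D : Finset V) (T : Finset (Equiv.Perm V))
    (h : ∀ σ ∈ T, σ a = u) : (T.image (prestr (insert a D))).card ≤ (T.image (prestr D)).card := by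
  rw [Finset.insert_eq]
  calc (T.image (prestr ({a} ∪ D))).card
      ≤ (T.image (prestr {a})).card * (T.image (prestr D)).card := card_image_restr_union _ _ _
    _ ≤ 1 * (T.image (prestr D)).card :=
        Nat.mul_le_mul_right _ (card_image_restr_singleton a u T h)
    _ = _ := one_mul _

lemma card_image_le_sum_filter {β : Type*} [DecidableEq β] (f : Equiv.Perm V → β) (a : V)
    (A : Finset V) (T : Finset (Equiv.Perm V)) (h : ∀ σ ∈ T, σ a ∈ A) :
    (T.image f).card ≤ ∑ u ∈ A, ((T.filter (fun σ => σ a = u)).image f).card := by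
  have hsub : T.image f ⊆ A.biUnion (fun u => (T.filter (fun σ => σ a = u)).image f) := by
    intro x hx
    obtain ⟨σ, hσ, rfl⟩ := Finset.mem_image.mp hx
    rw [Finset.mem_biUnion]
    exact ⟨σ a, h σ hσ, Finset.mem_image_of_mem f (Finset.mem_filter.mpr ⟨hσ, rfl⟩)⟩
  exact (Finset.card_le_card hsub).trans Finset.card_biUnion_le

lemma card_fix (D : Finset V) :
    ((univ : Finset (Equiv.Perm V)).filter (fun τ => ∀ a ∈ D, τ a = a)).card
      = (Fintype.card V - D.card).factorial := by
  have e := Equiv.Perm.subtypeEquivSubtypePerm (fun a : V => a ∉ D)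
  have h1 : Fintype.card {f : Equiv.Perm V // ∀ a, ¬ (a ∉ D) → f a = a}
      = (Fintype.card V - D.card).factorial := by
    rw [← Fintype.card_congr e, Fintype.card_perm]
    congr 1
    rw [Fintype.card_of_subtype Dᶜ (by intro x; simp), Finset.card_compl]
  rw [← h1, Fintype.card_subtype]
  congr 1
  ext τ
  simp

lemma card_le_image_restr (D : Finset V) (T : Finset (Equiv.Perm V)) :
    T.card ≤ (T.image (prestr D)).card * (Fintype.card V - D.card).factorial := by
  rw [Finset.card_eq_sum_card_image (prestr D) T]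
  calc ∑ φ ∈ T.image (prestr D), (T.filter (fun σ => prestr D σ = φ)).card
      ≤ ∑ _φ ∈ T.image (prestr D), (Fintype.card V - D.card).factorial := by
        apply Finset.sum_le_sum
        intro φ hφ
        obtain ⟨σ₀, _, rfl⟩ := Finset.mem_image.mp hφ
        rw [← card_fix D]
        apply Finset.card_le_card_of_injOn (fun σ => σ₀⁻¹ * σ)
        · intro σ hσ
          have hσ' : prestr D σ = prestr D σ₀ := (Finset.mem_filter.mp (Finset.mem_coe.mp hσ)).2
          simp only [Finset.coe_filter, Finset.mem_univ, true_and, Set.mem_ofPred_eq]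
          intro a ha
          have := congrFun hσ' a
          rw [restr_of_mem ha, restr_of_mem ha] at this
          rw [Equiv.Perm.mul_apply, this]
          simp
        · intro σ _ σ' _ h
          exact mul_left_cancel h
    _ = _ := by rw [Finset.sum_const, smul_eq_mul]

end Restr

end Vale.Agent.Lib.P064
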