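import Mathlib
import Vale.Agent.Lib.P064.FWit
import Vale.Agent.Lib.P064.FSeq

/-!
Counting the permutations that intertwine two rooted forests.
-/

set_option linter.unusedSectionVars false

namespace Vale.Agent.Lib.P064

open Finset

section Desc

variable {V : Type*} [Fintype V] [DecidableEq V] (g : V → V) (dF : V → ℕ)

/-- Descendants of a vertex within `k` generations. -/
def desc : ℕ → V → Finset V
  | 0, a => {a}
  | (k + 1), a => insert a ((chOf g a).biUnion (desc k))

lemma desc_zero (a : V) : desc g 0 a = {a} := rfl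

lemma desc_succ (k : ℕ) (a : V) :
    desc g (k + 1) a = insert a ((chOf g a).biUnion (desc g k)) := rfl

lemma self_mem_desc (k : ℕ) (a : V) : a ∈ desc g k a := by
  cases k with
  | zero => exact Finset.mem_singleton_self a
  | succ k => exact Finset.mem_insert_self _ _

lemma desc_mono (k : ℕ) (a : V) : desc g k a ⊆ desc g (k + 1) a := by
  induction k generalizing a with
  | zero =>
    intro v hv
    rw [desc_zero, Finset.mem_singleton] at hv
    subst hv
    exact self_mem_desc g 1 v
  | succ k ih =>
    intro v hv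
    rw [desc_succ, Finset.mem_insert, Finset.mem_biUnion] at hv
    rw [desc_succ, Finset.mem_insert, Finset.mem_biUnion]
    rcases hv with rfl | ⟨b, hb, hv⟩
    · exact Or.inl rfl
    · exact Or.inr ⟨b, hb, ih b hv⟩

lemma desc_mono' {k k' : ℕ} (h : k ≤ k') (a : V) : desc g k a ⊆ desc g k' a := by
  induction h with
  | refl => exact Finset.Subset.refl _
  | step _ ih => exact ih.trans (desc_mono g _ a)

lemma desc_child (k : ℕ) (ρ c a : V) (hc : c ∈ desc g k ρ) (ha : a ∈ chOf g c) :
    a ∈ desc g (k + 1) ρ := by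
  induction k generalizing ρ with
  | zero =>
    rw [desc_zero, Finset.mem_singleton] at hc
    subst hc
    rw [desc_succ, Finset.mem_insert, Finset.mem_biUnion]
    exact Or.inr ⟨a, ha, self_mem_desc g 0 a⟩
  | succ k ih =>
    rw [desc_succ, Finset.mem_insert, Finset.mem_biUnion] at hc
    rw [desc_succ, Finset.mem_insert, Finset.mem_biUnion]
    rcases hc with rfl | ⟨b, hb, hc⟩
    · exact Or.inr ⟨a, ha, self_mem_desc g (k + 1) a⟩
    · exact Or.inr ⟨b, hb, ih b hc⟩

variable (hdF : ∀ a, g a ≠ a → dF a = dF (g a) + 1)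

include hdF

lemma desc_anc (k : ℕ) (a v : V) (hv : v ∈ desc g k a) :
    ∃ i, g^[i] v = a ∧ dF v = dF a + i := by
  induction k generalizing a with
  | zero =>
    rw [desc_zero, Finset.mem_singleton] at hv
    exact ⟨0, hv, by rw [hv]; rfl⟩
  | succ k ih =>
    rw [desc_succ, Finset.mem_insert, Finset.mem_biUnion] at hv
    rcases hv with rfl | ⟨b, hb, hv⟩
    · exact ⟨0, rfl, rfl⟩
    · obtain ⟨i, h1, h2⟩ := ih b hv
      have hb' := (mem_chOf g).mp hb
      have hd := hdF b (by rw [hb'.1]; exact hb'.2.symm)
      rw [hb'.1] at hd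
      refine ⟨i + 1, ?_, by omega⟩
      rw [Function.iterate_succ_apply', h1, hb'.1]

lemma desc_sib_disj (k : ℕ) (a : V) :
    ((chOf g a : Finset V) : Set V).PairwiseDisjoint (desc g k) := by
  intro b hb b' hb' hne
  rw [Function.onFun, Finset.disjoint_left]
  intro v hv hv'
  apply hne
  obtain ⟨i, h1, h2⟩ := desc_anc g dF hdF k b v hv
  obtain ⟨i', h1', h2'⟩ := desc_anc g dF hdF k b' v hv'
  have hb1 := (mem_chOf g).mp hb
  have hb1' := (mem_chOf g).mp hb'
  have hd := hdF b (by rw [hb1.1]; exact hb1.2.symm)
  have hd' := hdF b' (by rw [hb1'.1]; exact hb1'.2.symm)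
  rw [hb1.1] at hd
  rw [hb1'.1] at hd'
  have : i = i' := by omega
  subst this
  rw [← h1, ← h1']

lemma notMem_desc_children (k : ℕ) (a : V) : a ∉ (chOf g a).biUnion (desc g k) := by
  intro h
  obtain ⟨b, hb, hv⟩ := Finset.mem_biUnion.mp h
  obtain ⟨i, _, h2⟩ := desc_anc g dF hdF k b a hv
  have hb1 := (mem_chOf g).mp hb
  have hd := hdF b (by rw [hb1.1]; exact hb1.2.symm)
  rw [hb1.1] at hd
  omega

lemma desc_root_disj (k : ℕ) (R : Finset V) (hR : ∀ ρ ∈ R, g ρ = ρ) :
    (R : Set V).PairwiseDisjoint (desc g k) := by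
  intro ρ hρ ρ' hρ' hne
  rw [Function.onFun, Finset.disjoint_left]
  intro v hv hv'
  apply hne
  obtain ⟨i, h1, _⟩ := desc_anc g dF hdF k ρ v hv
  obtain ⟨i', h1', _⟩ := desc_anc g dF hdF k ρ' v hv'
  have key : ∀ (j j' : ℕ) (r r' : V), g r = r → g^[j] v = r → g^[j'] v = r' → j ≤ j' → r = r' := by
    intro j j' r r' hr hj hj' hle
    obtain ⟨d, rfl⟩ := Nat.exists_eq_add_of_le hle
    rw [add_comm, Function.iterate_add_apply, hj, Function.iterate_fixed hr] at hj'
    exact hj'
  rcases le_total i i' with h | h
  · exact key i i' ρ ρ' (hR ρ hρ) h1 h1' h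
  · exact (key i' i ρ' ρ (hR ρ' hρ') h1' h1 h).symm

lemma desc_cover (a : V) : ∃ ρ, g ρ = ρ ∧ a ∈ desc g (dF a) ρ := by
  induction hd : dF a generalizing a with
  | zero =>
    refine ⟨a, ?_, self_mem_desc g 0 a⟩
    by_contra hne
    have := hdF a hne
    omega
  | succ m ih =>
    by_cases hfix : g a = a
    · exact ⟨a, hfix, self_mem_desc g _ a⟩
    · have h1 := hdF a hfix
      obtain ⟨ρ, hρ, hmem⟩ := ih (g a) (by omega)
      refine ⟨ρ, hρ, desc_child g m ρ (g a) a hmem ?_⟩
      exact (mem_chOf g).mpr ⟨rfl, fun h => hfix (by rw [← h])⟩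

end Desc

section Claim

variable {V : Type*} [Fintype V] [DecidableEq V]

/-- From a bound for single vertices to a bound for a set of independent vertices. -/
lemma claim_of_single (P : Equiv.Perm V → Prop) (z : ℝ) (hz : 0 < z)
    (Dset : V → Finset V) (c : V → ℝ) (hc : ∀ u, 0 ≤ c u)
    (hsingle : ∀ (a u : V) (T : Finset (Equiv.Perm V)), (∀ σ ∈ T, P σ) → (∀ σ ∈ T, σ a = u) →
      z ^ (Dset a).card * ((T.image (prestr (Dset a))).card : ℝ) ≤ c u)
    (AF : Finset V) : ∀ (A : Finset V) (T : Finset (Equiv.Perm V)), (∀ σ ∈ T, P σ) →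
      (∀ σ ∈ T, ∀ a ∈ AF, σ a ∈ A) → (AF : Set V).PairwiseDisjoint Dset →
      z ^ (AF.biUnion Dset).card * ((T.image (prestr (AF.biUnion Dset))).card : ℝ)
        ≤ seqSum c AF.card A := by
  induction AF using Finset.induction_on with
  | empty =>
    intro A T _ _ _
    simp only [Finset.biUnion_empty, Finset.card_empty, pow_zero, one_mul, seqSum_zero]
    exact_mod_cast card_image_restr_empty T
  | insert a AF' ha ih =>
    intro A T hT hA hpd
    rw [Finset.biUnion_insert, Finset.card_insert_of_notMem ha, seqSum_succ]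
    set D' := AF'.biUnion Dset with hD'
    have hpd' : (AF' : Set V).PairwiseDisjoint Dset :=
      hpd.subset (by intro x hx; exact Finset.mem_insert_of_mem hx)
    have hdisj : Disjoint (Dset a) D' := by
      rw [hD', Finset.disjoint_biUnion_right]
      intro b hb
      apply hpd (Finset.mem_insert_self a AF') (Finset.mem_insert_of_mem hb)
      rintro rfl
      exact ha hb
    rw [Finset.card_union_of_disjoint hdisj, pow_add]
    have h1 : ((T.image (prestr (Dset a ∪ D'))).card : ℝ)
        ≤ ∑ u ∈ A, (((T.filter (fun σ => σ a = u)).image (prestr (Dset a))).card : ℝ)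
            * (((T.filter (fun σ => σ a = u)).image (prestr D')).card : ℝ) := by
      have h2 := card_image_le_sum_filter (prestr (Dset a ∪ D')) a A T
        (fun σ hσ => hA σ hσ a (Finset.mem_insert_self a AF'))
      have h3 : ∑ u ∈ A, ((T.filter (fun σ => σ a = u)).image (prestr (Dset a ∪ D'))).card
          ≤ ∑ u ∈ A, ((T.filter (fun σ => σ a = u)).image (prestr (Dset a))).card
            * ((T.filter (fun σ => σ a = u)).image (prestr D')).card :=
        Finset.sum_le_sum (fun u _ => card_image_restr_union _ _ _)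
      exact_mod_cast h2.trans h3
    calc z ^ (Dset a).card * z ^ D'.card * ((T.image (prestr (Dset a ∪ D'))).card : ℝ)
        ≤ z ^ (Dset a).card * z ^ D'.card *
            ∑ u ∈ A, (((T.filter (fun σ => σ a = u)).image (prestr (Dset a))).card : ℝ)
            * (((T.filter (fun σ => σ a = u)).image (prestr D')).card : ℝ) :=
          mul_le_mul_of_nonneg_left h1 (by positivity)
      _ = ∑ u ∈ A, (z ^ (Dset a).card *
              (((T.filter (fun σ => σ a = u)).image (prestr (Dset a))).card : ℝ))
            * (z ^ D'.card * (((T.filter (fun σ => σ a = u)).image (prestr D')).card : ℝ)) := by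
          rw [Finset.mul_sum]
          apply Finset.sum_congr rfl
          intro u _
          ring
      _ ≤ ∑ u ∈ A, c u * seqSum c AF'.card (A.erase u) := by
          apply Finset.sum_le_sum
          intro u _
          have hTu : ∀ σ ∈ T.filter (fun σ => σ a = u), P σ :=
            fun σ hσ => hT σ (Finset.mem_filter.mp hσ).1
          apply mul_le_mul
          · exact hsingle a u _ hTu (fun σ hσ => (Finset.mem_filter.mp hσ).2)
          · apply ih (A.erase u) _ hTu _ hpd'
            intro σ hσ b hb
            obtain ⟨hσ1, hσ2⟩ := Finset.mem_filter.mp hσ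
            rw [Finset.mem_erase]
            refine ⟨?_, hA σ hσ1 b (Finset.mem_insert_of_mem hb)⟩
            rw [← hσ2]
            intro h
            have := σ.injective h
            subst this
            exact ha hb
          · positivity
          · exact hc u

variable (g : V → V) (dF : V → ℕ) (hdF : ∀ a, g a ≠ a → dF a = dF (g a) + 1) (par : V → V)

/-- The permutation intertwines the two parent maps. -/
def Good (σ : Equiv.Perm V) : Prop := ∀ a, g a ≠ a → par (σ a) = σ (g a)

include hdF

lemma single_bound (z : ℝ) (hz : 0 < z) (k : ℕ) :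
    ∀ (a u : V) (T : Finset (Equiv.Perm V)), (∀ σ ∈ T, Good g par σ) → (∀ σ ∈ T, σ a = u) →
      z ^ (desc g k a).card * ((T.image (prestr (desc g k a))).card : ℝ)
        ≤ z * Zk (chOf par) z k u := by
  induction k with
  | zero =>
    intro a u T _ hu
    rw [desc_zero, Finset.card_singleton, pow_one]
    apply mul_le_mul_of_nonneg_left _ hz.le
    show _ ≤ (1 : ℝ)
    exact_mod_cast card_image_restr_singleton a u T hu
  | succ k ih =>
    intro a u T hT hu
    set D'' := (chOf g a).biUnion (desc g k) with hD''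
    have hnot : a ∉ D'' := notMem_desc_children g dF hdF k a
    rw [desc_succ, ← hD'', Finset.card_insert_of_notMem hnot, pow_succ]
    have h1 : ((T.image (prestr (insert a D''))).card : ℝ) ≤ ((T.image (prestr D'')).card : ℝ) := by
      exact_mod_cast card_image_restr_insert a u D'' T hu
    have hc : ∀ u, 0 ≤ z * Zk (chOf par) z k u :=
      fun u => mul_nonneg hz.le (Zk_nonneg _ z hz.le k u)
    have h2 := claim_of_single (Good g par) z hz (desc g k) (fun u => z * Zk (chOf par) z k u)
      hc ih (chOf g a) (chOf par u) T hT (by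
        intro σ hσ b hb
        have hb' := (mem_chOf g).mp hb
        rw [mem_chOf]
        have hgb : g b ≠ b := by rw [hb'.1]; exact hb'.2.symm
        constructor
        · rw [hT σ hσ b hgb, hb'.1, hu σ hσ]
        · rw [← hu σ hσ]
          intro h
          exact hb'.2 (σ.injective h)) (desc_sib_disj g dF hdF k a)
    have h3 := seqSum_le_powerset (fun u => z * Zk (chOf par) z k u) hc (chOf g a).card
      (chOf par u)
    calc z ^ D''.card * z * ((T.image (prestr (insert a D''))).card : ℝ)
        ≤ z ^ D''.card * z * ((T.image (prestr D'')).card : ℝ) :=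
          mul_le_mul_of_nonneg_left h1 (by positivity)
      _ = z * (z ^ D''.card * ((T.image (prestr D'')).card : ℝ)) := by ring
      _ ≤ z * Zk (chOf par) z (k + 1) u := by
          apply mul_le_mul_of_nonneg_left _ hz.le
          rw [Zk_succ]
          exact h2.trans h3

/-- The count of intertwining permutations. -/
theorem card_good_le (z : ℝ) (hz : 0 < z) (T : Finset (Equiv.Perm V))
    (hT : ∀ σ ∈ T, Good g par σ) (k : ℕ) (R : Finset V) (hR : ∀ ρ ∈ R, g ρ = ρ) :
    z ^ (R.biUnion (desc g k)).card * (T.card : ℝ)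
      ≤ (z * ∑ u, Zk (chOf par) z k u) ^ R.card
        * ((Fintype.card V - (R.biUnion (desc g k)).card).factorial : ℝ) := by
  set D := R.biUnion (desc g k) with hD
  have hc : ∀ u, 0 ≤ z * Zk (chOf par) z k u :=
    fun u => mul_nonneg hz.le (Zk_nonneg _ z hz.le k u)
  have h1 := claim_of_single (Good g par) z hz (desc g k) (fun u => z * Zk (chOf par) z k u)
    hc (single_bound g dF hdF par z hz k) R univ T hT (fun _ _ _ _ => Finset.mem_univ _)
    (desc_root_disj g dF hdF k R hR)
  have h2 := seqSum_le_pow (fun u => z * Zk (chOf par) z k u) hc R.card univ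
  rw [← Finset.mul_sum] at h2
  have h3 : (T.card : ℝ) ≤ ((T.image (prestr D)).card : ℝ)
      * ((Fintype.card V - D.card).factorial : ℝ) := by
    exact_mod_cast card_le_image_restr D T
  calc z ^ D.card * (T.card : ℝ)
      ≤ z ^ D.card * (((T.image (prestr D)).card : ℝ)
          * ((Fintype.card V - D.card).factorial : ℝ)) :=
        mul_le_mul_of_nonneg_left h3 (by positivity)
    _ = (z ^ D.card * ((T.image (prestr D)).card : ℝ))
          * ((Fintype.card V - D.card).factorial : ℝ) := by ring
    _ ≤ _ := mul_le_mul_of_nonneg_right (h1.trans h2) (Nat.cast_nonneg _)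

end Claim

end Vale.Agent.Lib.P064
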