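import Mathlib

/-!
Numerical lemmas for the final assembly of the forest case.
-/

namespace Vale.Agent.Lib.P064

lemma pow_mul_factorial_le (m : ℕ) : ∀ n : ℕ, m ≤ n →
    (n : ℝ) ^ m * ((n - m).factorial : ℝ) ≤ Real.exp 1 ^ m * (n.factorial : ℝ) := by
  induction m with
  | zero => intro n _; simp
  | succ m ih =>
    intro n hn
    obtain ⟨n', rfl⟩ : ∃ n', n = n' + 1 := ⟨n - 1, by omega⟩
    have hm : m ≤ n' := by omega
    have h1 := ih n' hm
    have hsub : n' + 1 - (m + 1) = n' - m := by omega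
    rw [hsub]
    have hkey : ((n' + 1 : ℕ) : ℝ) ^ m ≤ Real.exp 1 * (n' : ℝ) ^ m := by
      rcases Nat.eq_zero_or_pos n' with h0 | hpos
      · subst h0
        have : m = 0 := by omega
        subst this
        simp only [pow_zero, mul_one]
        have := Real.add_one_le_exp (1 : ℝ)
        linarith
      · have hn0 : (0 : ℝ) < n' := by exact_mod_cast hpos
        have h2 : ((n' + 1 : ℕ) : ℝ) = n' * (1 + 1 / (n' : ℝ)) := by
          push_cast
          field_simp
        have h3 : (1 + 1 / (n' : ℝ)) ≤ Real.exp (1 / (n' : ℝ)) := by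
          have := Real.add_one_le_exp (1 / (n' : ℝ))
          linarith
        have h4 : (1 + 1 / (n' : ℝ)) ^ m ≤ Real.exp 1 := by
          calc (1 + 1 / (n' : ℝ)) ^ m ≤ Real.exp (1 / (n' : ℝ)) ^ m :=
                pow_le_pow_left₀ (by positivity) h3 m
            _ = Real.exp (m * (1 / (n' : ℝ))) := by rw [← Real.exp_nat_mul]
            _ ≤ Real.exp 1 := by
                apply Real.exp_le_exp.mpr
                rw [mul_one_div, div_le_one hn0]
                exact_mod_cast hm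
        rw [h2, mul_pow]
        calc (n' : ℝ) ^ m * (1 + 1 / (n' : ℝ)) ^ m ≤ (n' : ℝ) ^ m * Real.exp 1 :=
              mul_le_mul_of_nonneg_left h4 (by positivity)
          _ = _ := by ring
    have hfac0 : (0 : ℝ) ≤ ((n' - m).factorial : ℝ) := Nat.cast_nonneg _
    calc ((n' + 1 : ℕ) : ℝ) ^ (m + 1) * ((n' - m).factorial : ℝ)
        = ((n' + 1 : ℕ) : ℝ) * (((n' + 1 : ℕ) : ℝ) ^ m * ((n' - m).factorial : ℝ)) := by
          rw [pow_succ]; ring
      _ ≤ ((n' + 1 : ℕ) : ℝ) * ((Real.exp 1 * (n' : ℝ) ^ m) * ((n' - m).factorial : ℝ)) := by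
          apply mul_le_mul_of_nonneg_left _ (Nat.cast_nonneg _)
          exact mul_le_mul_of_nonneg_right hkey hfac0
      _ = ((n' + 1 : ℕ) : ℝ) * Real.exp 1 * ((n' : ℝ) ^ m * ((n' - m).factorial : ℝ)) := by ring
      _ ≤ ((n' + 1 : ℕ) : ℝ) * Real.exp 1 * (Real.exp 1 ^ m * (n'.factorial : ℝ)) := by
          apply mul_le_mul_of_nonneg_left h1
          positivity
      _ = Real.exp 1 ^ (m + 1) * ((n' + 1).factorial : ℝ) := by
          rw [Nat.factorial_succ, pow_succ]
          push_cast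
          ring

lemma final_numeric (n m r e : ℕ) (q c z T : ℝ) (hq : 0 < q) (hn : 1 ≤ n) (hm : m ≤ n)
    (hr : 2 * r ≤ m) (he : e + r ≤ m) (hc : 0 < c) (hz : z = 1 / (c * (n * q)))
    (hsmall : 16 * Real.exp 2 * c * q ≤ 1)
    (h : z ^ m * T ≤ (z * (16 * n)) ^ r * ((n - m).factorial : ℝ)) :
    T ≤ (n.factorial : ℝ) * (16 * Real.exp 2 * c * q) ^ e := by
  have hn0 : (0 : ℝ) < n := by exact_mod_cast hn
  have hz0 : 0 < z := by rw [hz]; positivity
  obtain ⟨w, rfl⟩ : ∃ w, m = w + r := ⟨m - r, by omega⟩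
  have hrw : r ≤ w := by omega
  have hew : e ≤ w := by omega
  have hzinv : 1 / z = c * q * n := by
    rw [hz]; field_simp
  have h1 : T ≤ (1 / z) ^ w * (16 * n) ^ r * ((n - (w + r)).factorial : ℝ) := by
    have h2 : z ^ (w + r) * T ≤ z ^ (w + r) *
        ((1 / z) ^ w * (16 * n) ^ r * ((n - (w + r)).factorial : ℝ)) := by
      calc z ^ (w + r) * T ≤ (z * (16 * n)) ^ r * ((n - (w + r)).factorial : ℝ) := h
        _ = z ^ (w + r) * ((1 / z) ^ w * (16 * n) ^ r * ((n - (w + r)).factorial : ℝ)) := by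
            rw [pow_add, mul_pow, one_div, inv_pow]
            field_simp
    exact le_of_mul_le_mul_left h2 (by positivity)
  have h3 := pow_mul_factorial_le (w + r) n hm
  have hexp : Real.exp 1 ^ (w + r) ≤ Real.exp 2 ^ w := by
    have : Real.exp 2 = Real.exp 1 ^ 2 := by
      rw [← Real.exp_nat_mul]; norm_num
    rw [this, ← pow_mul]
    apply pow_le_pow_right₀
    · have := Real.add_one_le_exp (1 : ℝ)
      linarith
    · omega
  have h16 : (16 : ℝ) ^ r ≤ 16 ^ w := pow_le_pow_right₀ (by norm_num) hrw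
  have hfac : (0 : ℝ) < (n.factorial : ℝ) := by exact_mod_cast Nat.factorial_pos n
  calc T ≤ (1 / z) ^ w * (16 * n) ^ r * ((n - (w + r)).factorial : ℝ) := h1
    _ = (c * q) ^ w * 16 ^ r * ((n : ℝ) ^ (w + r) * ((n - (w + r)).factorial : ℝ)) := by
        rw [hzinv, mul_pow (c * q) (n : ℝ), mul_pow (16 : ℝ) (n : ℝ), pow_add]; ring
    _ ≤ (c * q) ^ w * 16 ^ r * (Real.exp 1 ^ (w + r) * (n.factorial : ℝ)) :=
        mul_le_mul_of_nonneg_left h3 (by positivity)
    _ ≤ (c * q) ^ w * 16 ^ w * (Real.exp 2 ^ w * (n.factorial : ℝ)) := by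
        apply mul_le_mul
        · exact mul_le_mul_of_nonneg_left h16 (by positivity)
        · exact mul_le_mul_of_nonneg_right hexp hfac.le
        · positivity
        · positivity
    _ = (n.factorial : ℝ) * (16 * Real.exp 2 * c * q) ^ w := by
        rw [mul_pow, mul_pow, mul_pow, mul_pow]; ring
    _ ≤ (n.factorial : ℝ) * (16 * Real.exp 2 * c * q) ^ e := by
        apply mul_le_mul_of_nonneg_left _ hfac.le
        exact pow_le_pow_of_le_one (by positivity) hsmall hew

end Vale.Agent.Lib.P064
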