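import Mathlib
import Vale.Agent.Lib.P064.Defs
import Vale.Agent.Lib.P064.Count

/-! Block count for copies of a graph all of whose edges touch a given vertex set (P064). -/

namespace Vale.Agent.Lib.P064

open Finset

open Classical in
/-- Edges of `G` with both endpoints in `S`. -/
noncomputable def innerE {n : ℕ} (G : SimpleGraph (Fin n)) (S : Finset (Fin n)) :
    Finset (Sym2 (Fin n)) := (edgeF G).filter (fun e => ∀ a ∈ e, a ∈ S)

open Classical in
/-- Edges of `G` with some endpoint outside `S`. -/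
noncomputable def outerE {n : ℕ} (G : SimpleGraph (Fin n)) (S : Finset (Fin n)) :
    Finset (Sym2 (Fin n)) := (edgeF G).filter (fun e => ¬ ∀ a ∈ e, a ∈ S)

/-- All unordered pairs with an endpoint in `S`. -/
def touchSet {n : ℕ} (S : Finset (Fin n)) : Finset (Sym2 (Fin n)) :=
  (S ×ˢ (univ : Finset (Fin n))).image (fun p => s(p.1, p.2))

lemma card_touchSet_le {n : ℕ} (S : Finset (Fin n)) : (touchSet S).card ≤ S.card * n := by
  refine le_trans Finset.card_image_le ?_
  rw [Finset.card_product, Finset.card_univ, Fintype.card_fin]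

lemma inner_add_outer {n : ℕ} (G : SimpleGraph (Fin n)) (S : Finset (Fin n)) :
    (innerE G S).card + (outerE G S).card = numEdges G := by
  classical
  rw [numEdges_eq, innerE, outerE]
  exact Finset.card_filter_add_card_filter_not _

lemma inner_union_outer {n : ℕ} (G : SimpleGraph (Fin n)) (S : Finset (Fin n)) :
    innerE G S ∪ outerE G S = edgeF G := by
  classical
  rw [innerE, outerE]
  exact Finset.filter_union_filter_not_eq _ _

lemma map_map_symm {n : ℕ} {F F' : SimpleGraph (Fin n)} (ψ : F' ≃g F) (e : Sym2 (Fin n)) :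
    Sym2.map ψ (Sym2.map ψ.symm e) = e := by
  rw [Sym2.map_map]
  have : (⇑ψ ∘ ⇑ψ.symm) = id := by ext v; simp
  rw [this, Sym2.map_id]; rfl

lemma map_symm_map {n : ℕ} {F F' : SimpleGraph (Fin n)} (ψ : F' ≃g F) (e : Sym2 (Fin n)) :
    Sym2.map ψ.symm (Sym2.map ψ e) = e := by
  rw [Sym2.map_map]
  have : (⇑ψ.symm ∘ ⇑ψ) = id := by ext v; simp
  rw [this, Sym2.map_id]; rfl

lemma card_filter_iso {n : ℕ} {F F' : SimpleGraph (Fin n)} (ψ : F' ≃g F)
    (P P' : Sym2 (Fin n) → Prop) [DecidablePred P] [DecidablePred P']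
    (h : ∀ e, P' e ↔ P (Sym2.map ψ e)) :
    ((edgeF F').filter P').card = ((edgeF F).filter P).card := by
  apply Finset.card_nbij' (Sym2.map ψ) (Sym2.map ψ.symm)
  · intro e he
    rw [Finset.mem_coe, Finset.mem_filter] at he ⊢
    exact ⟨(iso_mem_edgeF ψ e).mpr he.1, (h e).mp he.2⟩
  · intro e he
    rw [Finset.mem_coe, Finset.mem_filter] at he ⊢
    refine ⟨(iso_mem_edgeF ψ.symm e).mpr he.1, ?_⟩
    rw [h, map_map_symm]
    exact he.2
  · intro e _
    exact map_symm_map ψ e
  · intro e _
    exact map_map_symm ψ e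

lemma block_count {n : ℕ} (F : SimpleGraph (Fin n)) (S : Finset (Fin n))
    (htouch : ∀ e ∈ edgeF F, ∃ a ∈ e, a ∈ S) :
    copyCount ⊤ F ≤ n.choose S.card * (((S.card + 1).choose 2).choose (innerE F S).card)
      * ((S.card * n).choose (outerE F S).card) := by
  classical
  set s := S.card with hs
  set x := (innerE F S).card with hx
  set y := (outerE F S).card with hy
  set T : Finset (SimpleGraph (Fin n)) :=
    (powersetCard s (univ : Finset (Fin n))).biUnion (fun S' =>
      ((powersetCard x S'.sym2) ×ˢ (powersetCard y (touchSet S'))).image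
        (fun AB => SimpleGraph.fromEdgeSet (↑(AB.1 ∪ AB.2) : Set (Sym2 (Fin n))))) with hT
  have hsub : copiesF ⊤ F ⊆ T := by
    intro F' hF'
    obtain ⟨-, ⟨ψ⟩⟩ := mem_copiesF.mp hF'
    set S' : Finset (Fin n) := S.image ψ.symm with hS'
    have hmemS' : ∀ a, a ∈ S' ↔ ψ a ∈ S := by
      intro a
      rw [hS', Finset.mem_image]
      constructor
      · rintro ⟨b, hb, rfl⟩
        simpa using hb
      · intro ha
        exact ⟨ψ a, ha, by simp⟩
    have hcardS' : S'.card = s := by
      rw [hS', Finset.card_image_of_injective _ ψ.symm.injective]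
    have hP : ∀ e : Sym2 (Fin n), (∀ a ∈ e, a ∈ S') ↔ (∀ b ∈ Sym2.map ψ e, b ∈ S) := by
      intro e
      constructor
      · intro h b hb
        obtain ⟨a, ha, rfl⟩ := Sym2.mem_map.mp hb
        exact (hmemS' a).mp (h a ha)
      · intro h a ha
        exact (hmemS' a).mpr (h (ψ a) (Sym2.mem_map.mpr ⟨a, ha, rfl⟩))
    have hxc : (innerE F' S').card = x := by
      rw [hx, innerE, innerE]
      exact card_filter_iso ψ (fun e => ∀ b ∈ e, b ∈ S) (fun e => ∀ a ∈ e, a ∈ S') hP
    have hyc : (outerE F' S').card = y := by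
      rw [hy, outerE, outerE]
      exact card_filter_iso ψ (fun e => ¬ ∀ b ∈ e, b ∈ S) (fun e => ¬ ∀ a ∈ e, a ∈ S')
        (fun e => not_congr (hP e))
    rw [hT, Finset.mem_biUnion]
    refine ⟨S', Finset.mem_powersetCard.mpr ⟨Finset.subset_univ _, hcardS'⟩, ?_⟩
    rw [Finset.mem_image]
    refine ⟨(innerE F' S', outerE F' S'), ?_, ?_⟩
    · rw [Finset.mem_product]
      constructor
      · refine Finset.mem_powersetCard.mpr ⟨?_, hxc⟩
        intro e he
        rw [innerE, Finset.mem_filter] at he
        exact Finset.mem_sym2_iff.mpr he.2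
      · refine Finset.mem_powersetCard.mpr ⟨?_, hyc⟩
        intro e he
        rw [outerE, Finset.mem_filter] at he
        have he1 : Sym2.map ψ e ∈ edgeF F := (iso_mem_edgeF ψ e).mpr he.1
        obtain ⟨b, hb, hbS⟩ := htouch _ he1
        obtain ⟨a, ha, rfl⟩ := Sym2.mem_map.mp hb
        have haS' : a ∈ S' := (hmemS' a).mpr hbS
        obtain ⟨c, rfl⟩ := Sym2.mem_iff_exists.mp ha
        rw [touchSet, Finset.mem_image]
        exact ⟨(a, c), Finset.mem_product.mpr ⟨haS', Finset.mem_univ _⟩, rfl⟩
    · simp only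
      rw [← Finset.coe_union, inner_union_outer, coe_edgeF, SimpleGraph.fromEdgeSet_edgeSet]
  rw [copyCount_eq]
  refine le_trans (Finset.card_le_card hsub) ?_
  refine le_trans Finset.card_biUnion_le ?_
  have hbound : ∀ S' ∈ powersetCard s (univ : Finset (Fin n)),
      (((powersetCard x S'.sym2) ×ˢ (powersetCard y (touchSet S'))).image
        (fun AB => SimpleGraph.fromEdgeSet (↑(AB.1 ∪ AB.2) : Set (Sym2 (Fin n))))).card
      ≤ (((s + 1).choose 2).choose x) * ((s * n).choose y) := by
    intro S' hS'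
    have hc : S'.card = s := (Finset.mem_powersetCard.mp hS').2
    refine le_trans Finset.card_image_le ?_
    rw [Finset.card_product, Finset.card_powersetCard, Finset.card_powersetCard, Finset.card_sym2, hc]
    apply Nat.mul_le_mul_left
    apply Nat.choose_le_choose
    rw [← hc]
    exact card_touchSet_le S'
  refine le_trans (Finset.sum_le_sum hbound) ?_
  rw [Finset.sum_const, Finset.card_powersetCard, Finset.card_univ, Fintype.card_fin, smul_eq_mul,
    mul_assoc]

end Vale.Agent.Lib.P064
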