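import Mathlib
import Vale.Agent.Lib.P064.Defs
import Vale.Agent.Lib.P064.Count
import Vale.Agent.Lib.P064.Block
import Vale.Agent.Lib.P064.Analysis

/-! Few vertices of large degree in a `q`-sparse graph (P064). -/

namespace Vale.Agent.Lib.P064

open Finset

open Classical in
/-- The neighbourhood of `v` in `H` as a finset. -/
noncomputable def nb {n : ℕ} (H : SimpleGraph (Fin n)) (v : Fin n) : Finset (Fin n) :=
  (univ : Finset (Fin n)).filter (fun w => H.Adj v w)

lemma mem_nb {n : ℕ} {H : SimpleGraph (Fin n)} {v w : Fin n} : w ∈ nb H v ↔ H.Adj v w := by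
  classical
  simp [nb]

/-- The subgraph of `H` formed by the edges touching `S`. -/
def restr {n : ℕ} (H : SimpleGraph (Fin n)) (S : Finset (Fin n)) : SimpleGraph (Fin n) where
  Adj u v := H.Adj u v ∧ (u ∈ S ∨ v ∈ S)
  symm := ⟨fun _ _ h => ⟨h.1.symm, h.2.symm⟩⟩
  loopless := ⟨fun u h => H.loopless.irrefl u h.1⟩

lemma restr_le {n : ℕ} (H : SimpleGraph (Fin n)) (S : Finset (Fin n)) : restr H S ≤ H := by
  intro u v h
  exact h.1

lemma restr_touch {n : ℕ} (H : SimpleGraph (Fin n)) (S : Finset (Fin n)) :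
    ∀ e ∈ edgeF (restr H S), ∃ a ∈ e, a ∈ S := by
  intro e he
  rw [mem_edgeF] at he
  induction e with
  | _ u v =>
    rw [SimpleGraph.mem_edgeSet] at he
    rcases he.2 with h | h
    · exact ⟨u, Sym2.mem_mk_left u v, h⟩
    · exact ⟨v, Sym2.mem_mk_right u v, h⟩

lemma deg_sum_le {n : ℕ} (H : SimpleGraph (Fin n)) (S : Finset (Fin n)) :
    ∑ v ∈ S, (nb H v).card ≤ 2 * (innerE (restr H S) S).card + (outerE (restr H S) S).card := by
  classical
  set D : Finset (Σ _ : Fin n, Fin n) := S.sigma (fun v => nb H v) with hD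
  have hDcard : D.card = ∑ v ∈ S, (nb H v).card := Finset.card_sigma _ _
  set f : (Σ _ : Fin n, Fin n) → Sym2 (Fin n) := fun p => s(p.1, p.2) with hf
  have hmemD : ∀ p : (Σ _ : Fin n, Fin n), p ∈ D ↔ p.1 ∈ S ∧ H.Adj p.1 p.2 := by
    intro p
    rw [hD, Finset.mem_sigma, mem_nb]
  set Din := D.filter (fun p => p.2 ∈ S) with hDin
  set Dout := D.filter (fun p => ¬ p.2 ∈ S) with hDout
  have hsplit : Din.card + Dout.card = D.card := Finset.card_filter_add_card_filter_not _
  -- inner part
  have hin : Din.card ≤ 2 * (innerE (restr H S) S).card := by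
    have h1 : Din.card ≤ 2 * (Din.image f).card := by
      apply Finset.card_le_mul_card_image
      intro b hb
      obtain ⟨p0, _, rfl⟩ := Finset.mem_image.mp hb
      have : (Din.filter (fun a => f a = f p0)) ⊆ {p0, ⟨p0.2, p0.1⟩} := by
        intro p hp
        rw [Finset.mem_filter] at hp
        have h2 : s(p.1, p.2) = s(p0.1, p0.2) := hp.2
        rw [Sym2.eq_iff] at h2
        rw [Finset.mem_insert, Finset.mem_singleton]
        rcases h2 with ⟨h3, h4⟩ | ⟨h3, h4⟩
        · left
          cases p; cases p0; simp_all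
        · right
          cases p; cases p0; simp_all
      exact le_trans (Finset.card_le_card this) Finset.card_le_two
    refine le_trans h1 (Nat.mul_le_mul_left 2 (Finset.card_le_card ?_))
    intro e he
    obtain ⟨p, hp, rfl⟩ := Finset.mem_image.mp he
    rw [hDin, Finset.mem_filter, hmemD] at hp
    rw [innerE, Finset.mem_filter, mem_edgeF]
    refine ⟨?_, ?_⟩
    · exact ⟨hp.1.2, Or.inl hp.1.1⟩
    · intro a ha
      rcases Sym2.mem_iff.mp ha with rfl | rfl
      · exact hp.1.1
      · exact hp.2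
  -- outer part
  have hout : Dout.card ≤ (outerE (restr H S) S).card := by
    apply Finset.card_le_card_of_injOn f
    · intro p hp
      rw [Finset.mem_coe, hDout, Finset.mem_filter, hmemD] at hp
      rw [Finset.mem_coe, outerE, Finset.mem_filter, mem_edgeF]
      refine ⟨⟨hp.1.2, Or.inl hp.1.1⟩, ?_⟩
      intro hall
      exact hp.2 (hall p.2 (Sym2.mem_mk_right _ _))
    · intro p hp p' hp' hpp
      rw [Finset.mem_coe, hDout, Finset.mem_filter, hmemD] at hp hp'
      have h2 : s(p.1, p.2) = s(p'.1, p'.2) := hpp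
      rw [Sym2.eq_iff] at h2
      rcases h2 with ⟨h3, h4⟩ | ⟨h3, h4⟩
      · cases p; cases p'; simp_all
      · exfalso
        apply hp'.2
        rw [← h3]
        exact hp.1.1
  omega

lemma heavy_count {n : ℕ} (H : SimpleGraph (Fin n)) (q : ℝ) (hq : 0 < q)
    (hsparse : ∀ F : SimpleGraph (Fin n), F ≤ H → 1 ≤ (copyCount ⊤ F : ℝ) * q ^ numEdges F)
    (d : ℕ) (hd : 1 ≤ d) :
    (((univ : Finset (Fin n)).filter (fun v => d ≤ (nb H v).card)).card : ℝ)
      ≤ Real.exp 1 * n * (Real.exp 4 * (n * q / d)) ^ d := by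
  classical
  set S := (univ : Finset (Fin n)).filter (fun v => d ≤ (nb H v).card) with hS
  rcases Nat.eq_zero_or_pos S.card with h0 | hpos
  · rw [h0]
    have : (0 : ℝ) ≤ n := Nat.cast_nonneg n
    have hd' : (0 : ℝ) ≤ d := Nat.cast_nonneg d
    simp only [Nat.cast_zero]
    positivity
  set F := restr H S with hF
  set x := (innerE F S).card with hx
  set y := (outerE F S).card with hy
  have hxy : x + y = numEdges F := inner_add_outer F S
  have hsp := hsparse F (restr_le H S)
  have hqpow : 0 ≤ q ^ numEdges F := pow_nonneg hq.le _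
  have hsn : S.card ≤ n := by
    have := Finset.card_le_univ S
    rwa [Fintype.card_fin] at this
  -- h3
  have h3 : S.card * d ≤ 2 * x + y := by
    refine le_trans ?_ (deg_sum_le H S)
    rw [← smul_eq_mul, ← Finset.sum_const]
    apply Finset.sum_le_sum
    intro v hv
    exact (Finset.mem_filter.mp hv).2
  -- h1
  have h1 : 1 ≤ (n.choose S.card : ℝ) * (((S.card + 1).choose 2).choose x : ℝ)
      * ((S.card * n).choose y : ℝ) * q ^ (x + y) := by
    rw [hxy]
    refine le_trans hsp (mul_le_mul_of_nonneg_right ?_ hqpow)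
    have := block_count F S (restr_touch H S)
    exact_mod_cast this
  -- h2
  have h2 : (S.card : ℝ) * d ≤ 3 * ((n : ℝ) ^ 2 * q) := by
    have hb : 1 ≤ (((n.choose 2).choose (numEdges F) : ℕ) : ℝ) * q ^ numEdges F := by
      refine le_trans hsp (mul_le_mul_of_nonneg_right ?_ hqpow)
      exact_mod_cast copyCount_top_le_choose F
    have hm := edge_bound (n.choose 2) (numEdges F) q hq.le hb
    have hc2 : ((n.choose 2 : ℕ) : ℝ) ≤ (n : ℝ) ^ 2 / 2 := by
      have := Nat.choose_le_pow_div (α := ℝ) 2 n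
      simpa using this
    have he : Real.exp 1 < 3 := by
      have := Real.exp_one_lt_d9; linarith
    have hsd : (S.card : ℝ) * d ≤ 2 * (numEdges F : ℝ) := by
      have : S.card * d ≤ 2 * numEdges F := by omega
      exact_mod_cast this
    have hn2 : 0 ≤ (n : ℝ) ^ 2 * q := by positivity
    have hexp : 0 < Real.exp 1 := Real.exp_pos 1
    have h5 : Real.exp 1 * (((n.choose 2 : ℕ) : ℝ) * q) ≤ Real.exp 1 * ((n : ℝ) ^ 2 / 2 * q) := by
      apply mul_le_mul_of_nonneg_left _ hexp.le
      exact mul_le_mul_of_nonneg_right hc2 hq.le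
    nlinarith
  exact key_estimate n S.card d x y q hq hpos hsn hd h1 h2 h3

end Vale.Agent.Lib.P064
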