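import Mathlib
import Vale.Agent.Lib.P064.Defs
import Vale.Agent.Lib.P064.Count
import Vale.Agent.Lib.P064.Heavy
import Vale.Agent.Lib.P064.FEmb
import Vale.Agent.Lib.P064.FOrbit
import Vale.Agent.Lib.P064.FNum

/-!
Counting the permutations that embed an arbitrary graph into a rooted forest.
-/

set_option linter.unusedSectionVars false

namespace Vale.Agent.Lib.P064

open Finset

section Top

variable {n : ℕ} (F H : SimpleGraph (Fin n)) (par : Fin n → Fin n) (depth : Fin n → ℕ)

open Classical in
/-- The orientation of `F` pulled back from the rooted forest along `σ`. -/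
noncomputable def gOf (σ : Equiv.Perm (Fin n)) : Fin n → Fin n :=
  fun a => if F.Adj a (σ.symm (par (σ a))) then σ.symm (par (σ a)) else a

lemma gOf_pos (σ : Equiv.Perm (Fin n)) (a : Fin n) (h : F.Adj a (σ.symm (par (σ a)))) :
    gOf F par σ a = σ.symm (par (σ a)) := by
  unfold gOf
  rw [if_pos h]

lemma gOf_neg (σ : Equiv.Perm (Fin n)) (a : Fin n) (h : ¬ F.Adj a (σ.symm (par (σ a)))) :
    gOf F par σ a = a := by
  unfold gOf
  rw [if_neg h]

lemma good_gOf (σ : Equiv.Perm (Fin n)) : Good (gOf F par σ) par σ := by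
  intro a ha
  by_cases h : F.Adj a (σ.symm (par (σ a)))
  · rw [gOf_pos F par σ a h]; simp
  · exact absurd (gOf_neg F par σ a h) ha

lemma gOf_mem (σ : Equiv.Perm (Fin n)) (a : Fin n) : gOf F par σ a ∈ insert a (nb F a) := by
  by_cases h : F.Adj a (σ.symm (par (σ a)))
  · rw [gOf_pos F par σ a h]
    exact Finset.mem_insert_of_mem (mem_nb.mpr h)
  · rw [gOf_neg F par σ a h]
    exact Finset.mem_insert_self _ _

lemma sum_card_nb : ∑ v, (nb F v).card = 2 * numEdges F := by
  classical
  have h := F.sum_degrees_eq_twice_card_edges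
  have h1 : ∀ v, F.degree v = (nb F v).card := by
    intro v
    rw [← SimpleGraph.card_neighborFinset_eq_degree]
    congr 1
    ext w
    simp [mem_nb]
  have h2 : F.edgeFinset = edgeF F := by
    ext e
    simp [mem_edgeF]
  rw [numEdges_eq, ← h2, ← h]
  exact Finset.sum_congr rfl (fun v _ => (h1 v).symm)

/-- The set of possible orientations. -/
noncomputable def orient : Finset (Fin n → Fin n) :=
  Fintype.piFinset (fun a => insert a (nb F a))

lemma card_orient_le : (orient F).card ≤ 4 ^ numEdges F := by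
  unfold orient
  rw [Fintype.card_piFinset]
  calc ∏ a, (insert a (nb F a)).card ≤ ∏ a, 2 ^ (nb F a).card := by
        apply Finset.prod_le_prod'
        intro a _
        calc (insert a (nb F a)).card ≤ (nb F a).card + 1 := Finset.card_insert_le _ _
          _ ≤ 2 ^ (nb F a).card := Nat.lt_two_pow_self
    _ = 2 ^ (∑ a, (nb F a).card) := Finset.prod_pow_eq_pow_sum _ _ _
    _ = 4 ^ numEdges F := by
        rw [sum_card_nb, pow_mul]; norm_num

variable (hP1 : ∀ v, par v ≠ v → H.Adj v (par v) ∧ depth v = depth (par v) + 1)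
  (hP2 : ∀ u v, H.Adj u v → par u = v ∨ par v = u)

include hP1 hP2

lemma fiber_bound (q c z : ℝ) (hq : 0 < q) (hn : 1 ≤ n) (hc : 0 < c)
    (hz : z = 1 / (c * (n * q))) (hsmall : 16 * Real.exp 2 * c * q ≤ 1)
    (hZ : ∀ k, ∑ u, Zk (chOf par) z k u ≤ 16 * n) (g : Fin n → Fin n) :
    (((embSet F H).filter (fun σ => gOf F par σ = g)).card : ℝ)
      ≤ (n.factorial : ℝ) * (16 * Real.exp 2 * c * q) ^ numEdges F := by
  classical
  set T := (embSet F H).filter (fun σ => gOf F par σ = g) with hT
  have hn0 : (0 : ℝ) < n := by exact_mod_cast hn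
  have hz0 : 0 < z := by rw [hz]; positivity
  rcases T.eq_empty_or_nonempty with hemp | ⟨σ₀, hσ₀⟩
  · rw [hemp]
    simp only [Finset.card_empty, Nat.cast_zero]
    positivity
  obtain ⟨hσ₀e, hσ₀g⟩ := Finset.mem_filter.mp hσ₀
  have hgood : ∀ σ ∈ T, Good g par σ := by
    intro σ hσ
    have := (Finset.mem_filter.mp hσ).2
    rw [← this]
    exact good_gOf F par σ
  set dF : Fin n → ℕ := fun a => depth (σ₀ a) with hdFdef
  have hdF : ∀ a, g a ≠ a → dF a = dF (g a) + 1 := by
    intro a ha
    have h1 := hgood σ₀ hσ₀ a ha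
    have h2 : par (σ₀ a) ≠ σ₀ a := by
      rw [h1]
      exact fun h => ha (σ₀.injective h)
    have h3 := (hP1 (σ₀ a) h2).2
    rw [h1] at h3
    exact h3
  set k := (univ : Finset (Fin n)).sup dF with hk
  set R := (univ : Finset (Fin n)).filter (fun ρ => g ρ = ρ ∧ (chOf g ρ).Nonempty) with hR
  set D := R.biUnion (desc g k) with hD
  set B := (univ : Finset (Fin n)).filter (fun a => g a ≠ a) with hB
  have hRfix : ∀ ρ ∈ R, g ρ = ρ := fun ρ hρ => (Finset.mem_filter.mp hρ).2.1
  have hBD : B ⊆ D := by
    intro a ha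
    have hane : g a ≠ a := (Finset.mem_filter.mp ha).2
    obtain ⟨ρ, hρ, hmem⟩ := desc_cover g dF hdF a
    have hle : dF a ≤ k := Finset.le_sup (f := dF) (Finset.mem_univ a)
    have hmem' : a ∈ desc g k ρ := desc_mono' g hle ρ hmem
    have haρ : a ≠ ρ := by
      rintro rfl
      exact hane hρ
    rw [hD, Finset.mem_biUnion]
    refine ⟨ρ, ?_, hmem'⟩
    rw [hR, Finset.mem_filter]
    refine ⟨Finset.mem_univ _, hρ, ?_⟩
    cases hk' : k with
    | zero =>
      rw [hk', desc_zero, Finset.mem_singleton] at hmem'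
      exact absurd hmem' haρ
    | succ k' =>
      rw [hk', desc_succ, Finset.mem_insert, Finset.mem_biUnion] at hmem'
      rcases hmem' with h | ⟨b, hb, _⟩
      · exact absurd h haρ
      · exact ⟨b, hb⟩
  have hRD : R ⊆ D := by
    intro ρ hρ
    rw [hD, Finset.mem_biUnion]
    exact ⟨ρ, hρ, self_mem_desc g k ρ⟩
  have hdisj : Disjoint B R := by
    rw [Finset.disjoint_left]
    intro a ha ha'
    exact (Finset.mem_filter.mp ha).2 (hRfix a ha')
  have hcardBR : B.card + R.card ≤ D.card := by
    rw [← Finset.card_union_of_disjoint hdisj]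
    exact Finset.card_le_card (Finset.union_subset hBD hRD)
  have hRB : R.card ≤ B.card := by
    have hsub : R ⊆ B.image g := by
      intro ρ hρ
      obtain ⟨b, hb⟩ := (Finset.mem_filter.mp hρ).2.2
      have hb' := (mem_chOf g).mp hb
      rw [Finset.mem_image]
      refine ⟨b, ?_, hb'.1⟩
      rw [hB, Finset.mem_filter]
      exact ⟨Finset.mem_univ _, by rw [hb'.1]; exact hb'.2.symm⟩
    exact (Finset.card_le_card hsub).trans Finset.card_image_le
  have hEB : numEdges F ≤ B.card := by
    rw [numEdges_eq]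
    have hsub : edgeF F ⊆ B.image (fun a => s(a, g a)) := by
      intro e he
      rw [mem_edgeF] at he
      induction e using Sym2.ind with
      | _ a b =>
        rw [SimpleGraph.mem_edgeSet] at he
        have hH := mem_embSet.mp hσ₀e a b he
        rw [Finset.mem_image]
        rcases hP2 _ _ hH with h | h
        · have h1 : σ₀.symm (par (σ₀ a)) = b := by rw [h]; simp
          have h2 : g a = b := by
            rw [← hσ₀g, gOf_pos F par σ₀ a (by rw [h1]; exact he), h1]
          refine ⟨a, ?_, by rw [h2]⟩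
          rw [hB, Finset.mem_filter]
          exact ⟨Finset.mem_univ _, by rw [h2]; exact he.ne.symm⟩
        · have h1 : σ₀.symm (par (σ₀ b)) = a := by rw [h]; simp
          have h2 : g b = a := by
            rw [← hσ₀g, gOf_pos F par σ₀ b (by rw [h1]; exact he.symm), h1]
          refine ⟨b, ?_, by rw [h2]; exact Sym2.eq_swap⟩
          rw [hB, Finset.mem_filter]
          exact ⟨Finset.mem_univ _, by rw [h2]; exact he.ne⟩
    exact (Finset.card_le_card hsub).trans Finset.card_image_le
  have hDn : D.card ≤ n := by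
    have := Finset.card_le_univ D
    rwa [Fintype.card_fin] at this
  have hmain := card_good_le g dF hdF par z hz0 T hgood k R hRfix
  rw [Fintype.card_fin, ← hD] at hmain
  apply final_numeric n D.card R.card (numEdges F) q c z (T.card : ℝ) hq hn hDn (by omega)
    (by omega) hc hz hsmall
  refine hmain.trans ?_
  apply mul_le_mul_of_nonneg_right _ (Nat.cast_nonneg _)
  apply pow_le_pow_left₀
  · exact mul_nonneg hz0.le (Finset.sum_nonneg (fun u _ => Zk_nonneg _ z hz0.le k u))
  · exact mul_le_mul_of_nonneg_left (hZ k) hz0.le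

theorem card_embSet_le (q c z : ℝ) (hq : 0 < q) (hn : 1 ≤ n) (hc : 0 < c)
    (hz : z = 1 / (c * (n * q))) (hsmall : 16 * Real.exp 2 * c * q ≤ 1)
    (hZ : ∀ k, ∑ u, Zk (chOf par) z k u ≤ 16 * n) :
    ((embSet F H).card : ℝ)
      ≤ (n.factorial : ℝ) * (64 * Real.exp 2 * c * q) ^ numEdges F := by
  classical
  have hmaps : ∀ σ ∈ embSet F H, gOf F par σ ∈ orient F := by
    intro σ _
    unfold orient
    rw [Fintype.mem_piFinset]
    exact fun a => gOf_mem F par σ a
  have h1 : ((embSet F H).card : ℝ)
      = ∑ g ∈ orient F, (((embSet F H).filter (fun σ => gOf F par σ = g)).card : ℝ) := by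
    rw [Finset.card_eq_sum_card_fiberwise hmaps]
    push_cast
    rfl
  rw [h1]
  calc ∑ g ∈ orient F, (((embSet F H).filter (fun σ => gOf F par σ = g)).card : ℝ)
      ≤ ∑ _g ∈ orient F, (n.factorial : ℝ) * (16 * Real.exp 2 * c * q) ^ numEdges F :=
        Finset.sum_le_sum (fun g _ =>
          fiber_bound F H par depth hP1 hP2 q c z hq hn hc hz hsmall hZ g)
    _ = ((orient F).card : ℝ) * ((n.factorial : ℝ) * (16 * Real.exp 2 * c * q) ^ numEdges F) := by
        rw [Finset.sum_const, nsmul_eq_mul]
    _ ≤ ((4 : ℝ) ^ numEdges F) * ((n.factorial : ℝ) * (16 * Real.exp 2 * c * q) ^ numEdges F) := by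
        apply mul_le_mul_of_nonneg_right _ (by positivity)
        exact_mod_cast card_orient_le F
    _ = (n.factorial : ℝ) * (64 * Real.exp 2 * c * q) ^ numEdges F := by
        have : (64 * Real.exp 2 * c * q) = 4 * (16 * Real.exp 2 * c * q) := by ring
        rw [this, mul_pow 4 (16 * Real.exp 2 * c * q)]
        ring

end Top

end Vale.Agent.Lib.P064
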