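import Mathlib
import Vale.Agent.Lib.P064.Defs
import Vale.Agent.Lib.P064.Count
import Vale.Agent.Lib.P064.Expect
import Vale.Agent.Lib.P064.FRoot
import Vale.Agent.Lib.P064.FSum
import Vale.Agent.Lib.P064.FTop

/-!
The domination inequality for forests.
-/

set_option linter.unusedSectionVars false

namespace Vale.Agent.Lib.P064

open Finset

lemma copyCount_le_top {n : ℕ} (H F : SimpleGraph (Fin n)) : copyCount H F ≤ copyCount ⊤ F := by
  rw [copyCount_eq, copyCount_eq]
  apply Finset.card_le_card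
  intro F' hF'
  rw [mem_copiesF] at hF' ⊢
  exact ⟨le_top, hF'.2⟩

theorem forest_domination (n : ℕ) (q : ℝ) (hq0 : 0 < q) (hq1 : q ≤ 1) (H : SimpleGraph (Fin n))
    (hH : H.IsAcyclic) (hs : ∀ F : SimpleGraph (Fin n), F ≤ H → 1 ≤ expCopies q F)
    (F : SimpleGraph (Fin n)) :
    (copyCount H F : ℝ) ≤ expCopies (min 1 (24576 * Real.exp 9 * q)) F := by
  rw [expCopies_eq]
  have hmono : (copyCount H F : ℝ) ≤ (copyCount ⊤ F : ℝ) := by
    exact_mod_cast copyCount_le_top H F
  rcases le_or_gt 1 (24576 * Real.exp 9 * q) with hL | hL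
  · rw [min_eq_left hL, one_pow, mul_one]
    exact hmono
  rw [min_eq_right hL.le]
  rcases Nat.eq_zero_or_pos (numEdges F) with he | he
  · rw [he, pow_zero, mul_one]
    exact hmono
  have hn : 1 ≤ n := by
    by_contra hcon
    have hn0 : n = 0 := by omega
    subst hn0
    rw [numEdges_eq] at he
    have : edgeF F = ∅ := Finset.eq_empty_of_isEmpty _
    rw [this] at he
    simp at he
  have hn0 : (0 : ℝ) < n := by exact_mod_cast hn
  obtain ⟨par, depth, hP1, hP2⟩ := exists_rooting H hH
  set c : ℝ := 384 * Real.exp 7 with hc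
  have hc0 : 0 < c := by positivity
  set z : ℝ := 1 / (c * (n * q)) with hz
  have hz0 : 0 < z := by positivity
  have hy2 : 96 * Real.exp 1 * (n * q) * (Real.exp 6 * (4 * z)) ≤ 1 := by
    have h7 : Real.exp 7 = Real.exp 1 * Real.exp 6 := by
      rw [← Real.exp_add]; norm_num
    rw [hz, hc, h7]
    apply le_of_eq
    field_simp
    ring
  have hZ : ∀ k, ∑ u, Zk (chOf par) z k u ≤ 16 * n := by
    intro k
    have h1 := sum_Pk_le H par depth hP1 q hq0 hq1 hs (Real.exp 6 * (4 * z)) (by positivity) hy2 k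
    calc ∑ u, Zk (chOf par) z k u ≤ ∑ u, 4 * Pk (chOf par) (Real.exp 6 * (4 * z)) k u :=
          Finset.sum_le_sum (fun u _ => Zk_le_Pk (chOf par) z hz0 k u)
      _ = 4 * ∑ u, Pk (chOf par) (Real.exp 6 * (4 * z)) k u := by rw [Finset.mul_sum]
      _ ≤ 16 * n := by linarith
  have h9 : Real.exp 9 = Real.exp 2 * Real.exp 7 := by
    rw [← Real.exp_add]; norm_num
  have hconst : 64 * Real.exp 2 * c * q = 24576 * Real.exp 9 * q := by
    rw [hc, h9]; ring
  have hsmall : 16 * Real.exp 2 * c * q ≤ 1 := by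
    have h0 : 0 ≤ 16 * Real.exp 2 * c * q := by positivity
    nlinarith
  have hemb := card_embSet_le F H par depth hP1 hP2 q c z hq0 hn hc0 hz hsmall hZ
  rw [hconst] at hemb
  have hid := copyCount_mul_factorial F H
  have hidR : (copyCount H F : ℝ) * (n.factorial : ℝ)
      = (copyCount ⊤ F : ℝ) * ((embSet F H).card : ℝ) := by exact_mod_cast hid
  have hfac : (0 : ℝ) < (n.factorial : ℝ) := by exact_mod_cast Nat.factorial_pos n
  have hfin : (copyCount H F : ℝ) * (n.factorial : ℝ)
      ≤ ((copyCount ⊤ F : ℝ) * (24576 * Real.exp 9 * q) ^ numEdges F) * (n.factorial : ℝ) := by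
    rw [hidR]
    calc (copyCount ⊤ F : ℝ) * ((embSet F H).card : ℝ)
        ≤ (copyCount ⊤ F : ℝ) * ((n.factorial : ℝ) * (24576 * Real.exp 9 * q) ^ numEdges F) :=
          mul_le_mul_of_nonneg_left hemb (Nat.cast_nonneg _)
      _ = _ := by ring
  exact le_of_mul_le_mul_right hfin hfac

theorem forest_domination_half (n : ℕ) (q : ℝ) (hq0 : 0 < q) (H : SimpleGraph (Fin n))
    (hH : H.IsAcyclic) (hs : ∀ F : SimpleGraph (Fin n), F ≤ H → 1 / 2 ≤ expCopies q F)
    (F : SimpleGraph (Fin n)) :
    (copyCount H F : ℝ) ≤ expCopies (min 1 (49152 * Real.exp 9 * q)) F := by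
  rcases le_or_gt (2 * q) 1 with h2 | h2
  · have hs' : ∀ F' : SimpleGraph (Fin n), F' ≤ H → 1 ≤ expCopies (2 * q) F' := by
      intro F' hF'
      have h1 := hs F' hF'
      rw [expCopies_eq] at h1 ⊢
      rcases Nat.eq_zero_or_pos (numEdges F') with he | he
      · rw [he, pow_zero, mul_one] at h1 ⊢
        have : 0 < copyCount ⊤ F' := by
          by_contra hcon
          have h0 : copyCount ⊤ F' = 0 := by omega
          rw [h0] at h1
          norm_num at h1
        exact_mod_cast this
      · rw [mul_pow]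
        have h2' : (2 : ℝ) ≤ 2 ^ numEdges F' := by
          calc (2 : ℝ) = 2 ^ 1 := by norm_num
            _ ≤ 2 ^ numEdges F' := pow_le_pow_right₀ (by norm_num) he
        have h0 : 0 ≤ (copyCount ⊤ F' : ℝ) * q ^ numEdges F' := by positivity
        nlinarith
    have := forest_domination n (2 * q) (by positivity) h2 H hH hs' F
    have hc : 24576 * Real.exp 9 * (2 * q) = 49152 * Real.exp 9 * q := by ring
    rwa [hc] at this
  · have hbig : 1 ≤ 49152 * Real.exp 9 * q := by
      have : (1 : ℝ) ≤ Real.exp 9 := by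
        have := Real.add_one_le_exp (9 : ℝ)
        linarith
      nlinarith
    rw [min_eq_left hbig, expCopies_eq, one_pow, mul_one]
    exact_mod_cast copyCount_le_top H F

end Vale.Agent.Lib.P064
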