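import Mathlib
import Vale.Agent.Lib.P064.Defs
import Vale.Agent.Lib.P064.DefsT
import Vale.Agent.Lib.P064.DefsC
import Vale.Agent.Lib.P064.Count
import Vale.Agent.Lib.P064.Expect
import Vale.Agent.Lib.P064.FOrbit
import Vale.Agent.Lib.P064.FMain
import Vale.Agent.Lib.P064_helper23.Spread

/-!
From the spread bound for forests to the containment threshold.
-/

set_option linter.unusedSectionVars false

namespace Vale.Agent.Lib.P064

open Finset Vale.Agent.Lib.P064S

variable {n : ℕ}

/-- The ground set: the edges of the complete graph. -/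
abbrev EX (n : ℕ) : Type := {e : Sym2 (Fin n) // e ∈ edgeF (⊤ : SimpleGraph (Fin n))}

lemma card_EX : Fintype.card (EX n) = n.choose 2 := by
  rw [Fintype.card_coe, card_edgeF_top]

/-- The graph with a given set of edges. -/
def ofW (W : Finset (EX n)) : SimpleGraph (Fin n) :=
  SimpleGraph.fromEdgeSet (↑(W.map (Function.Embedding.subtype _)) : Set (Sym2 (Fin n)))

/-- The edge set of a graph as a subset of the ground set. -/
noncomputable def toW (G : SimpleGraph (Fin n)) : Finset (EX n) :=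
  (edgeF G).subtype _

lemma edgeF_ofW (W : Finset (EX n)) : edgeF (ofW W) = W.map (Function.Embedding.subtype _) := by
  apply edgeF_fromEdgeSet
  intro e he
  rw [Finset.mem_map] at he
  obtain ⟨x, _, rfl⟩ := he
  exact x.2

lemma numEdges_ofW (W : Finset (EX n)) : numEdges (ofW W) = W.card := by
  rw [numEdges_eq, edgeF_ofW, Finset.card_map]

lemma mem_toW (G : SimpleGraph (Fin n)) (x : EX n) : x ∈ toW G ↔ x.1 ∈ edgeF G := by
  unfold toW
  rw [Finset.mem_subtype]

lemma toW_ofW (W : Finset (EX n)) : toW (ofW W) = W := by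
  ext x
  rw [mem_toW, edgeF_ofW, Finset.mem_map]
  constructor
  · rintro ⟨y, hy, hxy⟩
    have : y = x := Subtype.ext hxy
    rwa [← this]
  · intro h
    exact ⟨x, h, rfl⟩

lemma ofW_toW (G : SimpleGraph (Fin n)) : ofW (toW G) = G := by
  apply edgeF_injective
  rw [edgeF_ofW]
  ext e
  rw [Finset.mem_map]
  constructor
  · rintro ⟨y, hy, rfl⟩
    exact (mem_toW G y).mp hy
  · intro h
    exact ⟨⟨e, edgeF_subset_top G h⟩, (mem_toW G _).mpr h, rfl⟩

lemma toW_subset_iff (G G' : SimpleGraph (Fin n)) : toW G ⊆ toW G' ↔ G ≤ G' := by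
  rw [le_iff_edgeF_subset]
  constructor
  · intro h e he
    have := h ((mem_toW G ⟨e, edgeF_subset_top G he⟩).mpr he)
    exact (mem_toW G' _).mp this
  · intro h x hx
    exact (mem_toW G' x).mpr (h ((mem_toW G x).mp hx))

lemma sum_graph_eq (p : ℝ) (f : SimpleGraph (Fin n) → ℝ) :
    ∑ G : SimpleGraph (Fin n), gnpProb p G * f G = ∑ W : Finset (EX n), bw p W * f (ofW W) := by
  apply Finset.sum_nbij' toW ofW
  · intro G _; exact Finset.mem_univ _
  · intro W _; exact Finset.mem_univ _
  · intro G _; exact ofW_toW G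
  · intro W _; exact toW_ofW W
  · intro G _
    rw [ofW_toW, gnpProb, bw, card_EX]
    have : numEdges G = (toW G).card := by
      conv_lhs => rw [← ofW_toW G]
      exact numEdges_ofW _
    rw [this]

lemma copyCount_pos_of_imG_le (σ : Equiv.Perm (Fin n)) (H G : SimpleGraph (Fin n))
    (h : imG σ H ≤ G) : 0 < copyCount G H := by
  rw [copyCount_eq, Finset.card_pos]
  exact ⟨imG σ H, mem_copiesF.mpr ⟨h, ⟨⟨σ.symm, Iff.rfl⟩⟩⟩⟩

open Classical in
lemma card_spread (H : SimpleGraph (Fin n)) (T : Finset (EX n)) :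
    (univ.filter (fun σ : Equiv.Perm (Fin n) => T ⊆ toW (imG σ H))).card
      = (embSet (ofW T) H).card := by
  apply Finset.card_nbij' (fun σ => σ⁻¹) (fun σ => σ⁻¹)
  · intro σ hσ
    have hσ' : T ⊆ toW (imG σ H) := by simpa using hσ
    rw [← toW_ofW T, toW_subset_iff] at hσ'
    rw [Finset.mem_coe, mem_embSet]
    intro a b hab
    have := hσ' hab
    rw [imG_adj] at this
    exact this
  · intro σ hσ
    rw [Finset.mem_coe, mem_embSet] at hσ
    have : T ⊆ toW (imG σ⁻¹ H) := by
      rw [← toW_ofW T, toW_subset_iff]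
      intro a b hab
      rw [imG_adj]
      exact hσ a b hab
    simpa using this
  · intro σ _; simp
  · intro σ _; simp

lemma gnpProb_nonneg {p : ℝ} (h0 : 0 ≤ p) (h1 : p ≤ 1) (G : SimpleGraph (Fin n)) :
    0 ≤ gnpProb p G := by
  unfold gnpProb
  have : 0 ≤ 1 - p := by linarith
  positivity

lemma copyCount_top_pos (F : SimpleGraph (Fin n)) : 0 < copyCount ⊤ F := by
  rw [copyCount_eq, Finset.card_pos]
  exact ⟨F, mem_copiesF.mpr ⟨le_top, ⟨SimpleGraph.Iso.refl⟩⟩⟩

lemma pow_le_probContains {p : ℝ} (h0 : 0 ≤ p) (h1 : p ≤ 1) (H : SimpleGraph (Fin n)) :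
    p ^ numEdges H ≤ probContains p H := by
  classical
  rw [← sum_gnpProb_ge p H, probContains]
  apply Finset.sum_le_sum
  intro G _
  by_cases h : H ≤ G
  · have hpos : 0 < copyCount G H := by
      rw [copyCount_eq, Finset.card_pos]
      exact ⟨H, mem_copiesF.mpr ⟨h, ⟨SimpleGraph.Iso.refl⟩⟩⟩
    rw [if_pos h, if_pos hpos, mul_one]
  · rw [if_neg h]
    apply mul_nonneg (gnpProb_nonneg h0 h1 G)
    split_ifs <;> norm_num

/-- The spread bound for forests. -/
theorem forest_spread (q : ℝ) (hq0 : 0 < q) (H : SimpleGraph (Fin n))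
    (hH : H.IsAcyclic) (hs : ∀ F : SimpleGraph (Fin n), F ≤ H → 1 / 2 ≤ expCopies q F)
    (F : SimpleGraph (Fin n)) :
    ((embSet F H).card : ℝ) ≤ (49152 * Real.exp 9 * q) ^ numEdges F * (n.factorial : ℝ) := by
  have h1 := forest_domination_half n q hq0 H hH hs F
  rw [expCopies_eq] at h1
  have hid := copyCount_mul_factorial F H
  have hidR : (copyCount H F : ℝ) * (n.factorial : ℝ)
      = (copyCount ⊤ F : ℝ) * ((embSet F H).card : ℝ) := by exact_mod_cast hid
  have hpos : (0 : ℝ) < (copyCount ⊤ F : ℝ) := by exact_mod_cast copyCount_top_pos F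
  have hfac : (0 : ℝ) < (n.factorial : ℝ) := by exact_mod_cast Nat.factorial_pos n
  have hk : (min 1 (49152 * Real.exp 9 * q)) ^ numEdges F
      ≤ (49152 * Real.exp 9 * q) ^ numEdges F := by
    apply pow_le_pow_left₀
    · exact le_min zero_le_one (by positivity)
    · exact min_le_right _ _
  have h2 : (copyCount ⊤ F : ℝ) * ((embSet F H).card : ℝ)
      ≤ (copyCount ⊤ F : ℝ) * ((49152 * Real.exp 9 * q) ^ numEdges F * (n.factorial : ℝ)) := by
    rw [← hidR]
    calc (copyCount H F : ℝ) * (n.factorial : ℝ)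
        ≤ ((copyCount ⊤ F : ℝ) * (min 1 (49152 * Real.exp 9 * q)) ^ numEdges F)
            * (n.factorial : ℝ) := mul_le_mul_of_nonneg_right h1 hfac.le
      _ ≤ ((copyCount ⊤ F : ℝ) * (49152 * Real.exp 9 * q) ^ numEdges F)
            * (n.factorial : ℝ) := by
          apply mul_le_mul_of_nonneg_right _ hfac.le
          exact mul_le_mul_of_nonneg_left hk hpos.le
      _ = _ := by ring
  exact le_of_mul_le_mul_left h2 hpos

/-- Containment of a forest at density `64 L q (m+1)`. -/
theorem forest_probContains (q : ℝ) (hq0 : 0 < q) (H : SimpleGraph (Fin n))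
    (hH : H.IsAcyclic) (hs : ∀ F : SimpleGraph (Fin n), F ≤ H → 1 / 2 ≤ expCopies q F)
    (m : ℕ) (hm : numEdges H ≤ 2 ^ m) (p : ℝ) (hp1 : p ≤ 1)
    (hp : 64 * (49152 * Real.exp 9 * q) * (m + 1) ≤ p) :
    1 / 2 ≤ probContains p H := by
  classical
  have hκ : 0 < 49152 * Real.exp 9 * q := by positivity
  have hp0 : 0 ≤ p := by
    refine le_trans ?_ hp
    positivity
  have hS : ∀ σ : Equiv.Perm (Fin n), (toW (imG σ H)).card ≤ 2 ^ m := by
    intro σ
    have h1 : (toW (imG σ H)).card = numEdges (imG σ H) := by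
      conv_rhs => rw [← ofW_toW (imG σ H)]
      exact (numEdges_ofW _).symm
    have h2 : numEdges (imG σ H) = numEdges H :=
      numEdges_iso (⟨σ.symm, Iff.rfl⟩ : imG σ H ≃g H)
    rw [h1, h2]
    exact hm
  have hspread : ∀ T : Finset (EX n),
      ((univ.filter (fun σ : Equiv.Perm (Fin n) => T ⊆ toW (imG σ H))).card : ℝ)
        ≤ (49152 * Real.exp 9 * q) ^ T.card * (Fintype.card (Equiv.Perm (Fin n)) : ℝ) := by
    intro T
    have h1 := forest_spread q hq0 H hH hs (ofW T)
    rw [numEdges_ofW] at h1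
    rw [Fintype.card_perm, Fintype.card_fin]
    have h2 := card_spread H T
    calc ((univ.filter (fun σ : Equiv.Perm (Fin n) => T ⊆ toW (imG σ H))).card : ℝ)
        = ((embSet (ofW T) H).card : ℝ) := by
          exact_mod_cast h2
      _ ≤ _ := h1
  have hmain := spread_lemma (fun σ : Equiv.Perm (Fin n) => toW (imG σ H)) m hS
    (49152 * Real.exp 9 * q) hκ hspread p hp1 hp
  refine hmain.trans ?_
  rw [probContains, sum_graph_eq p (fun G => if 0 < copyCount G H then (1 : ℝ) else 0)]
  apply Finset.sum_le_sum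
  intro W _
  apply mul_le_mul_of_nonneg_left _ (bw_nonneg hp0 hp1 W)
  by_cases h : ∃ σ : Equiv.Perm (Fin n), toW (imG σ H) ⊆ W
  · obtain ⟨σ, hσ⟩ := h
    have h3 : imG σ H ≤ ofW W := by
      rw [← toW_subset_iff, toW_ofW]
      exact hσ
    rw [if_pos ⟨σ, hσ⟩, if_pos (copyCount_pos_of_imG_le σ H _ h3)]
  · rw [if_neg h]
    split_ifs <;> norm_num

lemma numEdges_le_sq (H : SimpleGraph (Fin n)) : numEdges H ≤ n ^ 2 := by
  rw [numEdges_eq]
  calc (edgeF H).card ≤ (edgeF (⊤ : SimpleGraph (Fin n))).card :=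
        Finset.card_le_card (edgeF_subset_top H)
    _ = n.choose 2 := card_edgeF_top n
    _ ≤ n ^ 2 := Nat.choose_le_pow n 2

lemma exists_log_bound (hn : 2 ≤ n) :
    ∃ m : ℕ, n ^ 2 ≤ 2 ^ m ∧ (m : ℝ) + 1 ≤ 8 * Real.log n := by
  set k := Nat.clog 2 n with hk
  refine ⟨2 * k, ?_, ?_⟩
  · have h1 : n ≤ 2 ^ k := Nat.le_pow_clog (by norm_num) n
    calc n ^ 2 ≤ (2 ^ k) ^ 2 := Nat.pow_le_pow_left h1 2
      _ = 2 ^ (2 * k) := by rw [← pow_mul, mul_comm]
  · have hkpos : 0 < k := Nat.clog_pos (by norm_num) hn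
    have h2 : 2 ^ (k - 1) < n := by
      have := Nat.pow_pred_clog_lt_self (b := 2) (by norm_num) (x := n) (by omega)
      simpa [Nat.pred_eq_sub_one] using this
    have h2R : ((2 : ℝ) ^ (k - 1)) < (n : ℝ) := by exact_mod_cast h2
    have h3 : Real.log ((2 : ℝ) ^ (k - 1)) < Real.log n :=
      Real.log_lt_log (by positivity) h2R
    rw [Real.log_pow] at h3
    have hcast : ((k - 1 : ℕ) : ℝ) = (k : ℝ) - 1 := by
      rw [Nat.cast_sub hkpos]; norm_num
    rw [hcast] at h3
    have hl2 : (0.6931471803 : ℝ) < Real.log 2 := Real.log_two_gt_d9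
    have hln : Real.log 2 ≤ Real.log n := by
      apply Real.log_le_log (by norm_num)
      exact_mod_cast hn
    have hk0 : (1 : ℝ) ≤ (k : ℝ) := by exact_mod_cast hkpos
    push_cast
    nlinarith

/-- The bound of Q1 for forests. -/
theorem pc_le_pE_log (hn : 2 ≤ n) (H : SimpleGraph (Fin n)) (hH : H.IsAcyclic) :
    pc H ≤ 25165824 * Real.exp 9 * pE H * Real.log n := by
  set SE := {p : ℝ | 0 ≤ p ∧ p ≤ 1 ∧ ∀ F : SimpleGraph (Fin n), F ≤ H → 1 / 2 ≤ expCopies p F}
    with hSE
  set SC := {p : ℝ | 0 ≤ p ∧ p ≤ 1 ∧ 1 / 2 ≤ probContains p H} with hSC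
  have hbdd : BddBelow SC := ⟨0, fun p hp => hp.1⟩
  have hlog : 0 < Real.log n := by
    apply Real.log_pos
    exact_mod_cast (by omega : 1 < n)
  have hne : SE.Nonempty := by
    refine ⟨1, zero_le_one, le_refl _, ?_⟩
    intro F _
    rw [expCopies_eq, one_pow, mul_one]
    have h1 : (1 : ℝ) ≤ (copyCount ⊤ F : ℝ) := by exact_mod_cast copyCount_top_pos F
    linarith
  obtain ⟨m, hm1, hm2⟩ := exists_log_bound hn
  have hmH : numEdges H ≤ 2 ^ m := (numEdges_le_sq H).trans hm1
  have hone : (1 : ℝ) ∈ SC := by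
    refine ⟨zero_le_one, le_refl _, ?_⟩
    have := pow_le_probContains (zero_le_one) (le_refl (1 : ℝ)) H
    rw [one_pow] at this
    linarith
  have key : ∀ q ∈ SE, pc H ≤ 25165824 * Real.exp 9 * Real.log n * q := by
    intro q hq
    obtain ⟨hq0, _, hqs⟩ := hq
    rcases hq0.eq_or_lt with h0 | hpos
    · subst h0
      rw [mul_zero]
      apply csInf_le hbdd
      refine ⟨le_refl _, zero_le_one, ?_⟩
      have h1 := hqs H (le_refl _)
      rw [expCopies_eq] at h1
      rcases Nat.eq_zero_or_pos (numEdges H) with he | he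
      · have := pow_le_probContains (le_refl (0 : ℝ)) zero_le_one H
        rw [he, pow_zero] at this
        linarith
      · rw [zero_pow he.ne', mul_zero] at h1
        norm_num at h1
    · have hbound : 64 * (49152 * Real.exp 9 * q) * (m + 1)
          ≤ 25165824 * Real.exp 9 * Real.log n * q := by
        have hc : 0 ≤ 64 * (49152 * Real.exp 9 * q) := by positivity
        calc 64 * (49152 * Real.exp 9 * q) * (m + 1)
            ≤ 64 * (49152 * Real.exp 9 * q) * (8 * Real.log n) :=
              mul_le_mul_of_nonneg_left hm2 hc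
          _ = _ := by ring
      rcases le_or_gt (64 * (49152 * Real.exp 9 * q) * (m + 1)) 1 with hP | hP
      · refine le_trans ?_ hbound
        apply csInf_le hbdd
        refine ⟨by positivity, hP, ?_⟩
        exact forest_probContains q hpos H hH hqs m hmH _ hP (le_refl _)
      · refine le_trans ?_ (hP.le.trans hbound)
        exact csInf_le hbdd hone
  set C : ℝ := 25165824 * Real.exp 9 * Real.log n with hC
  have hC0 : 0 < C := by positivity
  have h2 : pc H / C ≤ pE H := by
    apply le_csInf hne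
    intro q hq
    rw [div_le_iff₀ hC0, mul_comm]
    exact key q hq
  rw [div_le_iff₀ hC0] at h2
  calc pc H ≤ pE H * C := h2
    _ = 25165824 * Real.exp 9 * pE H * Real.log n := by rw [hC]; ring

end Vale.Agent.Lib.P064
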