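import Mathlib

/-! Summation estimates used for P064 (star case of the domination inequality). -/

namespace Vale.Agent.Lib.P064

open Finset Real

lemma geom_tail_le (n t : ℕ) :
    (∑ d ∈ range n, (if t ≤ d then ((1 : ℝ) / 2) ^ (d - t) else 0)) ≤ 2 := by
  rw [← Finset.sum_filter]
  have hf : (range n).filter (fun d => t ≤ d) = Ico t n := by
    ext d; simp [and_comm]
  rw [hf, Finset.sum_Ico_eq_sum_range]
  simp only [Nat.add_sub_cancel_left]
  exact sum_geometric_two_le _

lemma sum_choose_le {V : Type*} [Fintype V] (deg : V → ℕ) (n : ℕ)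
    (hn : Fintype.card V = n) (hdeg : ∀ v, deg v < n) (z : ℝ) (hz : 0 ≤ z)
    (htail : ∀ d, 1 ≤ d → (((univ : Finset V).filter (fun v => d ≤ deg v)).card : ℝ)
      ≤ Real.exp 1 * n * (z / d) ^ d)
    (t : ℕ) (ht : 1 ≤ t) :
    (∑ v, ((deg v).choose t : ℝ)) ≤ n * (8 * z) ^ t / (t.factorial : ℝ) := by
  classical
  have hfac : (0 : ℝ) < (t.factorial : ℝ) := by exact_mod_cast Nat.factorial_pos t
  have hn0 : (0 : ℝ) ≤ n := Nat.cast_nonneg n
  set h : ℕ → ℝ := fun d => if (2 * z < d ∧ t ≤ d) then (d : ℝ) ^ t / (t.factorial : ℝ) else 0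
    with hh
  -- Step 1
  have step1 : ∀ v, ((deg v).choose t : ℝ) ≤ (2 * z) ^ t / (t.factorial : ℝ) + h (deg v) := by
    intro v
    have c1 : ((deg v).choose t : ℝ) ≤ (deg v : ℝ) ^ t / (t.factorial : ℝ) :=
      Nat.choose_le_pow_div t (deg v)
    have p1 : 0 ≤ (2 * z) ^ t / (t.factorial : ℝ) := by positivity
    by_cases hc : (2 * z < (deg v : ℝ) ∧ t ≤ deg v)
    · simp only [hh, if_pos hc]
      linarith
    · simp only [hh, if_neg hc, add_zero]
      rw [not_and_or] at hc
      rcases hc with hc | hc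
      · rw [not_lt] at hc
        refine le_trans c1 ?_
        apply div_le_div_of_nonneg_right _ hfac.le
        exact pow_le_pow_left₀ (Nat.cast_nonneg _) hc t
      · rw [not_le] at hc
        rw [Nat.choose_eq_zero_of_lt hc]
        simpa using p1
  -- Step 2
  have step2 : (∑ v, h (deg v)) =
      ∑ d ∈ range n, (((univ : Finset V).filter (fun v => deg v = d)).card : ℝ) * h d := by
    rw [← Finset.sum_fiberwise_of_maps_to (s := (univ : Finset V)) (t := range n) (g := deg)
      (fun v _ => Finset.mem_range.mpr (hdeg v))]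
    apply Finset.sum_congr rfl
    intro d _
    rw [Finset.sum_congr rfl (g := fun _ => h d)]
    · rw [Finset.sum_const, nsmul_eq_mul]
    · intro v hv
      rw [(Finset.mem_filter.mp hv).2]
  set C1 : ℝ := Real.exp 1 * n * z ^ t / (t.factorial : ℝ) with hC1
  have hC1nn : 0 ≤ C1 := by positivity
  -- Step 3
  have step3 : ∀ d ∈ range n, (((univ : Finset V).filter (fun v => deg v = d)).card : ℝ) * h d
      ≤ C1 * (if t ≤ d then ((1 : ℝ) / 2) ^ (d - t) else 0) := by
    intro d _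
    by_cases hc : (2 * z < (d : ℝ) ∧ t ≤ d)
    · obtain ⟨hc1, hc2⟩ := hc
      have hd1 : 1 ≤ d := le_trans ht hc2
      have hd0 : (0 : ℝ) < d := by exact_mod_cast hd1
      simp only [hh, if_pos (And.intro hc1 hc2), if_pos hc2]
      have hcard : (((univ : Finset V).filter (fun v => deg v = d)).card : ℝ)
          ≤ Real.exp 1 * n * (z / d) ^ d := by
        refine le_trans ?_ (htail d hd1)
        have : ((univ : Finset V).filter (fun v => deg v = d)).card
            ≤ ((univ : Finset V).filter (fun v => d ≤ deg v)).card := by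
          apply Finset.card_le_card
          intro v hv
          simp only [Finset.mem_filter, Finset.mem_univ, true_and] at hv ⊢
          omega
        exact_mod_cast this
      have hzd : z / d ≤ 1 / 2 := by
        rw [div_le_div_iff₀ hd0 (by norm_num)]
        linarith
      have hzd0 : 0 ≤ z / d := by positivity
      have hsplit : (z / d) ^ d * (d : ℝ) ^ t = z ^ t * (z / d) ^ (d - t) := by
        have : d = t + (d - t) := by omega
        conv_lhs => rw [this, pow_add]
        rw [← this, div_pow z (d : ℝ) t]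
        field_simp
      calc (((univ : Finset V).filter (fun v => deg v = d)).card : ℝ) * ((d : ℝ) ^ t / (t.factorial : ℝ))
          ≤ (Real.exp 1 * n * (z / d) ^ d) * ((d : ℝ) ^ t / (t.factorial : ℝ)) :=
            mul_le_mul_of_nonneg_right hcard (by positivity)
        _ = Real.exp 1 * n * ((z / d) ^ d * (d : ℝ) ^ t) / (t.factorial : ℝ) := by ring
        _ = C1 * (z / d) ^ (d - t) := by rw [hsplit, hC1]; ring
        _ ≤ C1 * ((1 : ℝ) / 2) ^ (d - t) :=
            mul_le_mul_of_nonneg_left (pow_le_pow_left₀ hzd0 hzd _) hC1nn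
    · simp only [hh, if_neg hc, mul_zero]
      apply mul_nonneg hC1nn
      split_ifs <;> positivity
  have step4 : (∑ v, h (deg v)) ≤ C1 * 2 := by
    rw [step2]
    refine le_trans (Finset.sum_le_sum step3) ?_
    rw [← Finset.mul_sum]
    exact mul_le_mul_of_nonneg_left (geom_tail_le n t) hC1nn
  have step5 : (∑ v, ((deg v).choose t : ℝ)) ≤ n * ((2 * z) ^ t / (t.factorial : ℝ)) + C1 * 2 := by
    calc (∑ v, ((deg v).choose t : ℝ)) ≤ ∑ v, ((2 * z) ^ t / (t.factorial : ℝ) + h (deg v)) :=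
          Finset.sum_le_sum (fun v _ => step1 v)
      _ = n * ((2 * z) ^ t / (t.factorial : ℝ)) + ∑ v, h (deg v) := by
          rw [Finset.sum_add_distrib, Finset.sum_const, nsmul_eq_mul, Finset.card_univ, hn]
      _ ≤ n * ((2 * z) ^ t / (t.factorial : ℝ)) + C1 * 2 := by linarith
  refine le_trans step5 ?_
  have he : Real.exp 1 < 3 := by
    have := Real.exp_one_lt_d9; linarith
  have hu : (2 : ℝ) ≤ 2 ^ t := by
    calc (2 : ℝ) = 2 ^ 1 := by norm_num
      _ ≤ 2 ^ t := pow_le_pow_right₀ (by norm_num) ht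
  have h8 : (2 : ℝ) ^ t + 2 * Real.exp 1 ≤ 8 ^ t := by
    have : (8 : ℝ) ^ t = (2 ^ t) ^ 3 := by
      rw [← pow_mul, mul_comm, pow_mul]; norm_num
    rw [this]
    nlinarith [sq_nonneg ((2 : ℝ) ^ t)]
  have hzt : 0 ≤ z ^ t := pow_nonneg hz t
  have : n * ((2 * z) ^ t / (t.factorial : ℝ)) + C1 * 2
      = n * z ^ t * ((2 : ℝ) ^ t + 2 * Real.exp 1) / (t.factorial : ℝ) := by
    rw [hC1, mul_pow]; ring
  rw [this, mul_pow]
  apply div_le_div_of_nonneg_right _ hfac.le
  calc n * z ^ t * ((2 : ℝ) ^ t + 2 * Real.exp 1) ≤ n * z ^ t * 8 ^ t :=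
        mul_le_mul_of_nonneg_left h8 (by positivity)
    _ = n * (8 ^ t * z ^ t) := by ring

/-- `(n/k)^k ≤ C(n,k)` for `k ≤ n`. -/
lemma div_pow_le_choose : ∀ (k n : ℕ), k ≤ n → ((n : ℝ) / k) ^ k ≤ (n.choose k : ℝ) := by
  intro k
  induction k with
  | zero => intro n _; simp
  | succ k ih =>
    intro n hn
    obtain ⟨m, rfl⟩ : ∃ m, n = m + 1 := ⟨n - 1, by omega⟩
    have hkm : k ≤ m := by omega
    have ih' := ih m hkm
    have hk1 : (0 : ℝ) < (k : ℝ) + 1 := by positivity
    have hid : ((m + 1 : ℕ) : ℝ) * (m.choose k : ℝ) = ((m + 1).choose (k + 1) : ℝ) * ((k + 1 : ℕ) : ℝ) := by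
      exact_mod_cast Nat.add_one_mul_choose_eq m k
    have hc : ((m + 1).choose (k + 1) : ℝ) = ((m : ℝ) + 1) / ((k : ℝ) + 1) * (m.choose k : ℝ) := by
      push_cast at hid
      field_simp
      linarith
    rw [hc]
    push_cast
    rw [pow_succ, mul_comm]
    apply mul_le_mul_of_nonneg_left _ (by positivity)
    refine le_trans ?_ ih'
    rcases Nat.eq_zero_or_pos k with hk | hk
    · subst hk; simp
    · have hk0 : (0 : ℝ) < k := by exact_mod_cast hk
      apply pow_le_pow_left₀ (by positivity)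
      rw [div_le_div_iff₀ hk1 hk0]
      have : (k : ℝ) ≤ m := by exact_mod_cast hkm
      nlinarith

lemma final_compare (n t : ℕ) (ht : 1 ≤ t) (htn : t + 1 ≤ n) (w : ℝ) (hw : 0 ≤ w) :
    (n : ℝ) * (8 * (w * n)) ^ t / (t.factorial : ℝ)
      ≤ (n.choose (t + 1) : ℝ) * (16 * Real.exp 2 * w) ^ t := by
  have hfac : (0 : ℝ) < (t.factorial : ℝ) := by exact_mod_cast Nat.factorial_pos t
  have hn0 : (0 : ℝ) ≤ n := Nat.cast_nonneg n
  have ht1 : (0 : ℝ) < (t : ℝ) + 1 := by positivity
  have hch := div_pow_le_choose (t + 1) n htn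
  push_cast at hch
  -- (t+1)^(t+1) ≤ e^(t+1) (t+1)!
  have h1 : ((t : ℝ) + 1) ^ (t + 1) ≤ Real.exp ((t : ℝ) + 1) * (((t + 1).factorial : ℕ) : ℝ) := by
    have hf : (0 : ℝ) < (((t + 1).factorial : ℕ) : ℝ) := by exact_mod_cast Nat.factorial_pos _
    have := Real.pow_div_factorial_le_exp ((t : ℝ) + 1) ht1.le (t + 1)
    rwa [div_le_iff₀ hf] at this
  have h2 : (((t + 1).factorial : ℕ) : ℝ) = ((t : ℝ) + 1) * (t.factorial : ℝ) := by
    rw [Nat.factorial_succ]; push_cast; ring
  have h3 : (t : ℝ) + 1 ≤ 2 ^ t := by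
    have : t + 1 ≤ 2 ^ t := Nat.lt_two_pow_self
    exact_mod_cast this
  have h4 : Real.exp ((t : ℝ) + 1) ≤ (Real.exp 2) ^ t := by
    rw [← Real.exp_nat_mul]
    apply Real.exp_le_exp.mpr
    have : (1 : ℝ) ≤ t := by exact_mod_cast ht
    linarith
  have h5 : ((t : ℝ) + 1) ^ (t + 1) ≤ (2 * Real.exp 2) ^ t * (t.factorial : ℝ) := by
    rw [h2] at h1
    refine le_trans h1 ?_
    rw [mul_pow]
    calc Real.exp ((t : ℝ) + 1) * (((t : ℝ) + 1) * (t.factorial : ℝ))
        ≤ (Real.exp 2) ^ t * (2 ^ t * (t.factorial : ℝ)) := by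
          apply mul_le_mul h4 _ (by positivity) (by positivity)
          exact mul_le_mul_of_nonneg_right h3 hfac.le
      _ = 2 ^ t * Real.exp 2 ^ t * (t.factorial : ℝ) := by ring
  have hpos : (0 : ℝ) < ((t : ℝ) + 1) ^ (t + 1) := by positivity
  calc (n : ℝ) * (8 * (w * n)) ^ t / (t.factorial : ℝ)
      = ((n : ℝ) ^ (t + 1) * (8 * w) ^ t) / (t.factorial : ℝ) := by
        rw [pow_succ, mul_pow, mul_pow, mul_pow]; ring
    _ ≤ ((n : ℝ) ^ (t + 1) * (8 * w) ^ t) * ((2 * Real.exp 2) ^ t / ((t : ℝ) + 1) ^ (t + 1)) := by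
        rw [div_eq_mul_inv]
        apply mul_le_mul_of_nonneg_left _ (by positivity)
        rw [inv_eq_one_div, div_le_div_iff₀ hfac hpos]
        linarith
    _ = ((n : ℝ) / ((t : ℝ) + 1)) ^ (t + 1) * (16 * Real.exp 2 * w) ^ t := by
        rw [div_pow, mul_pow, mul_pow, mul_pow, mul_pow]
        have : (16 : ℝ) ^ t = 8 ^ t * 2 ^ t := by rw [← mul_pow]; norm_num
        rw [this]
        field_simp
    _ ≤ (n.choose (t + 1) : ℝ) * (16 * Real.exp 2 * w) ^ t :=
        mul_le_mul_of_nonneg_right hch (by positivity)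

end Vale.Agent.Lib.P064
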