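import Mathlib
import Vale.Agent.Lib.P064.DefsT
import Vale.Agent.Lib.P064.FMain

namespace Vale.Agent.Lib.P064

theorem pTilde_le_pE {n : ℕ} (H : SimpleGraph (Fin n)) (hH : H.IsAcyclic) :
    pTilde H ≤ 49152 * Real.exp 9 * pE H := by
  set L : ℝ := 49152 * Real.exp 9 with hL
  have hL0 : 0 < L := by positivity
  set SE := {p : ℝ | 0 ≤ p ∧ p ≤ 1 ∧ ∀ F : SimpleGraph (Fin n), F ≤ H → 1 / 2 ≤ expCopies p F}
    with hSE
  set ST := {p : ℝ | 0 ≤ p ∧ p ≤ 1 ∧
    ∀ F : SimpleGraph (Fin n), F ≤ H → (copyCount H F : ℝ) / 2 ≤ expCopies p F} with hST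
  have hbdd : BddBelow ST := ⟨0, fun p hp => hp.1⟩
  have hne : SE.Nonempty := by
    refine ⟨1, zero_le_one, le_refl _, ?_⟩
    intro F _
    rw [expCopies_eq, one_pow, mul_one]
    have : 0 < copyCount ⊤ F := by
      rw [copyCount_eq, Finset.card_pos]
      exact ⟨F, mem_copiesF.mpr ⟨le_top, ⟨SimpleGraph.Iso.refl⟩⟩⟩
    have h1 : (1 : ℝ) ≤ (copyCount ⊤ F : ℝ) := by exact_mod_cast this
    linarith
  have key : ∀ q ∈ SE, pTilde H ≤ L * q := by
    intro q hq
    obtain ⟨hq0, _, hqs⟩ := hq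
    rcases hq0.eq_or_lt with h0 | hpos
    · -- q = 0
      subst h0
      rw [mul_zero]
      apply csInf_le hbdd
      refine ⟨le_refl _, zero_le_one, ?_⟩
      intro F hF
      have h1 := hqs F hF
      rw [expCopies_eq] at h1 ⊢
      rcases Nat.eq_zero_or_pos (numEdges F) with he | he
      · rw [he, pow_zero, mul_one]
        have h2 : (copyCount H F : ℝ) ≤ (copyCount ⊤ F : ℝ) := by
          exact_mod_cast copyCount_le_top H F
        have h3 : (0 : ℝ) ≤ (copyCount H F : ℝ) := Nat.cast_nonneg _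
        linarith
      · rw [zero_pow he.ne', mul_zero] at h1
        norm_num at h1
    · have hmem : min 1 (L * q) ∈ ST := by
        refine ⟨le_min zero_le_one (by positivity), min_le_left _ _, ?_⟩
        intro F _
        have h1 := forest_domination_half n q hpos H hH hqs F
        have h3 : (0 : ℝ) ≤ (copyCount H F : ℝ) := Nat.cast_nonneg _
        linarith
      exact (csInf_le hbdd hmem).trans (min_le_right _ _)
  have h2 : pTilde H / L ≤ pE H := by
    apply le_csInf hne
    intro q hq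
    rw [div_le_iff₀ hL0, mul_comm]
    exact key q hq
  rw [div_le_iff₀ hL0] at h2
  linarith

end Vale.Agent.Lib.P064
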