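import Mathlib
import Vale.Agent.Lib.P064.Defs
import Vale.Agent.Lib.P064.Count
import Vale.Agent.Lib.P064.Heavy

/-! Counting stars (P064). -/

namespace Vale.Agent.Lib.P064

open Finset

/-- The star with centre `c` and leaf set `A \ {c}`. -/
def mkStar {n : ℕ} (c : Fin n) (A : Finset (Fin n)) : SimpleGraph (Fin n) where
  Adj u v := (u = c ∧ v ∈ A ∧ v ≠ c) ∨ (v = c ∧ u ∈ A ∧ u ≠ c)
  symm := ⟨fun _ _ h => h.symm⟩
  loopless := ⟨fun u h => by
    rcases h with ⟨h1, _, h3⟩ | ⟨h1, _, h3⟩ <;> exact h3 h1⟩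

lemma mkStar_adj {n : ℕ} {c : Fin n} {A : Finset (Fin n)} (hc : c ∉ A) (u v : Fin n) :
    (mkStar c A).Adj u v ↔ (u = c ∧ v ∈ A) ∨ (v = c ∧ u ∈ A) := by
  constructor
  · rintro (⟨h1, h2, _⟩ | ⟨h1, h2, _⟩)
    · exact Or.inl ⟨h1, h2⟩
    · exact Or.inr ⟨h1, h2⟩
  · rintro (⟨h1, h2⟩ | ⟨h1, h2⟩)
    · exact Or.inl ⟨h1, h2, fun h => hc (h ▸ h2)⟩
    · exact Or.inr ⟨h1, h2, fun h => hc (h ▸ h2)⟩

lemma isStar_mkStar {n : ℕ} {c : Fin n} {A : Finset (Fin n)} (hc : c ∉ A) :
    IsStar (mkStar c A) A.card := ⟨c, A, hc, rfl, mkStar_adj hc⟩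

lemma isStar_of_iso {n t : ℕ} {F F' : SimpleGraph (Fin n)} (hF : IsStar F t) (ψ : F' ≃g F) :
    IsStar F' t := by
  classical
  obtain ⟨c, A, hc, hA, hadj⟩ := hF
  have hmem : ∀ a, a ∈ A.image ψ.symm ↔ ψ a ∈ A := by
    intro a
    rw [Finset.mem_image]
    constructor
    · rintro ⟨b, hb, rfl⟩
      simpa using hb
    · intro ha
      exact ⟨ψ a, ha, by simp⟩
  refine ⟨ψ.symm c, A.image ψ.symm, ?_, ?_, ?_⟩
  · rw [hmem]; simpa using hc
  · rw [Finset.card_image_of_injective _ ψ.symm.injective, hA]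
  · intro u v
    rw [← ψ.map_adj_iff, hadj, hmem, hmem]
    have e1 : ∀ w, ψ w = c ↔ w = ψ.symm c := by
      intro w
      constructor
      · intro h; rw [← h]; simp
      · intro h; rw [h]; simp
    rw [e1, e1]

lemma exists_perm {n : ℕ} (c c₀ : Fin n) (A A₀ : Finset (Fin n)) (hc : c ∉ A) (hc₀ : c₀ ∉ A₀)
    (hcard : A.card = A₀.card) :
    ∃ σ : Equiv.Perm (Fin n), σ c = c₀ ∧ ∀ u, u ∈ A ↔ σ u ∈ A₀ := by
  classical
  set B := insert c A with hB
  set B₀ := insert c₀ A₀ with hB₀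
  have hBc : B.card = B₀.card := by
    rw [hB, hB₀, Finset.card_insert_of_notMem hc, Finset.card_insert_of_notMem hc₀, hcard]
  let e' : {x // x ∈ B} ≃ {x // x ∈ B₀} := Finset.equivOfCardEq hBc
  let σ' : Equiv.Perm (Fin n) := e'.extendSubtype
  have hσ' : ∀ u, u ∈ B ↔ σ' u ∈ B₀ := by
    intro u
    constructor
    · intro h; exact e'.extendSubtype_mem u h
    · intro h
      by_contra hu
      exact e'.extendSubtype_not_mem u hu h
  set c₁ := σ' c with hc₁
  have hc₁B : c₁ ∈ B₀ := (hσ' c).mp (Finset.mem_insert_self c A)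
  have hc₀B : c₀ ∈ B₀ := Finset.mem_insert_self c₀ A₀
  let τ : Equiv.Perm (Fin n) := Equiv.swap c₁ c₀
  have hτ : ∀ w, w ∈ B₀ ↔ τ w ∈ B₀ := by
    intro w
    by_cases h1 : w = c₁
    · subst h1
      simp only [τ, Equiv.swap_apply_left]
      exact ⟨fun _ => hc₀B, fun _ => hc₁B⟩
    · by_cases h2 : w = c₀
      · subst h2
        simp only [τ, Equiv.swap_apply_right]
        exact ⟨fun _ => hc₁B, fun _ => hc₀B⟩
      · simp only [τ, Equiv.swap_apply_of_ne_of_ne h1 h2]
  refine ⟨σ'.trans τ, ?_, ?_⟩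
  · simp only [Equiv.trans_apply, τ]
    rw [← hc₁, Equiv.swap_apply_left]
  · intro u
    have hcu : (σ'.trans τ) c = c₀ := by
      simp only [Equiv.trans_apply, τ]
      rw [← hc₁, Equiv.swap_apply_left]
    have hBu : u ∈ B ↔ (σ'.trans τ) u ∈ B₀ := by
      rw [hσ' u, hτ (σ' u)]; rfl
    have hne : u = c ↔ (σ'.trans τ) u = c₀ := by
      rw [← hcu]
      exact ((σ'.trans τ).injective.eq_iff).symm
    constructor
    · intro hu
      have h1 : (σ'.trans τ) u ∈ B₀ := hBu.mp (Finset.mem_insert_of_mem hu)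
      rcases Finset.mem_insert.mp h1 with h2 | h2
      · exfalso
        have : u = c := hne.mpr h2
        exact hc (this ▸ hu)
      · exact h2
    · intro hu
      have h1 : u ∈ B := hBu.mpr (Finset.mem_insert_of_mem hu)
      rcases Finset.mem_insert.mp h1 with h2 | h2
      · exfalso
        have : (σ'.trans τ) u = c₀ := hne.mp h2
        exact hc₀ (this ▸ hu)
      · exact h2

lemma iso_of_isStar {n t : ℕ} {F F' : SimpleGraph (Fin n)} (hF : IsStar F t) (hF' : IsStar F' t) :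
    Nonempty (F' ≃g F) := by
  obtain ⟨c₀, A₀, hc₀, hA₀, hadj₀⟩ := hF
  obtain ⟨c, A, hc, hA, hadj⟩ := hF'
  obtain ⟨σ, hσc, hσA⟩ := exists_perm c c₀ A A₀ hc hc₀ (hA.trans hA₀.symm)
  refine ⟨⟨σ, ?_⟩⟩
  intro u v
  rw [hadj₀, hadj, hσA, hσA]
  have e1 : ∀ w, σ w = c₀ ↔ w = c := by
    intro w
    rw [← hσc]
    exact σ.injective.eq_iff
  rw [e1, e1]

/-- A star with `t` edges has `t` edges. -/
lemma numEdges_of_isStar {n t : ℕ} {F : SimpleGraph (Fin n)} (hF : IsStar F t) :
    numEdges F = t := by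
  classical
  obtain ⟨c, A, hc, hA, hadj⟩ := hF
  rw [numEdges_eq, ← hA]
  have : edgeF F = A.image (fun a => s(c, a)) := by
    ext e
    rw [mem_edgeF, Finset.mem_image]
    induction e with
    | _ u v =>
      rw [SimpleGraph.mem_edgeSet, hadj]
      constructor
      · rintro (⟨rfl, h2⟩ | ⟨rfl, h2⟩)
        · exact ⟨v, h2, rfl⟩
        · exact ⟨u, h2, Sym2.eq_swap⟩
      · rintro ⟨a, ha, h⟩
        rw [Sym2.eq_iff] at h
        rcases h with ⟨h1, h2⟩ | ⟨h1, h2⟩
        · left; exact ⟨h1.symm, h2 ▸ ha⟩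
        · right; exact ⟨h1.symm, h2 ▸ ha⟩
  rw [this, Finset.card_image_of_injective]
  intro a b hab
  simp only at hab
  rw [Sym2.eq_iff] at hab
  rcases hab with ⟨_, h2⟩ | ⟨h1, h2⟩
  · exact h2
  · rw [← h1, h2]

/-- Upper bound: copies of a `t`-star in `H`. -/
lemma copyCount_star_le {n t : ℕ} (H F : SimpleGraph (Fin n)) (hF : IsStar F t) :
    copyCount H F ≤ ∑ v, ((nb H v).card).choose t := by
  classical
  set T : Finset (Σ _ : Fin n, Finset (Fin n)) :=
    (univ : Finset (Fin n)).sigma (fun v => powersetCard t (nb H v)) with hT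
  have hTcard : T.card = ∑ v, ((nb H v).card).choose t := by
    rw [hT, Finset.card_sigma]
    apply Finset.sum_congr rfl
    intro v _
    rw [Finset.card_powersetCard]
  rw [copyCount_eq, ← hTcard]
  have hsub : copiesF H F ⊆ T.image (fun p => mkStar p.1 p.2) := by
    intro F' hF'
    obtain ⟨hle, ⟨ψ⟩⟩ := mem_copiesF.mp hF'
    obtain ⟨c, A, hc, hA, hadj⟩ := isStar_of_iso hF ψ
    rw [Finset.mem_image]
    refine ⟨⟨c, A⟩, ?_, ?_⟩
    · rw [hT, Finset.mem_sigma]
      refine ⟨Finset.mem_univ _, Finset.mem_powersetCard.mpr ⟨?_, hA⟩⟩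
      intro a ha
      rw [mem_nb]
      apply hle
      rw [hadj]
      exact Or.inl ⟨rfl, ha⟩
    · ext u v
      rw [mkStar_adj hc, hadj]
  exact le_trans (Finset.card_le_card hsub) Finset.card_image_le

open Classical in
/-- The set of non-isolated vertices. -/
noncomputable def supp {n : ℕ} (G : SimpleGraph (Fin n)) : Finset (Fin n) :=
  (univ : Finset (Fin n)).filter (fun v => ∃ w, G.Adj v w)

lemma supp_mkStar {n : ℕ} {c : Fin n} {A : Finset (Fin n)} (hc : c ∉ A) (hA : A.Nonempty) :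
    supp (mkStar c A) = insert c A := by
  classical
  ext v
  simp only [supp, Finset.mem_filter, Finset.mem_univ, true_and, Finset.mem_insert]
  constructor
  · rintro ⟨w, hw⟩
    rw [mkStar_adj hc] at hw
    rcases hw with ⟨h1, _⟩ | ⟨_, h2⟩
    · exact Or.inl h1
    · exact Or.inr h2
  · rintro (rfl | h)
    · obtain ⟨a, ha⟩ := hA
      exact ⟨a, (mkStar_adj hc _ _).mpr (Or.inl ⟨rfl, ha⟩)⟩
    · exact ⟨c, (mkStar_adj hc _ _).mpr (Or.inr ⟨rfl, h⟩)⟩

/-- Lower bound: copies of a `t`-star in the complete graph. -/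
lemma choose_le_copyCount_star {n t : ℕ} (F : SimpleGraph (Fin n)) (hF : IsStar F t) (ht : 1 ≤ t) :
    n.choose (t + 1) ≤ copyCount ⊤ F := by
  classical
  have hcard : (powersetCard (t + 1) (univ : Finset (Fin n))).card = n.choose (t + 1) := by
    rw [Finset.card_powersetCard, Finset.card_univ, Fintype.card_fin]
  rw [← hcard, copyCount_eq]
  let g : Finset (Fin n) → SimpleGraph (Fin n) := fun B =>
    if h : B.Nonempty then mkStar h.choose (B.erase h.choose) else ⊥
  have hg : ∀ B ∈ powersetCard (t + 1) (univ : Finset (Fin n)),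
      IsStar (g B) t ∧ supp (g B) = B := by
    intro B hB
    have hBc : B.card = t + 1 := (Finset.mem_powersetCard.mp hB).2
    have hne : B.Nonempty := by
      rw [← Finset.card_pos]; omega
    have hgB : g B = mkStar hne.choose (B.erase hne.choose) := by
      simp only [g, dif_pos hne]
    have hmem : hne.choose ∈ B := hne.choose_spec
    have hnot : hne.choose ∉ B.erase hne.choose := Finset.notMem_erase _ _
    have hec : (B.erase hne.choose).card = t := by
      rw [Finset.card_erase_of_mem hmem, hBc]; rfl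
    rw [hgB]
    constructor
    · have := isStar_mkStar hnot
      rwa [hec] at this
    · rw [supp_mkStar hnot, Finset.insert_erase hmem]
      rw [← Finset.card_pos]; omega
  apply Finset.card_le_card_of_injOn g
  · intro B hB
    rw [Finset.mem_coe] at hB ⊢
    rw [mem_copiesF]
    exact ⟨le_top, iso_of_isStar hF (hg B hB).1⟩
  · intro B hB B' hB' h
    rw [Finset.mem_coe] at hB hB'
    rw [← (hg B hB).2, ← (hg B' hB').2, h]

end Vale.Agent.Lib.P064
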