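import Mathlib
import Vale.Agent.Lib.P064.Defs
import Vale.Agent.Lib.P064.Count
import Vale.Agent.Lib.P064.Heavy
import Vale.Agent.Lib.P064.Star
import Vale.Agent.Lib.P064.Expect
import Vale.Agent.Lib.P064.Analysis2

/-! The domination inequality for stars with a universal constant (P064). -/

namespace Vale.Agent.Lib.P064

open Finset

lemma copyCount_le_top {n : ℕ} (H F : SimpleGraph (Fin n)) : copyCount H F ≤ copyCount ⊤ F := by
  rw [copyCount_eq, copyCount_eq]
  apply Finset.card_le_card
  intro F' hF'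
  rw [mem_copiesF] at hF' ⊢
  exact ⟨le_top, hF'.2⟩

lemma card_nb_lt {n : ℕ} (H : SimpleGraph (Fin n)) (v : Fin n) : (nb H v).card < n := by
  classical
  have h1 : nb H v ⊆ (univ : Finset (Fin n)).erase v := by
    intro w hw
    rw [mem_nb] at hw
    exact Finset.mem_erase.mpr ⟨hw.ne', Finset.mem_univ _⟩
  have h2 := Finset.card_le_card h1
  rw [Finset.card_erase_of_mem (Finset.mem_univ v), Finset.card_univ, Fintype.card_fin] at h2
  have : 0 < n := Fin.pos v
  omega

theorem star_domination (n : ℕ) (q : ℝ) (hq : 0 < q) (H : SimpleGraph (Fin n))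
    (hsparse : ∀ F : SimpleGraph (Fin n), F ≤ H → 1 ≤ expCopies q F)
    (t : ℕ) (ht : 1 ≤ t) (F : SimpleGraph (Fin n)) (hF : IsStar F t) :
    (copyCount H F : ℝ) ≤ expCopies (min 1 (16 * Real.exp 6 * q)) F := by
  classical
  rw [expCopies_eq, numEdges_of_isStar hF]
  have hsparse' : ∀ F : SimpleGraph (Fin n), F ≤ H → 1 ≤ (copyCount ⊤ F : ℝ) * q ^ numEdges F := by
    intro F' hF'
    rw [← expCopies_eq]
    exact hsparse F' hF'
  by_cases hL : 1 ≤ 16 * Real.exp 6 * q
  · rw [min_eq_left hL, one_pow, mul_one]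
    exact_mod_cast copyCount_le_top H F
  rw [not_le] at hL
  rw [min_eq_right hL.le]
  have htn : t + 1 ≤ n := by
    obtain ⟨c, A, hc, hA, -⟩ := hF
    have h1 : (insert c A).card ≤ (univ : Finset (Fin n)).card := Finset.card_le_univ _
    rw [Finset.card_insert_of_notMem hc, hA, Finset.card_univ, Fintype.card_fin] at h1
    exact h1
  set z : ℝ := Real.exp 4 * (n * q) with hz
  have hz0 : 0 ≤ z := by positivity
  have htail : ∀ d, 1 ≤ d → (((univ : Finset (Fin n)).filter (fun v => d ≤ (nb H v).card)).card : ℝ)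
      ≤ Real.exp 1 * n * (z / d) ^ d := by
    intro d hd
    have := heavy_count H q hq hsparse' d hd
    rw [hz, mul_div_assoc]
    exact this
  have h1 := sum_choose_le (fun v => (nb H v).card) n (Fintype.card_fin n) (card_nb_lt H) z hz0
    htail t ht
  have h2 := final_compare n t ht htn (Real.exp 4 * q) (by positivity)
  have h3 : (copyCount H F : ℝ) ≤ ∑ v, (((nb H v).card).choose t : ℝ) := by
    exact_mod_cast copyCount_star_le H F hF
  have h4 : (n.choose (t + 1) : ℝ) ≤ (copyCount ⊤ F : ℝ) := by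
    exact_mod_cast choose_le_copyCount_star F hF ht
  have e1 : Real.exp 4 * q * n = z := by rw [hz]; ring
  have e2 : 16 * Real.exp 2 * (Real.exp 4 * q) = 16 * Real.exp 6 * q := by
    have : Real.exp 6 = Real.exp 2 * Real.exp 4 := by
      rw [← Real.exp_add]; norm_num
    rw [this]; ring
  rw [e1, e2] at h2
  calc (copyCount H F : ℝ) ≤ ∑ v, (((nb H v).card).choose t : ℝ) := h3
    _ ≤ n * (8 * z) ^ t / (t.factorial : ℝ) := h1
    _ ≤ (n.choose (t + 1) : ℝ) * (16 * Real.exp 6 * q) ^ t := h2
    _ ≤ (copyCount ⊤ F : ℝ) * (16 * Real.exp 6 * q) ^ t :=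
        mul_le_mul_of_nonneg_right h4 (by positivity)

end Vale.Agent.Lib.P064
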